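import Crest.Agent.H1VN.Proj

/-! Towers of Pauli pairs. -/

set_option autoImplicit false

open Set Filter Topology
open scoped InnerProductSpace ComplexConjugate

noncomputable section

namespace Crest.Agent.H1VN

variable {A : Type*} [CStarAlgebra A] {T : Tr A}

def Tr.res (T : Tr A) (N : StarSubalgebra ℂ A) [IsClosed (N : Set A)] : Tr N where
  τ := T.τ.comp N.toSubalgebra.toSubmodule.subtype
  tr x y := T.tr x y
  one := T.one
  star x := T.star x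
  pos x := T.pos x

lemma J_res (T : Tr A) (N : StarSubalgebra ℂ A) [IsClosed (N : Set A)] (x : N) :
    ‖(T.res N).J x‖ = ‖T.J x‖ := by
  rw [← sq_eq_sq₀ (norm_nonneg _) (norm_nonneg _), Tr.norm_J_sq, Tr.norm_J_sq]; rfl

lemma res_τ (T : Tr A) (N : StarSubalgebra ℂ A) [IsClosed (N : Set A)] (x : N) :
    (T.res N).τ x = T.τ x := rfl

/-- closed in the 2-norm -/
def Cl (T : Tr A) (N : StarSubalgebra ℂ A) : Prop :=
  ∀ z, (∀ ε > 0, ∃ a ∈ N, ‖T.J (z - a)‖ ≤ ε) → z ∈ N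

lemma Cl.isClosed {N : StarSubalgebra ℂ A} (h : Cl T N) : IsClosed (N : Set A) :=
  isClosed_of_closure_subset fun z hz => h z fun ε hε => by
    obtain ⟨a, ha, h1⟩ := Metric.mem_closure_iff.1 hz ε hε
    exact ⟨a, ha, (T.J_le _).trans (by rw [← dist_eq_norm]; exact h1.le)⟩

lemma Tr.Good.res (hT : T.Good) {N : StarSubalgebra ℂ A} (h : Cl T N) [IsClosed (N : Set A)] :
    (T.res N).Good where
  faith x hx := Subtype.ext (hT.faith _ (by rw [← norm_eq_zero, ← J_res, hx, norm_zero]))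
  comp x C hC hx := by
    obtain ⟨z, hz, hz'⟩ := hT.comp (fun n => x n) C hC (Metric.cauchySeq_iff'.2 fun ε hε => by
      obtain ⟨n, hn⟩ := Metric.cauchySeq_iff'.1 hx ε hε
      refine ⟨n, fun m hm => lt_of_eq_of_lt ?_ (hn m hm)⟩
      rw [dist_eq_norm, dist_eq_norm, ← map_sub, ← map_sub, J_res]; rfl)
    rw [T.tendsto_iff] at hz'
    refine ⟨⟨z, h z fun ε hε => ?_⟩, hz, ?_⟩
    · obtain ⟨n, hn⟩ := (hz'.eventually (gt_mem_nhds hε)).exists
      exact ⟨x n, (x n).2, by rw [← neg_sub, map_neg, norm_neg]; exact hn.le⟩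
    · rw [Tr.tendsto_iff]; simp only [J_res]; exact hz'

structure Fac (T : Tr A) (N : StarSubalgebra ℂ A) : Prop where
  cl : Cl T N
  fac : ∀ z ∈ N, (∀ y ∈ N, z * y = y * z) → ∃ c : ℂ, z = c • 1
  inf : ¬ FiniteDimensional ℂ N

lemma Fac.ii1 (hT : T.Good) {N : StarSubalgebra ℂ A} (h : Fac T N) [IsClosed (N : Set A)] :
    II1 (T.res N) where
  good := hT.res h.cl
  fac z hz := by
    obtain ⟨c, hc⟩ := h.fac z z.2 fun y hy => congrArg Subtype.val (hz ⟨y, hy⟩)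
    exact ⟨c, Subtype.ext hc⟩
  inf := h.inf

lemma II1.fac_top (h : II1 T) : Fac T ⊤ where
  cl _ _ := trivial
  fac z _ hz := h.fac z fun y => hz y trivial
  inf h1 := h.inf (Module.Finite.of_surjective (⊤ : StarSubalgebra ℂ A).toSubalgebra.toSubmodule.subtype
    fun x => ⟨⟨x, trivial⟩, rfl⟩)

lemma Pauli.coe {N : StarSubalgebra ℂ A} [IsClosed (N : Set A)] {X Z : N} (h : Pauli X Z) :
    Pauli (X : A) Z :=
  ⟨congrArg Subtype.val h.sX, congrArg Subtype.val h.sZ, congrArg Subtype.val h.XX,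
    congrArg Subtype.val h.ZZ, congrArg Subtype.val h.ZX⟩

lemma Fac.exists_pauli (hT : T.Good) {N : StarSubalgebra ℂ A} (h : Fac T N) :
    ∃ X ∈ N, ∃ Z ∈ N, Pauli X Z := by
  have := h.cl.isClosed
  obtain ⟨X, Z, hp⟩ := (h.ii1 hT).exists_pauli
  exact ⟨X, X.2, Z, Z.2, hp.coe⟩

def pμ (X Z : A) : Av A := .mid (.mid (.pt 1) (.pt Z)) (.mid (.pt X) (.pt (X * Z)))

namespace Pauli
variable {X Z : A} (h : Pauli X Z)
include h

lemma uX : X ∈ unitary A := ⟨by rw [h.sX, h.XX], by rw [h.sX, h.XX]⟩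
lemma uZ : Z ∈ unitary A := ⟨by rw [h.sZ, h.ZZ], by rw [h.sZ, h.ZZ]⟩
lemma XX' (t : A) : X * (X * t) = t := by rw [← mul_assoc, h.XX, one_mul]
lemma ZZ' (t : A) : Z * (Z * t) = t := by rw [← mul_assoc, h.ZZ, one_mul]
lemma ZX' (t : A) : Z * (X * t) = -(X * (Z * t)) := by rw [← mul_assoc, h.ZX, neg_mul, mul_assoc]

lemma all {P : StarSubalgebra ℂ A} (hX : X ∈ P) (hZ : Z ∈ P) : (pμ X Z).All (UP P) :=
  ⟨⟨⟨one_mem _, one_mem _⟩, h.uZ, hZ⟩, ⟨h.uX, hX⟩, mul_mem h.uX h.uZ, mul_mem hX hZ⟩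

lemma avg_eq (y : A) : avg (pμ X Z) y =
    (1 / 4 : ℂ) • (y + Z * y * Z + X * y * X + X * Z * y * (Z * X)) := by
  simp only [avg, pμ, Av.E, star_mul, h.sX, h.sZ, star_one, one_mul, mul_one, ← Complex.coe_smul]
  push_cast; module

lemma commX (y : A) : X * avg (pμ X Z) y = avg (pμ X Z) y * X := by
  simp only [h.avg_eq, mul_smul_comm, smul_mul_assoc, mul_add, add_mul, mul_assoc, h.XX', h.XX,
    mul_one]
  module

lemma commZ (y : A) : Z * avg (pμ X Z) y = avg (pμ X Z) y * Z := by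
  simp only [h.avg_eq, mul_smul_comm, smul_mul_assoc, mul_add, add_mul, mul_assoc, h.ZZ', h.ZZ,
    h.ZX', h.ZX, mul_one, mul_neg, neg_mul, neg_neg]
  module

lemma decomp (y : A) : y = avg (pμ X Z) y + X * avg (pμ X Z) (X * y) + Z * avg (pμ X Z) (Z * y) +
    X * Z * avg (pμ X Z) (Z * X * y) := by
  simp only [h.avg_eq, mul_smul_comm, mul_add, mul_assoc, h.ZZ', h.XX', h.ZX', h.ZX, mul_neg,
    neg_mul, neg_neg]
  module

lemma avg_mem {N : StarSubalgebra ℂ A} (hX : X ∈ N) (hZ : Z ∈ N) {y : A} (hy : y ∈ N) :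
    avg (pμ X Z) y ∈ N := by
  rw [h.avg_eq]
  refine N.smul_mem (add_mem (add_mem (add_mem hy ?_) ?_) ?_) _ <;>
    repeat first | assumption | apply mul_mem

lemma τZ {y : A} (hy : X * y = y * X) : T.τ (Z * y) = 0 := by
  have := τ_conj T h.uX (Z * y)
  rw [h.sX, mul_assoc, mul_assoc, ← hy, h.ZX', mul_neg, h.XX', map_neg] at this
  linear_combination (-1 / 2) * this

lemma τX : T.τ X = 0 := by
  have := τ_conj T h.uZ X
  rw [h.sZ, h.ZX, neg_mul, mul_assoc, h.ZZ, mul_one, map_neg] at this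
  linear_combination (-1 / 2) * this

lemma τXZ : T.τ (X * Z) = 0 := by
  have := T.tr Z X
  rw [h.ZX, map_neg] at this
  linear_combination (-1 / 2) * this

end Pauli

/-- the relative commutant of a Pauli pair -/
def nxt (N : StarSubalgebra ℂ A) (X Z : A) : StarSubalgebra ℂ A :=
  N ⊓ StarSubalgebra.centralizer ℂ {X, Z}

lemma mem_nxt {N : StarSubalgebra ℂ A} {X Z y : A} (h : Pauli X Z) :
    y ∈ nxt N X Z ↔ y ∈ N ∧ X * y = y * X ∧ Z * y = y * Z := by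
  simp [nxt, StarSubalgebra.mem_centralizer_iff, h.sX, h.sZ]

lemma avg_nxt {N : StarSubalgebra ℂ A} {X Z y : A} (h : Pauli X Z) (hX : X ∈ N) (hZ : Z ∈ N)
    (hy : y ∈ N) : avg (pμ X Z) y ∈ nxt N X Z :=
  (mem_nxt h).2 ⟨h.avg_mem hX hZ hy, h.commX y, h.commZ y⟩

lemma comm_of_approx (hT : T.Good) {X z : A}
    (h : ∀ ε > 0, ∃ a, X * a = a * X ∧ ‖T.J (z - a)‖ ≤ ε) : X * z = z * X := by
  refine hT.eq (eq_of_forall_dist_le fun ε hε => ?_)
  obtain ⟨a, ha, h1⟩ := h (ε / (2 * ‖X‖ + 1)) (by positivity)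
  rw [dist_eq_norm, ← map_sub, show X * z - z * X = X * (z - a) - (z - a) * X by
    rw [mul_sub, sub_mul, ha]; abel, map_sub]
  refine (norm_sub_le _ _).trans ((add_le_add (T.J_mul_le _ _) (T.J_mul_le' _ _)).trans ?_)
  rw [le_div_iff₀ (by positivity)] at h1
  nlinarith [norm_nonneg (T.J (z - a))]

lemma Fac.nxt (hT : T.Good) {N : StarSubalgebra ℂ A} (hN : Fac T N) {X Z : A} (h : Pauli X Z)
    (hX : X ∈ N) (hZ : Z ∈ N) : Fac T (nxt N X Z) where
  cl z hz := (mem_nxt h).2 ⟨hN.cl z fun ε hε => by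
      obtain ⟨a, ha, h1⟩ := hz ε hε; exact ⟨a, ((mem_nxt h).1 ha).1, h1⟩,
    comm_of_approx hT fun ε hε => by
      obtain ⟨a, ha, h1⟩ := hz ε hε; exact ⟨a, ((mem_nxt h).1 ha).2.1, h1⟩,
    comm_of_approx hT fun ε hε => by
      obtain ⟨a, ha, h1⟩ := hz ε hε; exact ⟨a, ((mem_nxt h).1 ha).2.2, h1⟩⟩
  fac z hz hc := by
    obtain ⟨h1, h2, h3⟩ := (mem_nxt h).1 hz
    refine hN.fac z h1 fun y hy => ?_
    have c1 : Commute z X := h2.symm
    have c2 : Commute z Z := h3.symm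
    have c3 : ∀ y ∈ N, Commute z (avg (pμ X Z) y) := fun y hy => hc _ (avg_nxt h hX hZ hy)
    rw [h.decomp y]
    exact (((c3 y hy).add_right (c1.mul_right (c3 _ (mul_mem hX hy)))).add_right
      (c2.mul_right (c3 _ (mul_mem hZ hy)))).add_right
        ((c1.mul_right c2).mul_right (c3 _ (mul_mem (mul_mem hZ hX) hy)))
  inf h1 := by
    let S := (H1VN.nxt N X Z).toSubalgebra.toSubmodule
    have : FiniteDimensional ℂ S := h1
    refine hN.inf (Submodule.finiteDimensional_of_le (S₁ := N.toSubalgebra.toSubmodule)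
      (S₂ := S ⊔ S.map (LinearMap.mulLeft ℂ X) ⊔ S.map (LinearMap.mulLeft ℂ Z) ⊔
        S.map (LinearMap.mulLeft ℂ (X * Z))) fun y hy => ?_)
    rw [h.decomp y]
    exact Submodule.add_mem_sup (Submodule.add_mem_sup (Submodule.add_mem_sup (avg_nxt h hX hZ hy)
      ⟨_, avg_nxt h hX hZ (mul_mem hX hy), rfl⟩) ⟨_, avg_nxt h hX hZ (mul_mem hZ hy), rfl⟩)
      ⟨_, avg_nxt h hX hZ (mul_mem (mul_mem hZ hX) hy), rfl⟩

theorem exists_tower (h : II1 T) (Q : A → A → A → Prop)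
    (hQ : ∀ N, Fac T N → ∀ B ∈ N, ∃ X ∈ N, ∃ Z ∈ N, Pauli X Z ∧ Q B X Z) (c : ℕ → A) :
    ∃ (X Z : ℕ → A) (μ : ℕ → Av A), (∀ k, Pauli (X k) (Z k)) ∧
      (∀ i j, i < j → (X i * X j = X j * X i ∧ Z i * X j = X j * Z i) ∧
        X i * Z j = Z j * X i ∧ Z i * Z j = Z j * Z i) ∧ μ 0 = .pt 1 ∧
      (∀ k, μ (k + 1) = cmp (pμ (X k) (Z k)) (μ k)) ∧ ∀ k, Q (avg (μ k) (c k)) (X k) (Z k) := by
  let S := {s : StarSubalgebra ℂ A × Av A // Fac T s.1 ∧ ∀ y, avg s.2 y ∈ s.1}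
  choose X hX Z hZ hP hQ' using fun (k : ℕ) (s : S) => hQ s.1.1 s.2.1 _ (s.2.2 (c k))
  let F : ℕ → S → S := fun k s => ⟨(nxt s.1.1 (X k s) (Z k s), cmp (pμ (X k s) (Z k s)) s.1.2),
    s.2.1.nxt h.good (hP k s) (hX k s) (hZ k s), fun y => by
      rw [avg_cmp]; exact avg_nxt (hP k s) (hX k s) (hZ k s) (s.2.2 y)⟩
  let s : ℕ → S := fun n => Nat.rec ⟨(⊤, .pt 1), h.fac_top, fun _ => trivial⟩ F n
  have hs : ∀ i j, i < j → (s j).1.1 ≤ nxt (s i).1.1 (X i (s i)) (Z i (s i)) := by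
    intro i j hij
    induction hij with
    | refl => exact le_rfl
    | step _ ih => exact inf_le_left.trans ih
  exact ⟨fun k => X k (s k), fun k => Z k (s k), fun k => (s k).1.2, fun k => hP _ _,
    fun i j hij => ⟨((mem_nxt (hP _ _)).1 (hs i j hij (hX _ _))).2,
      ((mem_nxt (hP _ _)).1 (hs i j hij (hZ _ _))).2⟩, rfl, fun _ => rfl, fun k => hQ' _ _⟩

/-- a weakly null sequence of unitaries -/
def WN (T : Tr A) (P : StarSubalgebra ℂ A) : Prop :=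
  ∃ r : ℕ → A, (∀ n, UP P (r n)) ∧ ∀ C, Tendsto (fun n => T.τ (r n * C)) atTop (𝓝 0)

lemma wn_of_pauli {P : StarSubalgebra ℂ A} {X Z : ℕ → A} (h : ∀ k, Pauli (X k) (Z k))
    (hc : ∀ i j, i < j → X i * Z j = Z j * X i) (hP : ∀ k, Z k ∈ P) : WN T P := by
  refine ⟨Z, fun k => ⟨(h k).uZ, hP k⟩, fun C => ?_⟩
  have ho : Orthonormal ℂ fun k => T.J (Z k) := by
    refine ⟨fun k => by simpa [T.norm_J_one] using T.J_unit_mul (h k).uZ 1, fun i j hij => ?_⟩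
    simp only [T.inner_J, (h i).sZ]
    rcases lt_or_gt_of_ne hij with h1 | h1
    · exact (h i).τZ (hc i j h1)
    · rw [T.tr]; exact (h j).τZ (hc j i h1)
  have := (ho.inner_products_summable (T.J C)).tendsto_atTop_zero
  simp only [T.inner_J, (h _).sZ] at this
  rw [tendsto_zero_iff_norm_tendsto_zero]
  simpa using this.sqrt

lemma Fac.wn (hT : T.Good) {P : StarSubalgebra ℂ A} (hP : Fac T P) : WN T P := by
  have := hP.cl.isClosed
  obtain ⟨X, Z, -, h1, h2, -⟩ := exists_tower (hP.ii1 hT) (fun _ _ _ => True) (fun N hN _ _ => by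
    obtain ⟨X, hX, Z, hZ, h⟩ := hN.exists_pauli (hT.res hP.cl)
    exact ⟨X, hX, Z, hZ, h, trivial⟩) fun _ => 0
  exact wn_of_pauli (X := fun k => X k) (Z := fun k => Z k) (fun k => (h1 k).coe)
    (fun i j hij => congrArg Subtype.val (h2 i j hij).2.1) fun k => (Z k).2

end Crest.Agent.H1VN
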