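import Crest.Agent.H1VN.Av

/-! Support projections, polar parts and Pauli pairs in a II₁ factor. -/

set_option autoImplicit false

open Set Filter Topology
open scoped InnerProductSpace ComplexConjugate

noncomputable section

namespace Crest.Agent.H1VN

variable {A : Type*} [CStarAlgebra A] {T : Tr A}

structure II1 (T : Tr A) : Prop where
  good : T.Good
  fac : ∀ z : A, (∀ y, z * y = y * z) → ∃ c : ℂ, z = c • 1
  inf : ¬ FiniteDimensional ℂ A

lemma II1.av (h : II1 T) : AV T ⊤ :=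
  av_of h.good isClosed_univ fun z hz => h.fac z fun y => hz y trivial

lemma norm_one_sub_le (z : A) : ‖1 - ((‖z‖ ^ 2 + 1)⁻¹ : ℝ) • (star z * z)‖ ≤ 1 := by
  let := CStarAlgebra.spectralOrder A
  have := CStarAlgebra.spectralOrderedRing A
  have h1 := CStarAlgebra.star_mul_le_algebraMap_norm_sq (a := z)
  have h0 : (0 : ℝ) ≤ (‖z‖ ^ 2 + 1)⁻¹ := by positivity
  refine (CStarAlgebra.norm_le_one_iff_of_nonneg _ ?_).2
    (sub_le_self _ (smul_nonneg h0 (star_mul_self_nonneg z)))
  · rw [sub_nonneg]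
    refine (smul_le_smul_of_nonneg_left h1 h0).trans ?_
    rw [Algebra.algebraMap_eq_smul_one, smul_smul, ← sub_nonneg]
    nth_rewrite 1 [← one_smul ℝ (1 : A)]
    rw [← sub_smul]
    refine smul_nonneg (sub_nonneg.2 ?_) zero_le_one
    rw [inv_mul_le_iff₀ (by positivity)]; linarith

lemma supp_proj (hT : T.Good) (x : A) :
    ∃ f : A, star f = f ∧ f * f = f ∧ f * x = x ∧ ∀ y, y * x = 0 → y * f = 0 := by
  have := hT.exists_min (S := {y | ‖y‖ ≤ 1 ∧ y * x = x})
    ⟨1, Tr.norm_unit_le (one_mem _), one_mul x⟩ (C := 1) (fun y hy => hy.1)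
    (fun y hy z hz => ⟨by
      rw [norm_smul, Real.norm_of_nonneg (by norm_num)]
      linarith [norm_add_le y z, hy.1, hz.1], by
      rw [smul_mul_assoc, add_mul, hy.2, hz.2]; module⟩)
    (fun y z hy hz hl => ⟨hz, by
      have := T.tendsto_mul (C := 1) (fun n => (hy n).1) hl (tendsto_const_nhds (x := T.J x))
      simp only [(hy _).2, tendsto_const_nhds_iff] at this
      exact hT.eq this.symm⟩)
  obtain ⟨f, ⟨hf, hx⟩, hmin⟩ := this
  have hs : star f = f := by
    refine hmin _ ⟨by rwa [norm_star], hT.eq (sub_eq_zero.1 (norm_eq_zero.1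
      (pow_eq_zero_iff two_ne_zero |>.1 (le_antisymm ?_ (sq_nonneg _)))))⟩ (T.J_star f).le
    rw [norm_sub_sq (𝕜 := ℂ), T.inner_J, star_mul, star_star, mul_assoc, hx, RCLike.re_to_complex,
      ← T.norm_J_sq]
    have : ‖T.J (star f * x)‖ ^ 2 ≤ ‖T.J x‖ ^ 2 := by
      gcongr
      exact (T.J_mul_le _ _).trans (mul_le_of_le_one_left (norm_nonneg _) (by rwa [norm_star]))
    linarith
  refine ⟨f, hs, hmin _ ⟨(norm_mul_le _ _).trans (mul_le_one₀ hf (norm_nonneg _) hf),
    by rw [mul_assoc, hx, hx]⟩ ((T.J_mul_le _ _).trans (mul_le_of_le_one_left (norm_nonneg _) hf)),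
    hx, fun z hz => ?_⟩
  have h1 := norm_one_sub_le z
  have := hmin (f * (1 - ((‖z‖ ^ 2 + 1)⁻¹ : ℝ) • (star z * z)))
    ⟨(norm_mul_le _ _).trans (mul_le_one₀ hf (norm_nonneg _) h1), by
      rw [mul_assoc, sub_mul, smul_mul_assoc, mul_assoc, hz]; simp [hx]⟩
    ((T.J_mul_le' _ _).trans (mul_le_of_le_one_right (norm_nonneg _) h1))
  rw [mul_sub, mul_one, sub_eq_self, mul_smul_comm, smul_eq_zero_iff_right (by positivity)] at this
  rw [← CStarRing.star_mul_self_eq_zero_iff, star_mul, hs, ← mul_assoc, mul_assoc f, this, zero_mul]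

lemma polar (hT : T.Good) {c : A} (hc : c ≠ 0) : ∃ w : A, w ≠ 0 ∧ w * star w * w = w ∧
    (∀ y, y * c = 0 → y * w = 0) ∧ ∀ y, c * y = 0 → w * y = 0 := by
  let := CStarAlgebra.spectralOrder A
  have := CStarAlgebra.spectralOrderedRing A
  have : Nontrivial A := ⟨c, 0, hc⟩
  set b := star c * c with hb
  have hb0 : 0 ≤ b := star_mul_self_nonneg c
  have hε : 0 < ‖b‖ / 2 := half_pos (norm_pos_iff.2 (CStarRing.star_mul_self_ne_zero_iff c |>.2 hc))
  set ε := ‖b‖ / 2 with hεd
  have hbs : IsSelfAdjoint b := hb0.isSelfAdjoint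
  obtain ⟨k, hkd⟩ : ∃ k : ℝ → ℝ, k = fun t => max (t - ε) 0 / max t ε := ⟨_, rfl⟩
  obtain ⟨g, hgd⟩ : ∃ g : ℝ → ℝ, g = fun t => (√(max t ε))⁻¹ := ⟨_, rfl⟩
  have hm : ∀ t, 0 < max t ε := fun t => lt_max_of_lt_right hε
  have hk : Continuous k := hkd ▸ Continuous.div (by fun_prop) (by fun_prop) fun t => (hm t).ne'
  have hg : Continuous g :=
    hgd ▸ Continuous.inv₀ (by fun_prop) fun t => (Real.sqrt_pos.2 (hm t)).ne'
  clear_value ε b
  have e1 : b * cfc k b = cfc (fun t => t * k t) b := by rw [cfc_mul .., cfc_id' ..]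
  have e2 : (cfc g b * b * cfc g b - 1) * (b * cfc k b) = 0 := by
    have : (cfc g b * b * cfc g b - 1) * (b * cfc k b) =
        cfc (fun t => (g t * t * g t - 1) * (t * k t)) b := by
      rw [cfc_mul .., cfc_sub .., cfc_mul .., cfc_mul .., cfc_id' .., cfc_const_one .., e1]
    rw [this, ← cfc_const_zero ℝ b]
    refine cfc_congr fun t _ => ?_
    rcases le_total t ε with h | h
    · simp [hkd, h]
    · have : g t * t * g t = 1 := by
        simp only [hgd, max_eq_left h]
        have := Real.mul_self_sqrt (hε.le.trans h)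
        have h2 := (Real.sqrt_pos.2 (hε.trans_le h)).ne'
        field_simp; nlinarith
      simp [this]
  have hx : b * cfc k b ≠ 0 := fun h => by
    have := norm_apply_le_norm_cfc (fun t => t * k t) b (CStarAlgebra.norm_mem_spectrum_of_nonneg hb0)
    rw [← e1, h, norm_zero, norm_le_zero_iff] at this
    have h2 : ‖b‖ = 2 * ε := by rw [hεd]; ring
    simp only [hkd, h2] at this
    rw [max_eq_left (by linarith), max_eq_left (by linarith)] at this
    have h3 : 0 < 2 * ε * ((2 * ε - ε) / (2 * ε)) := mul_pos (by linarith) (div_pos (by linarith) (by linarith))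
    linarith
  obtain ⟨f, hs, hf, hfx, hann⟩ := supp_proj hT (b * cfc k b)
  have hgs : star (cfc g b) = cfc g b := (cfc_predicate g b : IsSelfAdjoint _)
  have e3 : star (c * cfc g b * f) * (c * cfc g b * f) = f := by
    have := hann _ e2
    rw [sub_mul, one_mul, sub_eq_zero] at this
    rw [star_mul, star_mul, hs, hgs]
    calc _ = f * (cfc g b * b * cfc g b * f) := by simp only [hb, mul_assoc]
      _ = f := by rw [this, hf]
  refine ⟨c * cfc g b * f, fun h => hx ?_, by rw [mul_assoc, e3, mul_assoc, hf], fun y hy => ?_,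
    fun y hy => ?_⟩
  · rw [h, mul_zero] at e3; rw [← hfx, ← e3, zero_mul]
  · rw [← mul_assoc, ← mul_assoc, hy, zero_mul, zero_mul]
  · have := hann (star y) (by rw [hb, ← mul_assoc, ← mul_assoc, ← star_mul, hy]; simp)
    rw [mul_assoc, ← star_star (f * y), star_mul, hs, this]; simp

lemma τ_proj {F : A} (hs : star F = F) (hF : F * F = F) : T.τ F = ((‖T.J F‖ ^ 2 : ℝ) : ℂ) := by
  rw [T.norm_J_sq', hs, hF]

lemma not_minimal (h : II1 T) {F : A} (hs : star F = F) (hF : F * F = F) (h0 : F ≠ 0) :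
    ¬ ∀ x, ∃ c : ℂ, F * x * F = c • F := by
  intro hm
  have ht : 0 < ‖T.J F‖ ^ 2 := pow_pos (norm_pos_iff.2 fun e => h0 (h.good.faith _ e)) 2
  have hτ := τ_proj (T := T) hs hF
  set t := ‖T.J F‖ ^ 2
  have : Infinite (Module.Basis.ofVectorSpaceIndex ℂ A) := by
    by_contra hi
    rw [not_infinite_iff_finite] at hi
    exact h.inf (Module.Finite.of_basis (Module.Basis.ofVectorSpace ℂ A))
  have hli := ((Module.Basis.ofVectorSpace ℂ A).linearIndependent.comp _
    (Infinite.natEmbedding _).injective).map' T.J.toLinearMap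
    (LinearMap.ker_eq_bot'.2 h.good.faith)
  have ho := InnerProductSpace.gramSchmidtNormed_orthonormal hli
  have : ∀ n, ∃ x, T.J x = InnerProductSpace.gramSchmidtNormed ℂ
      (T.J.toLinearMap ∘ Module.Basis.ofVectorSpace ℂ A ∘ Infinite.natEmbedding _) n := fun n => by
    change _ ∈ LinearMap.range T.J.toLinearMap
    refine Submodule.smul_mem _ _ (Submodule.span_le.2 ?_
      (InnerProductSpace.gramSchmidt_mem_span ℂ _ le_rfl))
    rintro _ ⟨i, -, rfl⟩; exact ⟨_, rfl⟩
  choose x hx using this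
  rw [← funext hx] at ho
  obtain ⟨m, hm'⟩ := exists_nat_gt (1 / t ^ 2)
  have h1 : ∀ s ∈ unitary A, ∀ s' ∈ unitary A, (T.τ ((∑ i ∈ Finset.range m,
      star (x i) * (s * F * star s) * x i) * (s' * F * star s'))).re ≤ 1 := by
    intro s hs1 s' hs'
    have h2 := ho.sum_inner_products_le (T.J (s * F * star s')) (s := Finset.range m)
    rw [T.J_mul_unit (Unitary.star_mem hs'), T.J_unit_mul hs1] at h2
    rw [Finset.sum_mul, map_sum, Complex.re_sum, ← mul_le_mul_iff_right₀ ht, Finset.mul_sum, mul_one]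
    refine le_of_eq_of_le (Finset.sum_congr rfl fun i _ => ?_) h2
    obtain ⟨c, hc⟩ := hm (star s * x i * s')
    have hc' : F * (star s' * star (x i) * s) * F = conj c • F := by
      simpa [hs, mul_assoc] using congrArg star hc
    have e1 : ⟪T.J (x i), T.J (s * F * star s')⟫_ℂ = conj c * t := by
      rw [T.inner_J, ← hτ, ← smul_eq_mul (conj c), ← map_smul, ← hc', T.tr _ F, ← mul_assoc F, hF,
        ← mul_assoc, T.tr _ (star s'), T.tr F]
      simp only [mul_assoc]
    have e2 : T.τ (star (x i) * (s * F * star s) * x i * (s' * F * star s')) = conj c * c * t := by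
      calc _ = T.τ (star (x i) * s * (F * (star s * x i * s') * F) * star s') := by
            simp only [mul_assoc]
        _ = c * (conj c * t) := by
            rw [hc, ← e1, T.inner_J, mul_smul_comm, smul_mul_assoc, map_smul, smul_eq_mul]
            simp only [mul_assoc]
        _ = _ := by ring
    rw [e1, e2, Complex.conj_mul', norm_mul, Complex.norm_conj, Complex.norm_real,
      Real.norm_of_nonneg ht.le]
    norm_cast; ring
  have h2 : ∀ s ∈ unitary A, (T.τ ((t : ℂ) • (∑ i ∈ Finset.range m, x i * star (x i)) *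
      (s * F * star s))).re ≤ 1 := fun s hs1 => by
    have := h.av.le (c := F) fun s' hs' => h1 s hs1 s' hs'.1
    rw [hτ] at this
    refine le_of_eq_of_le ?_ this
    rw [smul_mul_assoc, map_smul, smul_eq_mul, mul_comm, Finset.sum_mul, map_sum, map_sum]
    congr 2
    exact Finset.sum_congr rfl fun i _ => by rw [T.tr _ (x i), mul_assoc]
  have h3 := h.av.le (c := F) fun s hs => h2 s hs.1
  have h4 : ∀ i, T.τ (x i * star (x i)) = 1 := fun i => by
    rw [T.tr, ← T.norm_J_sq', ho.1 i]; simp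
  rw [hτ, map_smul, map_sum, Finset.sum_congr rfl fun i _ => h4 i] at h3
  simp only [Finset.sum_const, Finset.card_range, nsmul_eq_mul, mul_one, smul_eq_mul] at h3
  norm_cast at h3
  rw [div_lt_iff₀ (by positivity)] at hm'
  push_cast at h3
  nlinarith

lemma exists_nil (h : II1 T) {F : A} (hs : star F = F) (hF : F * F = F) (h0 : F ≠ 0) :
    ∃ c : A, c ≠ 0 ∧ c * c = 0 ∧ F * c = c ∧ c * F = c := by
  let := CStarAlgebra.spectralOrder A
  have := CStarAlgebra.spectralOrderedRing A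
  have ht : 0 < ‖T.J F‖ ^ 2 := pow_pos (norm_pos_iff.2 fun e => h0 (h.good.faith _ e)) 2
  have hτ := τ_proj (T := T) hs hF
  have hτ0 : T.τ F ≠ 0 := by rw [hτ]; exact_mod_cast ht.ne'
  obtain ⟨a, ha, ha0, hτa, hFa⟩ : ∃ a : A, IsSelfAdjoint a ∧ a ≠ 0 ∧ T.τ a = 0 ∧ F * a = a := by
    by_contra hcon
    push Not at hcon
    have key : ∀ y : A, IsSelfAdjoint y → ∃ c : ℂ, F * y * F = c • F := by
      intro y hy
      refine ⟨T.τ (F * y * F) / T.τ F, ?_⟩
      have hsa : star (F * y * F) = F * y * F := by simp [hs, hy.star_eq, mul_assoc]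
      by_contra hne
      refine hcon (F * y * F - (T.τ (F * y * F) / T.τ F) • F) ?_ (sub_ne_zero.2 hne) ?_ ?_
      · rw [IsSelfAdjoint, star_sub, star_smul, hsa, hs, RCLike.star_def, map_div₀, ← T.star,
          ← T.star, hsa, hs]
      · rw [map_sub, map_smul, smul_eq_mul, div_mul_cancel₀ _ hτ0, sub_self]
      · rw [mul_sub, mul_smul_comm, hF, ← mul_assoc, ← mul_assoc, hF]
    refine not_minimal h hs hF h0 fun x => ?_
    obtain ⟨c, hc⟩ := key _ (realPart x).2
    obtain ⟨d, hd⟩ := key _ (imaginaryPart x).2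
    refine ⟨c + Complex.I * d, ?_⟩
    rw [← realPart_add_I_smul_imaginaryPart x, mul_add, add_mul, mul_smul_comm, smul_mul_assoc,
      hc, hd, add_smul, mul_smul]
  have e := CFC.posPart_sub_negPart a ha
  have e1 := CFC.posPart_mul_negPart a
  have e2 := CFC.negPart_mul_posPart a
  have p1 := CFC.posPart_nonneg a
  have p2 := CFC.negPart_nonneg a
  have s1 : star a⁺ = a⁺ := p1.isSelfAdjoint
  have s2 : star a⁻ = a⁻ := p2.isSelfAdjoint
  generalize a⁺ = y₁ at *
  generalize a⁻ = y₂ at *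
  have hz : ∀ y : A, 0 ≤ y → T.τ y = 0 → y = 0 := fun y hy h1 => by
    obtain ⟨z, rfl⟩ := CStarAlgebra.nonneg_iff_eq_star_mul_self.1 hy
    rw [← T.norm_J_sq'] at h1
    rw [h.good.faith z (by simpa using h1), mul_zero]
  have n1 : y₁ ≠ 0 := fun h1 => by
    rw [h1, zero_sub] at e
    rw [← e, map_neg, neg_eq_zero] at hτa
    exact ha0 (by rw [← e, hz _ p2 hτa, neg_zero])
  have n2 : y₂ ≠ 0 := fun h1 => by
    rw [h1, sub_zero] at e
    exact ha0 (hz _ (e ▸ p1) hτa)
  have f0 : (1 - F) * y₁ = (1 - F) * y₂ := by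
    rw [← sub_eq_zero, ← mul_sub, e, sub_mul, one_mul, hFa, sub_self]
  have f1 : (1 - F) * y₁ = 0 := by
    rw [← CStarRing.mul_star_self_eq_zero_iff, star_mul, s1, ← mul_assoc, f0, mul_assoc _ y₂, e2]
    simp
  have f2 : y₂ * (1 - F) = 0 := by
    simpa [s2, hs] using congrArg star (f0 ▸ f1 : (1 - F) * y₂ = 0)
  obtain ⟨s, hs'⟩ : ∃ s, y₁ * s * y₂ ≠ 0 := by
    by_contra hcon
    push Not at hcon
    have := h.av.le (Y := star y₁ * y₁) (c := star y₂ * y₂) (K := 0) fun s _ => by
      rw [s2, show star y₁ * y₁ * (s * (y₂ * y₂) * star s) =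
        star y₁ * (y₁ * s * y₂) * (y₂ * star s) by simp only [mul_assoc], hcon]; simp
    rw [← T.norm_J_sq', ← T.norm_J_sq'] at this
    norm_cast at this
    have h1 := pow_pos (norm_pos_iff.2 fun e => n1 (h.good.faith _ e)) 2
    have h2 := pow_pos (norm_pos_iff.2 fun e => n2 (h.good.faith _ e)) 2
    nlinarith [mul_pos h1 h2]
  refine ⟨_, hs', ?_, ?_, ?_⟩
  · rw [mul_assoc _ y₂, ← mul_assoc y₂, ← mul_assoc y₂, e2]; simp
  · rw [sub_mul, one_mul, sub_eq_zero] at f1
    rw [← mul_assoc, ← mul_assoc, ← f1]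
  · rw [mul_sub, mul_one, sub_eq_zero] at f2
    rw [mul_assoc, ← f2]

lemma brezis_browder {X : Type*} (le : X → X → Prop) (hr : ∀ x, le x x)
    (htr : ∀ x y z, le x y → le y z → le x z) (t : X → ℝ) {C : ℝ} (hC : ∀ x, t x ≤ C)
    (hm : ∀ x y, le x y → t x ≤ t y)
    (hub : ∀ x : ℕ → X, (∀ n, le (x n) (x (n + 1))) → ∃ z, ∀ n, le (x n) z) (x₀ : X) :
    ∃ z, ∀ y, le z y → t y ≤ t z := by
  have : ∀ (n : ℕ) (x : X), ∃ x', le x x' ∧ ∀ y, le x y → t y ≤ t x' + 1 / (n + 1) := by
    intro n x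
    obtain ⟨_, ⟨x', h1, rfl⟩, h2⟩ := exists_lt_of_lt_csSup (s := t '' {y | le x y}) ⟨_, x, hr x, rfl⟩
      (sub_lt_self _ (by positivity : (0 : ℝ) < 1 / (n + 1)))
    refine ⟨x', h1, fun y hy => ?_⟩
    have := le_csSup (s := t '' {y | le x y}) ⟨C, by rintro _ ⟨y, -, rfl⟩; exact hC y⟩ ⟨y, hy, rfl⟩
    linarith
  choose F h1 h2 using this
  obtain ⟨z, hz⟩ := hub (fun n => Nat.rec x₀ F n) fun n => h1 _ _
  refine ⟨z, fun y hy => ?_⟩
  have := ge_of_tendsto' (tendsto_one_div_add_atTop_nhds_zero_nat.const_add (t z)) fun n =>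
    (h2 n _ y (htr _ _ _ (hz n) hy)).trans (add_le_add (hm _ _ (hz (n + 1))) le_rfl)
  simpa using this

structure Pauli (X Z : A) : Prop where
  sX : star X = X
  sZ : star Z = Z
  XX : X * X = 1
  ZZ : Z * Z = 1
  ZX : Z * X = -(X * Z)

theorem II1.exists_pauli (h : II1 T) : ∃ X Z : A, Pauli X Z := by
  let S := {v : A // v * star v * v = v ∧ v * v = 0}
  let le : S → S → Prop := fun v w => star v.1 * w.1 = star v.1 * v.1 ∧ w.1 * star v.1 = v.1 * star v.1
  have hn : ∀ v : S, ‖v.1‖ ≤ 1 := fun v => by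
    have h1 := CStarRing.norm_star_mul_self (x := star v.1 * v.1)
    rw [star_mul, star_star, mul_assoc, ← mul_assoc v.1, v.2.1, CStarRing.norm_star_mul_self] at h1
    by_contra hc
    push Not at hc
    nlinarith [mul_pos (sub_pos.2 hc) (sub_pos.2 hc)]
  have hd : ∀ v w, le v w → ‖T.J w.1 - T.J v.1‖ ^ 2 = ‖T.J w.1‖ ^ 2 - ‖T.J v.1‖ ^ 2 := by
    intro v w hvw
    rw [norm_sub_rev, norm_sub_sq (𝕜 := ℂ), T.inner_J, hvw.1, RCLike.re_to_complex, ← T.norm_J_sq]
    ring
  have htr : ∀ x y z, le x y → le y z → le x z := by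
    rintro ⟨x, hx⟩ ⟨y, hy⟩ ⟨z, hz⟩ h1 h2
    simp only [le] at h1 h2 ⊢
    have e1 : star x = star x * x * star y := by
      have := congrArg star (show x = y * star x * x by rw [h1.2, hx.1])
      simpa [mul_assoc] using this
    have e2 : star x = star y * x * star x := by
      have := congrArg star (show x = x * (star x * y) by rw [h1.1, ← mul_assoc, hx.1])
      simpa [mul_assoc] using this
    constructor
    · rw [e1, mul_assoc, h2.1, ← mul_assoc, ← e1, h1.1]
    · rw [e2, ← mul_assoc, ← mul_assoc, h2.2, mul_assoc, mul_assoc, ← mul_assoc (star y), ← e2, h1.2]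
  have hm : ∀ v w, le v w → ‖T.J v.1‖ ^ 2 ≤ ‖T.J w.1‖ ^ 2 := fun v w hvw => by
    linarith [hd v w hvw, sq_nonneg ‖T.J w.1 - T.J v.1‖]
  have hC : ∀ v : S, ‖T.J v.1‖ ^ 2 ≤ 1 := fun v =>
    pow_le_one₀ (norm_nonneg _) ((T.J_le _).trans (hn v))
  obtain ⟨⟨z, hz1, hz2⟩, hz⟩ := brezis_browder le (fun _ => ⟨rfl, rfl⟩) htr (fun v => ‖T.J v.1‖ ^ 2)
    hC hm (fun x hx => by
      have h1 : ∀ n m, n ≤ m → le (x n) (x m) := fun n m hnm => by
        induction hnm with
        | refl => exact ⟨rfl, rfl⟩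
        | step _ ih => exact htr _ _ _ ih (hx _)
      have h2 : CauchySeq fun n => ‖T.J (x n).1‖ ^ 2 :=
        (tendsto_atTop_ciSup (fun n m hnm => hm _ _ (h1 n m hnm))
          ⟨1, by rintro _ ⟨n, rfl⟩; exact hC _⟩).cauchySeq
      obtain ⟨z, -, hz⟩ := h.good.comp (fun n => (x n).1) 1 (fun n => hn _)
        (Metric.cauchySeq_iff'.2 fun ε hε => by
          obtain ⟨N, hN⟩ := Metric.cauchySeq_iff'.1 h2 (ε ^ 2) (by positivity)
          refine ⟨N, fun n hn => ?_⟩
          rw [dist_eq_norm]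
          refine lt_of_pow_lt_pow_left₀ 2 hε.le ?_
          rw [hd _ _ (h1 N n hn)]
          exact (le_abs_self _).trans_lt (hN n hn))
      have h3 := T.tendsto_mul (C := 1) (fun n => hn (x n)) hz (T.tendsto_mul (C := 1)
        (fun n => by simpa using hn (x n)) (T.tendsto_star hz) hz)
      have h4 := T.tendsto_mul (C := 1) (fun n => hn (x n)) hz hz
      simp only [← mul_assoc, (x _).2.1, (x _).2.2, tendsto_const_nhds_iff] at h3 h4
      refine ⟨⟨z, h.good.eq (tendsto_nhds_unique h3 hz), h.good.eq h4.symm⟩, fun n => ⟨?_, ?_⟩⟩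
      · refine h.good.eq (tendsto_nhds_unique (T.tendsto_mul (fun _ => le_rfl)
          (tendsto_const_nhds (x := T.J (star (x n).1))) hz) ?_)
        refine tendsto_const_nhds.congr' ((eventually_ge_atTop n).mono fun m hm => ?_)
        simp only [(h1 n m hm).1]
      · refine h.good.eq (tendsto_nhds_unique (T.tendsto_mul (C := 1) (fun n => hn (x n)) hz
          (tendsto_const_nhds (x := T.J (star (x n).1)))) ?_)
        refine tendsto_const_nhds.congr' ((eventually_ge_atTop n).mono fun m hm => ?_)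
        simp only [(h1 n m hm).2]) ⟨0, by simp, by simp⟩
  have a1 : z * (star z * z) = z := by rw [← mul_assoc, hz1]
  have a2 : star z * (z * star z) = star z := by simpa [mul_assoc] using congrArg star hz1
  have a3 : star z * star z = 0 := by simpa using congrArg star hz2
  have b1 : ∀ t, z * (star z * (z * t)) = z * t := fun t => by simp only [← mul_assoc, hz1]
  have b2 : ∀ t, star z * (z * (star z * t)) = star z * t := fun t => by
    rw [← mul_assoc z, ← mul_assoc, a2]
  have b3 : ∀ t, z * (z * t) = 0 := fun t => by rw [← mul_assoc, hz2, zero_mul]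
  have b4 : ∀ t, star z * (star z * t) = 0 := fun t => by rw [← mul_assoc, a3, zero_mul]
  have hF : 1 - star z * z - z * star z = 0 := by
    by_contra h0
    obtain ⟨c, hc0, hc1, hc2, hc3⟩ := exists_nil h (F := 1 - star z * z - z * star z) (by simp)
      (by simp [mul_sub, sub_mul, mul_assoc, a1, a2, b3, b4]) h0
    obtain ⟨w, hw0, hw1, hw2, hw3⟩ := polar h.good hc0
    have c1 : star z * w = 0 := hw2 _ (by rw [← hc2]; simp [mul_sub, sub_mul, mul_assoc, b2, b4])
    have c2 : z * w = 0 := hw2 _ (by rw [← hc2]; simp [mul_sub, sub_mul, mul_assoc, b1, b3])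
    have c3 : w * star z = 0 := hw3 _ (by rw [← hc3]; simp [mul_sub, sub_mul, mul_assoc, a2, a3])
    have c4 : w * z = 0 := hw3 _ (by rw [← hc3]; simp [mul_sub, sub_mul, mul_assoc, a1, hz2])
    have c5 : w * w = 0 := hw2 _ (hw3 _ hc1)
    have c6 : star w * z = 0 := by simpa using congrArg star c1
    have c7 : z * star w = 0 := by simpa using congrArg star c3
    let y : S := ⟨z + w, by
      rw [star_add, add_mul, mul_add z, mul_add w, c7, c3, add_zero, zero_add, add_mul, mul_add,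
        mul_add, hz1, hw1, mul_assoc, c1, mul_assoc, c6]; simp, by simp [mul_add, add_mul, *]⟩
    have h1 : le ⟨z, hz1, hz2⟩ y := ⟨by simp [y, mul_add, c1], by simp [y, add_mul, c3]⟩
    have h2 := hd _ _ h1
    have h3 := hz y h1
    simp only [y, map_add, add_sub_cancel_left] at h2 h3
    exact hw0 (h.good.faith _ (norm_eq_zero.1 (pow_eq_zero_iff two_ne_zero |>.1
      (le_antisymm (by linarith) (sq_nonneg _)))))
  have hF' : star z * z + z * star z = 1 := by rw [← sub_eq_zero, ← neg_eq_zero, ← hF]; abel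
  refine ⟨z + star z, star z * z - z * star z, by simp [add_comm], by simp, ?_, ?_, ?_⟩
  · simp [mul_add, add_mul, hz2, a3, hF']
  · simp [mul_sub, sub_mul, mul_assoc, a1, a2, b3, b4, hF']
  · simp [mul_sub, sub_mul, mul_add, add_mul, mul_assoc, a1, a2, a3, hz2, b3, b4]; abel

end Crest.Agent.H1VN
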