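import Crest.Agent.H1VN.Iter

/-! Dyadic averages and Dixmier averaging in the 2-norm. -/

set_option autoImplicit false

open Set Filter Topology
open scoped InnerProductSpace ComplexConjugate

noncomputable section

namespace Crest.Agent.H1VN

inductive Av (X : Type*)
  | pt (x : X) : Av X
  | mid (μ ν : Av X) : Av X

namespace Av
variable {X Y V W : Type*}

def All (Q : X → Prop) : Av X → Prop
  | pt x => Q x
  | mid μ ν => All Q μ ∧ All Q ν

def bind : Av X → (X → Av Y) → Av Y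
  | pt x, g => g x
  | mid μ ν, g => mid (bind μ g) (bind ν g)

lemma All.mono {Q R : X → Prop} {μ : Av X} (h : All Q μ) (h' : ∀ x, Q x → R x) : All R μ := by
  induction μ with
  | pt x => exact h' x h
  | mid μ ν h1 h2 => exact ⟨h1 h.1, h2 h.2⟩

lemma All.and {Q R : X → Prop} {μ : Av X} (h : All Q μ) (h' : All R μ) :
    All (fun x => Q x ∧ R x) μ := by
  induction μ with
  | pt x => exact ⟨h, h'⟩
  | mid μ ν h1 h2 => exact ⟨h1 h.1 h'.1, h2 h.2 h'.2⟩

lemma all_of {Q : X → Prop} (h : ∀ x, Q x) (μ : Av X) : All Q μ := by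
  induction μ with
  | pt x => exact h x
  | mid μ ν h1 h2 => exact ⟨h1, h2⟩

lemma All.bind {Q : Y → Prop} {μ : Av X} {g : X → Av Y} (h : All (fun x => All Q (g x)) μ) :
    All Q (μ.bind g) := by
  induction μ with
  | pt x => exact h
  | mid μ ν h1 h2 => exact ⟨h1 h.1, h2 h.2⟩

lemma eventually_all {l : Filter Y} {Q : X → Y → Prop} (h : ∀ x, ∀ᶠ y in l, Q x y) (μ : Av X) :
    ∀ᶠ y in l, All (Q · y) μ := by
  induction μ with
  | pt x => exact h x
  | mid μ ν h1 h2 => exact h1.and h2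

section
variable [AddCommGroup V] [Module ℝ V] [AddCommGroup W] [Module ℝ W]

def E : Av X → (X → V) → V
  | pt x, f => f x
  | mid μ ν, f => (1 / 2 : ℝ) • (E μ f + E ν f)

lemma E_bind (μ : Av X) (g : X → Av Y) (f : Y → V) :
    (μ.bind g).E f = μ.E fun x => (g x).E f := by
  induction μ with
  | pt x => rfl
  | mid μ ν h1 h2 => simp only [bind, E, h1, h2]

lemma E_const (μ : Av X) (v : V) : μ.E (fun _ => v) = v := by
  induction μ with
  | pt x => rfl
  | mid μ ν h1 h2 => simp only [E, h1, h2]; module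

lemma E_map (L : V →ₗ[ℝ] W) (μ : Av X) (f : X → V) : L (μ.E f) = μ.E fun x => L (f x) := by
  induction μ with
  | pt x => rfl
  | mid μ ν h1 h2 => simp only [E, map_smul, map_add, h1, h2]

lemma E_add (μ : Av X) (f g : X → V) : μ.E (fun x => f x + g x) = μ.E f + μ.E g := by
  induction μ with
  | pt x => rfl
  | mid μ ν h1 h2 => simp only [E, h1, h2]; module

lemma E_sub (μ : Av X) (f g : X → V) : μ.E (fun x => f x - g x) = μ.E f - μ.E g := by
  induction μ with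
  | pt x => rfl
  | mid μ ν h1 h2 => simp only [E, h1, h2]; module

lemma E_sum {κ : Type*} (μ : Av X) (s : Finset κ) (f : κ → X → V) :
    μ.E (fun x => ∑ i ∈ s, f i x) = ∑ i ∈ s, μ.E (f i) := by
  induction μ with
  | pt x => rfl
  | mid μ ν h1 h2 => simp only [E, h1, h2, smul_add, Finset.smul_sum, Finset.sum_add_distrib]

lemma E_congr {μ : Av X} {f g : X → V} (h : All (fun x => f x = g x) μ) : μ.E f = μ.E g := by
  induction μ with
  | pt x => exact h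
  | mid μ ν h1 h2 => simp only [E, h1 h.1, h2 h.2]

end

lemma E_mapC [AddCommGroup V] [Module ℂ V] [AddCommGroup W] [Module ℂ W] (L : V →ₗ[ℂ] W)
    (μ : Av X) (f : X → V) : L (μ.E f) = μ.E fun x => L (f x) := E_map (L.restrictScalars ℝ) μ f

lemma E_mono {μ : Av X} {f g : X → ℝ} (h : All (fun x => f x ≤ g x) μ) : μ.E f ≤ μ.E g := by
  induction μ with
  | pt x => exact h
  | mid μ ν h1 h2 => simp only [E, smul_eq_mul]; linarith [h1 h.1, h2 h.2]

lemma norm_E_le [SeminormedAddCommGroup V] [NormedSpace ℝ V] {μ : Av X} {f : X → V} {C : ℝ}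
    (h : All (fun x => ‖f x‖ ≤ C) μ) : ‖μ.E f‖ ≤ C := by
  induction μ with
  | pt x => exact h
  | mid μ ν h1 h2 =>
    simp only [E, norm_smul]
    have := norm_add_le (μ.E f) (ν.E f)
    rw [Real.norm_of_nonneg (by norm_num)]; linarith [h1 h.1, h2 h.2]

lemma exists_le {Q : X → Prop} {μ : Av X} (h : All Q μ) (f : X → ℝ) : ∃ x, Q x ∧ f x ≤ μ.E f := by
  induction μ with
  | pt x => exact ⟨x, h, le_rfl⟩
  | mid μ ν h1 h2 =>
    obtain ⟨x, hx, hx'⟩ := h1 h.1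
    obtain ⟨y, hy, hy'⟩ := h2 h.2
    simp only [E, smul_eq_mul]
    rcases le_total (f x) (f y) with h3 | h3
    · exact ⟨x, hx, by linarith⟩
    · exact ⟨y, hy, by linarith⟩

end Av

lemma exists_filter {X γ : Type*} (R : X → Prop) (φ : γ → X → ℝ) (h0 : ∀ c x, 0 ≤ φ c x)
    (h : ∀ (s : Finset γ) (η : ℝ), 0 < η → ∃ x, R x ∧ ∀ c ∈ s, φ c x ≤ η) :
    ∃ l : Filter X, l.NeBot ∧ (∀ᶠ x in l, R x) ∧ ∀ c, Tendsto (φ c) l (𝓝 0) := by
  choose x hx hx' using fun p : Finset γ × ℕ => h p.1 (1 / (p.2 + 1)) (by positivity)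
  refine ⟨map x (atTop ×ˢ atTop), inferInstance, eventually_map.2 (.of_forall hx), fun c => ?_⟩
  rw [tendsto_map'_iff]
  refine squeeze_zero' (.of_forall fun _ => h0 _ _) ?_
    (tendsto_one_div_add_atTop_nhds_zero_nat.comp tendsto_snd)
  filter_upwards [tendsto_fst.eventually (eventually_ge_atTop ({c} : Finset γ))] with p hp
  exact hx' p c (Finset.singleton_subset_iff.1 hp)

variable {A : Type*} [CStarAlgebra A] {T : Tr A}

lemma Tr.Good.exists_min (hT : T.Good) {S : Set A} (hne : S.Nonempty) {C : ℝ}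
    (hC : ∀ y ∈ S, ‖y‖ ≤ C) (hm : ∀ y ∈ S, ∀ z ∈ S, (1 / 2 : ℝ) • (y + z) ∈ S)
    (hc : ∀ (x : ℕ → A) (z : A), (∀ n, x n ∈ S) → ‖z‖ ≤ C →
      Tendsto (fun n => T.J (x n)) atTop (𝓝 (T.J z)) → z ∈ S) :
    ∃ y ∈ S, ∀ z ∈ S, ‖T.J z‖ ≤ ‖T.J y‖ → z = y := by
  set d := sInf ((fun y => ‖T.J y‖ ^ 2) '' S) with hd
  have hb : BddBelow ((fun y => ‖T.J y‖ ^ 2) '' S) := ⟨0, by rintro _ ⟨y, -, rfl⟩; positivity⟩
  have h1 : ∀ y ∈ S, d ≤ ‖T.J y‖ ^ 2 := fun y hy => csInf_le hb ⟨y, hy, rfl⟩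
  have h2 : ∀ y ∈ S, ∀ z ∈ S, ‖T.J y - T.J z‖ ^ 2 ≤ 2 * (‖T.J y‖ ^ 2 + ‖T.J z‖ ^ 2) - 4 * d := by
    intro y hy z hz
    have := h1 _ (hm y hy z hz)
    rw [T.J.map_smul_of_tower, norm_smul, map_add, Real.norm_of_nonneg (by norm_num)] at this
    nlinarith [parallelogram_law_with_norm ℂ (T.J y) (T.J z)]
  have h3 : ∀ n : ℕ, ∃ y ∈ S, ‖T.J y‖ ^ 2 < d + 1 / (n + 1) := fun n => by
    obtain ⟨_, ⟨y, hy, rfl⟩, h⟩ := exists_lt_of_csInf_lt (hne.image fun y => ‖T.J y‖ ^ 2)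
      (lt_add_of_pos_right d (by positivity : (0 : ℝ) < 1 / (n + 1)))
    exact ⟨y, hy, h⟩
  choose x hx hx' using h3
  obtain ⟨y, hy, hy'⟩ := hT.comp x C (fun n => hC _ (hx n)) (Metric.cauchySeq_iff'.2 fun ε hε => by
    obtain ⟨N, hN⟩ := exists_nat_one_div_lt (show 0 < ε ^ 2 / 4 by positivity)
    refine ⟨N, fun n hn => ?_⟩
    rw [dist_eq_norm]
    refine lt_of_pow_lt_pow_left₀ 2 hε.le ?_
    have : (1 : ℝ) / (n + 1) ≤ 1 / (N + 1) := by gcongr
    linarith [h2 _ (hx n) _ (hx N), hx' n, hx' N])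
  have hyS := hc x y hx hy hy'
  have h4 : ‖T.J y‖ ^ 2 ≤ d := by
    have := le_of_tendsto_of_tendsto' (hy'.norm.pow 2)
      (tendsto_one_div_add_atTop_nhds_zero_nat.const_add d) fun n => (hx' n).le
    simpa using this
  refine ⟨y, hyS, fun z hz h => hT.eq (sub_eq_zero.1 (norm_eq_zero.1 (pow_eq_zero_iff two_ne_zero |>.1
    (le_antisymm ?_ (sq_nonneg _)))))⟩
  have h5 : ‖T.J z‖ ^ 2 ≤ ‖T.J y‖ ^ 2 := by gcongr
  linarith [h2 z hz y hyS]

def UP (P : StarSubalgebra ℂ A) (s : A) : Prop := s ∈ unitary A ∧ s ∈ P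

lemma UP.mul {P : StarSubalgebra ℂ A} {s t : A} (hs : UP P s) (ht : UP P t) : UP P (s * t) :=
  ⟨mul_mem hs.1 ht.1, mul_mem hs.2 ht.2⟩

def avg (μ : Av A) (c : A) : A := μ.E fun s => s * c * star s

lemma J_conj (T : Tr A) {s : A} (hs : s ∈ unitary A) (c : A) : ‖T.J (s * c * star s)‖ = ‖T.J c‖ := by
  rw [T.J_mul_unit (Unitary.star_mem hs), T.J_unit_mul hs]

lemma τ_conj (T : Tr A) {s : A} (hs : s ∈ unitary A) (c : A) : T.τ (s * c * star s) = T.τ c := by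
  rw [T.tr, ← mul_assoc, hs.1, one_mul]

variable {P : StarSubalgebra ℂ A}

lemma J_avg_le {μ : Av A} (hμ : μ.All (UP P)) (c : A) : ‖T.J (avg μ c)‖ ≤ ‖T.J c‖ := by
  have := Av.E_mapC T.J.toLinearMap μ fun s => s * c * star s
  rw [avg, ← ContinuousLinearMap.coe_coe, this]
  exact Av.norm_E_le (hμ.mono fun s hs => (J_conj T hs.1 c).le)

lemma norm_avg_le {μ : Av A} (hμ : μ.All (UP P)) (c : A) : ‖avg μ c‖ ≤ ‖c‖ :=
  Av.norm_E_le (hμ.mono fun s hs => by
    have h1 := Tr.norm_unit_le hs.1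
    calc _ ≤ ‖s‖ * ‖c‖ * ‖star s‖ := (norm_mul_le _ _).trans (by gcongr; exact norm_mul_le _ _)
      _ ≤ 1 * ‖c‖ * 1 := by rw [norm_star]; gcongr
      _ = _ := by ring)

lemma τ_avg {μ : Av A} (hμ : μ.All (UP P)) (c : A) : T.τ (avg μ c) = T.τ c := by
  rw [avg, Av.E_mapC, Av.E_congr (hμ.mono fun s hs => τ_conj T hs.1 c), Av.E_const]

lemma avg_sub_smul {μ : Av A} (hμ : μ.All (UP P)) (c : A) (a : ℂ) :
    avg μ (c - a • 1) = avg μ c - a • 1 := by
  rw [avg, avg, ← Av.E_const μ (a • (1 : A)), ← Av.E_sub]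
  exact Av.E_congr (hμ.mono fun s hs => by
    rw [Av.E_const]; simp [mul_sub, sub_mul, hs.1.2])

lemma avg_sub (μ : Av A) (c d : A) : avg μ (c - d) = avg μ c - avg μ d := by
  simp only [avg, ← Av.E_sub, mul_sub, sub_mul]

/-- composition of averages -/
def cmp (ν μ : Av A) : Av A := ν.bind fun t => μ.bind fun s => .pt (t * s)

lemma cmp_all {μ ν : Av A} (hν : ν.All (UP P)) (hμ : μ.All (UP P)) : (cmp ν μ).All (UP P) :=
  Av.All.bind (hν.mono fun _ ht => Av.All.bind (hμ.mono fun _ hs => ht.mul hs))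

lemma conj_avg (μ : Av A) (t c : A) : t * avg μ c * star t = μ.E fun s => t * s * c * star (t * s) := by
  have := Av.E_mapC ((LinearMap.mulRight ℂ (star t)).comp (LinearMap.mulLeft ℂ t)) μ
    fun s => s * c * star s
  simpa [mul_assoc, avg] using this

lemma avg_cmp (ν μ : Av A) (c : A) : avg (cmp ν μ) c = avg ν (avg μ c) := by
  simp only [cmp, Av.E_bind, Av.E, ← conj_avg, avg]

def AV (T : Tr A) (P : StarSubalgebra ℂ A) : Prop :=
  ∃ l : Filter (Av A), l.NeBot ∧ (∀ᶠ μ in l, μ.All (UP P)) ∧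
    ∀ c, Tendsto (fun μ => ‖T.J (avg μ c - T.τ c • 1)‖) l (𝓝 0)

lemma comm_of_unit (hP : IsClosed (P : Set A)) {z : A} (h : ∀ s, UP P s → s * z = z * s) :
    ∀ y ∈ P, z * y = y * z := by
  intro y hy
  have : (⟨y, hy⟩ : P) ∈ Submodule.span ℂ (unitary P : Set P) := by
    rw [CStarAlgebra.span_unitary]; trivial
  have key : ∀ y ∈ Submodule.span ℂ (unitary P : Set P), z * y.1 = y.1 * z := by
    intro y hy
    induction hy using Submodule.span_induction with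
    | zero => simp
    | add a b _ _ ha hb => simp [mul_add, add_mul, ha, hb]
    | smul c a _ ha => simp [ha]
    | mem a ha =>
      exact (h a ⟨⟨congrArg Subtype.val ha.1, congrArg Subtype.val ha.2⟩, a.2⟩).symm
  exact key _ this

theorem av_of (hT : T.Good) (hP : IsClosed (P : Set A))
    (h : ∀ z, (∀ y ∈ P, z * y = y * z) → ∃ c : ℂ, z = c • 1) : AV T P := by
  have one : ∀ c, ∀ η > 0, ∃ μ : Av A, μ.All (UP P) ∧ ‖T.J (avg μ c - T.τ c • 1)‖ ≤ η := by
    intro c η hη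
    have := hT.exists_min (S := {z | ‖z‖ ≤ ‖c‖ ∧
      ∀ ε > 0, ∃ μ : Av A, μ.All (UP P) ∧ ‖T.J (avg μ c - z)‖ ≤ ε})
      ⟨c, le_rfl, fun ε hε => ⟨.pt 1, ⟨one_mem _, one_mem _⟩, by simpa [avg, Av.E] using hε.le⟩⟩
      (C := ‖c‖) (fun y hy => hy.1) (fun y hy z hz => ⟨by
        rw [norm_smul, Real.norm_of_nonneg (by norm_num)]
        linarith [norm_add_le y z, hy.1, hz.1], fun ε hε => by
        obtain ⟨μ, hμ, h1⟩ := hy.2 ε hε
        obtain ⟨ν, hν, h2⟩ := hz.2 ε hε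
        refine ⟨.mid μ ν, ⟨hμ, hν⟩, ?_⟩
        change ‖T.J ((1 / 2 : ℝ) • (avg μ c + avg ν c) - _)‖ ≤ ε
        rw [← smul_sub, add_sub_add_comm, T.J.map_smul_of_tower, norm_smul, map_add,
          Real.norm_of_nonneg (by norm_num)]
        linarith [norm_add_le (T.J (avg μ c - y)) (T.J (avg ν c - z))]⟩)
      (fun x z hx hz hl => ⟨hz, fun ε hε => by
        obtain ⟨n, hn⟩ := ((T.tendsto_iff.1 hl).eventually (gt_mem_nhds (half_pos hε))).exists
        obtain ⟨μ, hμ, h1⟩ := (hx n).2 _ (half_pos hε)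
        refine ⟨μ, hμ, ?_⟩
        rw [← sub_add_sub_cancel _ (x n), map_add]
        exact (norm_add_le _ _).trans (by linarith)⟩)
    obtain ⟨y, ⟨hy, hy'⟩, hmin⟩ := this
    obtain ⟨a, rfl⟩ := h y (comm_of_unit hP fun s hs => by
      have := hmin (s * y * star s) ⟨(norm_avg_le (μ := .pt s) hs y).trans hy, fun ε hε => by
        obtain ⟨μ, hμ, h1⟩ := hy' ε hε
        refine ⟨cmp (.pt s) μ, cmp_all hs hμ, ?_⟩
        rw [avg_cmp]
        change ‖T.J (s * avg μ c * star s - _)‖ ≤ ε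
        rwa [← sub_mul, ← mul_sub, J_conj T hs.1]⟩ (J_conj T hs.1 y).le
      conv_rhs => rw [← this, mul_assoc, mul_assoc, hs.1.1, mul_one])
    have : a = T.τ c := by
      refine eq_of_forall_dist_le fun ε hε => ?_
      obtain ⟨μ, hμ, h1⟩ := hy' ε hε
      have := (T.norm_τ_le_J _).trans h1
      rwa [map_sub, τ_avg hμ, map_smul, T.one, smul_eq_mul, mul_one, ← dist_eq_norm,
        dist_comm] at this
    exact this ▸ hy' η hη
  refine exists_filter _ _ (fun _ _ => norm_nonneg _) fun s η hη => ?_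
  classical
  induction s using Finset.induction_on with
  | empty => exact ⟨.pt 1, ⟨one_mem _, one_mem _⟩, by simp⟩
  | insert c s _ ih =>
    obtain ⟨μ, hμ, h1⟩ := ih
    obtain ⟨ν, hν, h2⟩ := one (avg μ c) η hη
    refine ⟨cmp ν μ, cmp_all hν hμ, fun d hd => ?_⟩
    rw [avg_cmp]
    rcases Finset.mem_insert.1 hd with rfl | hd
    · rwa [τ_avg hμ] at h2
    · rw [← avg_sub_smul hν]; exact (J_avg_le hν _).trans (h1 d hd)

lemma τ_mul_avg (T : Tr A) (μ : Av A) (Y c : A) :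
    T.τ (Y * avg μ c) = μ.E fun s => T.τ (Y * (s * c * star s)) :=
  Av.E_mapC (T.τ.comp (LinearMap.mulLeft ℂ Y)) μ _

lemma τ_avg_err (T : Tr A) (μ : Av A) (Y c : A) :
    ‖T.τ (Y * avg μ c) - T.τ Y * T.τ c‖ ≤ ‖Y‖ * ‖T.J (avg μ c - T.τ c • 1)‖ := by
  have := (T.norm_τ_le_J _).trans (T.J_mul_le Y (avg μ c - T.τ c • 1))
  rwa [mul_sub, map_sub, mul_smul_comm, mul_one, map_smul, smul_eq_mul, mul_comm (T.τ c)] at this

lemma AV.le (h : AV T P) {Y c : A} {K : ℝ}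
    (hK : ∀ s, UP P s → (T.τ (Y * (s * c * star s))).re ≤ K) : (T.τ Y * T.τ c).re ≤ K := by
  obtain ⟨l, hl, h1, h2⟩ := h
  have h3 : Tendsto (fun μ => T.τ (Y * avg μ c)) l (𝓝 (T.τ Y * T.τ c)) := by
    rw [tendsto_iff_norm_sub_tendsto_zero]
    have := (h2 c).const_mul ‖Y‖
    rw [mul_zero] at this
    exact squeeze_zero (fun _ => norm_nonneg _) (fun μ => τ_avg_err T μ Y c) this
  refine le_of_tendsto ((Complex.continuous_re.tendsto _).comp h3) (h1.mono fun μ hμ => ?_)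
  have := Av.E_map Complex.reLm μ fun s => T.τ (Y * (s * c * star s))
  simp only [Complex.reLm_coe] at this
  rw [Function.comp_apply, τ_mul_avg, this, ← Av.E_const μ K]
  exact Av.E_mono (hμ.mono hK)

end Crest.Agent.H1VN
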