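import Crest.Agent.H1VN.VN
import Crest.Prelude.Def_GroupVNA

/-! Free group factors. -/

set_option autoImplicit false

open Set Filter Topology Crest.OpAlg MonoidAlgebra
open scoped InnerProductSpace ComplexConjugate

noncomputable section

namespace Crest.Agent.H1VN

section
variable {H K : Type*} [NormedAddCommGroup H] [InnerProductSpace ℂ H] [CompleteSpace H]
  [NormedAddCommGroup K] [InnerProductSpace ℂ K] [CompleteSpace K]

/-- the von Neumann algebra generated by a set -/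
def vnGen (S : Set (H →L[ℂ] H)) : VonNeumannAlgebra H where
  toStarSubalgebra := StarSubalgebra.centralizer ℂ
    ((StarSubalgebra.centralizer ℂ S : Set (H →L[ℂ] H)))
  centralizer_centralizer' := by
    change Set.centralizer (Set.centralizer ((StarSubalgebra.centralizer ℂ
      ((StarSubalgebra.centralizer ℂ S : Set (H →L[ℂ] H)))) : Set (H →L[ℂ] H))) = _
    rw [StarSubalgebra.coe_centralizer_centralizer, Set.centralizer_centralizer_centralizer]
    exact (StarSubalgebra.coe_centralizer_centralizer ℂ S).symm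

lemma mem_vnGen {S : Set (H →L[ℂ] H)} {x : H →L[ℂ] H} :
    x ∈ vnGen S ↔ ∀ y, (∀ s ∈ S, s * y = y * s ∧ star s * y = y * star s) → y * x = x * y := by
  change x ∈ StarSubalgebra.centralizer ℂ _ ↔ _
  rw [StarSubalgebra.mem_centralizer_iff]
  exact ⟨fun h y hy => (h y ((StarSubalgebra.mem_centralizer_iff ℂ).2 hy)).1, fun h y hy =>
    ⟨h y ((StarSubalgebra.mem_centralizer_iff ℂ).1 hy),
      h _ ((StarSubalgebra.mem_centralizer_iff ℂ).1 (star_mem (s := StarSubalgebra.centralizer ℂ S) hy))⟩⟩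

lemma subset_vnGen {S : Set (H →L[ℂ] H)} {x : H →L[ℂ] H} (hx : x ∈ S) : x ∈ vnGen S :=
  mem_vnGen.2 fun _ hy => (hy x hx).1.symm

lemma vnGen_le {S : Set (H →L[ℂ] H)} {N : VonNeumannAlgebra H} (h : ∀ s ∈ S, s ∈ N) :
    vnGen S ≤ N := fun x hx => by
  rw [← N.commutant_commutant, VonNeumannAlgebra.mem_commutant_iff]
  intro y hy
  rw [VonNeumannAlgebra.mem_commutant_iff] at hy
  exact mem_vnGen.1 hx y fun s hs => ⟨hy s (h s hs), hy _ (star_mem (h s hs))⟩

lemma map_vnGen (Φ : (H →L[ℂ] H) ≃⋆ₐ[ℂ] (K →L[ℂ] K)) {S : Set (H →L[ℂ] H)} {x : H →L[ℂ] H}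
    (hx : x ∈ vnGen S) : Φ x ∈ vnGen (Φ '' S) := by
  refine mem_vnGen.2 fun y hy => ?_
  obtain ⟨y, rfl⟩ := EquivLike.surjective Φ y
  rw [← map_mul, ← map_mul, mem_vnGen.1 hx y fun s hs => ?_]
  have := hy _ ⟨s, hs, rfl⟩
  rw [← map_star, ← map_mul, ← map_mul, ← map_mul, ← map_mul] at this
  exact ⟨EquivLike.injective Φ this.1, EquivLike.injective Φ this.2⟩

def restr (Φ : (H →L[ℂ] H) ≃⋆ₐ[ℂ] (K →L[ℂ] K)) (M : VonNeumannAlgebra H)
    (N : VonNeumannAlgebra K) (h1 : ∀ x ∈ M, Φ x ∈ N) (h2 : ∀ y ∈ N, Φ.symm y ∈ M) :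
    M.toStarSubalgebra ≃⋆ₐ[ℂ] N.toStarSubalgebra where
  toFun x := ⟨Φ x, h1 _ x.2⟩
  invFun y := ⟨Φ.symm y, h2 _ y.2⟩
  left_inv x := Subtype.ext (Φ.symm_apply_apply _)
  right_inv x := Subtype.ext (Φ.apply_symm_apply _)
  map_mul' x y := Subtype.ext (map_mul Φ _ _)
  map_add' x y := Subtype.ext (map_add Φ _ _)
  map_star' x := Subtype.ext (map_star Φ _)
  map_smul' c x := Subtype.ext (map_smul Φ c _)

end

section
variable {G : Type*} [Group G] [DecidableEq G]

def dl (g : G) : ltwo G := lp.single 2 g 1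

omit [Group G] in
lemma inner_dl (g : G) (η : ltwo G) : ⟪dl g, η⟫_ℂ = η g := by simp [dl, lp.inner_single_left]

omit [Group G] in
lemma dl_apply (g k : G) : dl g k = if k = g then 1 else 0 := by
  simp [dl, lp.single_apply, Pi.single_apply]

omit [Group G] in
lemma dl_ext {E : Type*} [NormedAddCommGroup E] [NormedSpace ℂ E] {f g : ltwo G →L[ℂ] E}
    (h : ∀ k, f (dl k) = g (dl k)) : f = g :=
  lp.ext_continuousLinearMap (by simp) fun k => ContinuousLinearMap.ext_ring (h k)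

omit [DecidableEq G] in
lemma lam_apply (g : G) (η : ltwo G) (k : G) : leftRegular g η k = η (g⁻¹ * k) := rfl

lemma lam_dl (g k : G) : leftRegular g (dl k) = dl (g * k) := by
  ext l; rw [lam_apply, dl_apply, dl_apply]; simp only [inv_mul_eq_iff_eq_mul]

omit [DecidableEq G] in
lemma lam_mul (g k : G) : leftRegular (g * k) = leftRegular g * leftRegular k := by
  ext η l; simp [lam_apply, mul_assoc]

omit [DecidableEq G] in
lemma lam_one : leftRegular (1 : G) = 1 := by ext η l; simp [lam_apply]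

omit [DecidableEq G] in
lemma star_lam (g : G) : star (leftRegular g) = leftRegular g⁻¹ := by
  rw [ContinuousLinearMap.star_eq_adjoint, leftRegular, LinearIsometryEquiv.adjoint_eq_symm]
  ext η l
  change η ((Equiv.mulLeft g⁻¹).symm l) = η (g⁻¹⁻¹ * l)
  simp

omit [DecidableEq G] in
lemma lam_unit (g : G) : leftRegular g ∈ unitary (ltwo G →L[ℂ] ltwo G) := by
  constructor <;> rw [star_lam, ← lam_mul] <;> simp [lam_one]

def rho (g : G) : ltwo G →L[ℂ] ltwo G :=
  ((ltwoReindex (Equiv.mulRight g) : ltwo G ≃ₗᵢ[ℂ] ltwo G) : ltwo G →L[ℂ] ltwo G)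

omit [DecidableEq G] in
lemma rho_apply (g : G) (η : ltwo G) (k : G) : rho g η k = η (k * g) := rfl

lemma apply_dl {x : ltwo G →L[ℂ] ltwo G} (hx : x ∈ groupVNA G) (k : G) :
    x (dl k) = rho k⁻¹ (x (dl 1)) := by
  have h1 : rho k⁻¹ (dl 1) = dl k := by
    ext l; rw [rho_apply, dl_apply, dl_apply]; simp only [mul_inv_eq_one]
  have := mem_vnGen.1 (show x ∈ vnGen (range leftRegular) from hx) (rho k⁻¹) (by
    rintro _ ⟨g, rfl⟩
    rw [star_lam]
    constructor <;> ext η l <;> simp [lam_apply, rho_apply, mul_assoc])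
  rw [← h1]
  exact (congrArg (fun T : ltwo G →L[ℂ] ltwo G => T (dl 1)) this).symm

def xiG (G : Type*) [Group G] [DecidableEq G] : ℕ → ltwo G := fun n => if n = 0 then dl 1 else 0

lemma vs_xiG (x : ltwo G →L[ℂ] ltwo G) : vectorState (xiG G) x = x (dl 1) 1 := by
  rw [vectorState, tsum_eq_single 0 fun n hn => by simp [xiG, hn]]
  simp [xiG, inner_dl]

lemma xiG_spec : IsFaithfulTracialVectorState (groupVNA G) (xiG G) := by
  refine ⟨?_, ?_, fun x hx h => dl_ext fun k => ?_⟩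
  · have := hasSum_single (f := fun n => ‖xiG G n‖ ^ 2) 0 fun n hn => by simp [xiG, hn]
    simpa [xiG, dl] using this
  · have key : ∀ x ∈ groupVNA G, ∀ y : ltwo G →L[ℂ] ltwo G, vectorState (xiG G) (x * y) =
        ∑' k, x (dl 1) k⁻¹ * y (dl 1) k := by
      intro x hx y
      rw [vs_xiG, ← inner_dl, ContinuousLinearMap.mul_apply, ← inner_star, lp.inner_eq_tsum]
      refine tsum_congr fun k => ?_
      rw [← inner_dl k (star x _), RCLike.inner_apply, inner_conj_symm, inner_star, inner_dl,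
        apply_dl hx k, rho_apply, one_mul, mul_comm]
    intro x hx y hy
    rw [key x hx, key y hy, ← (Equiv.inv G).tsum_eq]
    simp [mul_comm]
  · have := h 0
    simp only [xiG, if_true] at this
    rw [apply_dl hx, this]; simp

lemma J_G (x : MA (groupVNA G)) : ‖(trM xiG_spec).J x‖ = ‖x.1 (dl 1)‖ := by
  rw [← sq_eq_sq₀ (norm_nonneg _) (norm_nonneg _), ← tns_eq', traceNormSq,
    tsum_eq_single 0 fun n hn => by simp [xiG, hn]]
  simp [xiG]

theorem iso_of_gen {κ : Type*} [DecidableEq κ] (V : κ → MA (groupVNA G)) (hV : Un V)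
    (hF : Free (trM xiG_spec) V) (hG : Gen (trM xiG_spec) V) :
    ∃ Φ : (groupVNA (FreeGroup κ)).toStarSubalgebra ≃⋆ₐ[ℂ] (groupVNA G).toStarSubalgebra,
      ∀ x, groupTrace G (Φ x).1 = groupTrace (FreeGroup κ) x.1 := by
  let v : FreeGroup κ → ltwo G := fun w => (ev V w).1 (dl 1)
  have hv : Orthonormal ℂ v := by
    rw [orthonormal_iff_ite]
    intro a b
    have : ⟪v a, v b⟫_ℂ = (trM xiG_spec).τ (ev V (a⁻¹ * b)) := by
      rw [ev_mul hV, ev_inv hV, trM_τ, vs_xiG, ← inner_dl]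
      change _ = ⟪dl 1, star (ev V a).1 (v b)⟫_ℂ
      rw [← inner_star (star _), star_star]
    rw [this]
    split_ifs with h
    · subst h; simp [Tr.one]
    · exact hF _ fun e => h (inv_mul_eq_one.1 e)
  have hsp : ⊤ ≤ (Submodule.span ℂ (range v)).topologicalClosure := by
    have h1 : ∀ k, dl k ∈ (Submodule.span ℂ (range v)).topologicalClosure := by
      intro k
      refine Metric.mem_closure_iff.2 fun ε hε => ?_
      obtain ⟨z, hz⟩ := hG ⟨leftRegular k, subset_vnGen ⟨k, rfl⟩⟩ _ (half_pos hε)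
      refine ⟨(pi V z).1 (dl 1), ?_, ?_⟩
      · clear hz
        induction z using MonoidAlgebra.induction_linear with
        | zero => simp
        | add a b ha hb => rw [map_add]; exact add_mem ha hb
        | single w c =>
          rw [pi_single]; exact Submodule.smul_mem _ c (Submodule.subset_span ⟨w, rfl⟩)
      · rw [J_G] at hz
        rw [dist_eq_norm]
        refine lt_of_le_of_lt (le_of_eq_of_le ?_ hz) (half_lt_self hε)
        simp [lam_dl]
    intro η _
    refine (Submodule.isClosed_topologicalClosure _).mem_of_tendsto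
      (lp.hasSum_single (p := 2) (by simp) η) (Eventually.of_forall fun s => sum_mem fun k _ => ?_)
    have := Submodule.smul_mem _ (η k) (h1 k)
    rwa [dl, ← lp.single_smul, smul_eq_mul, mul_one] at this
  let Θ := (HilbertBasis.mk hv hsp).repr.symm
  have hΘ : ∀ w, Θ (dl w) = v w := fun w => by
    rw [← HilbertBasis.coe_mk hv hsp]; exact HilbertBasis.repr_symm_single _ w
  have hΦ : ∀ w, Θ.conjStarAlgEquiv (leftRegular w) = (ev V w).1 := fun w => by
    have : (Θ : ltwo (FreeGroup κ) →L[ℂ] ltwo G) ∘L leftRegular w = (ev V w).1 ∘L Θ :=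
      dl_ext fun k => by
        change Θ (leftRegular w (dl k)) = (ev V w).1 (Θ (dl k))
        rw [lam_dl, hΘ, hΘ]; simp only [v, ev_mul hV]; rfl
    ext1 η
    have := congrArg (fun T : ltwo (FreeGroup κ) →L[ℂ] ltwo G => T (Θ.symm η)) this
    simpa using this
  refine ⟨restr Θ.conjStarAlgEquiv _ _ (fun x hx => ?_) fun y hy => ?_, fun x => ?_⟩
  · refine vnGen_le (N := groupVNA G) ?_ (map_vnGen _ hx)
    rintro _ ⟨_, ⟨w, rfl⟩, rfl⟩
    rw [hΦ]; exact (ev V w).2
  · have h1 := mem_of_approx xiG_spec (vnGen (range fun w => (ev V w).1)) ⟨y, hy⟩ fun ε hε => by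
      obtain ⟨z, hz⟩ := hG ⟨y, hy⟩ ε hε
      refine ⟨_, ?_, hz⟩
      clear hz
      induction z using MonoidAlgebra.induction_linear with
      | zero => exact zero_mem _
      | add a b ha hb => rw [map_add]; exact add_mem ha hb
      | single w c =>
        rw [pi_single]
        exact (vnGen _).toStarSubalgebra.smul_mem (subset_vnGen (mem_range_self w)) c
    refine vnGen_le (N := groupVNA (FreeGroup κ)) ?_ (map_vnGen Θ.conjStarAlgEquiv.symm h1)
    rintro _ ⟨_, ⟨w, rfl⟩, rfl⟩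
    simp only [← hΦ, StarAlgEquiv.symm_apply_apply]
    exact subset_vnGen ⟨w, rfl⟩
  · have h1 : Θ (dl 1) = dl 1 := by simp [hΘ, v]
    change ⟪dl 1, Θ (x.1 (Θ.symm (dl 1)))⟫_ℂ = ⟪dl 1, x.1 (dl 1)⟫_ℂ
    rw [← h1, Θ.symm_apply_apply, Θ.inner_map_map]

end

theorem fgf (n : ℕ) (hn : 2 ≤ n) :
    ∃ Φ : (groupVNA (FreeGroup (Fin n))).toStarSubalgebra ≃⋆ₐ[ℂ]
      (groupVNA (FreeGroup (Fin (n + 1)))).toStarSubalgebra,
      ∀ x, groupTrace _ (Φ x).1 = groupTrace (FreeGroup (Fin n)) x.1 := by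
  let U : Fin (n + 1) → MA (groupVNA (FreeGroup (Fin (n + 1)))) := fun i =>
    ⟨leftRegular (.of i), subset_vnGen ⟨_, rfl⟩⟩
  have hU : Un U := fun i => ⟨Subtype.ext (lam_unit _).1, Subtype.ext (lam_unit _).2⟩
  have hev : ∀ w, (ev U w).1 = leftRegular w := by
    intro w
    induction w with
    | C1 => simp [lam_one]
    | of i => simp [U]
    | inv_of i ih => rw [ev_inv hU, ← star_lam, ← ih]; rfl
    | mul a b ha hb => rw [ev_mul hU, lam_mul, ← ha, ← hb]; rfl
  obtain ⟨V, h1, h2, h3⟩ := iter (trM_good xiG_spec) (y := 0) Fin.succ (Fin.succ_injective n)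
    Fin.succ_ne_zero (fun i hi => Fin.exists_succ_eq.2 hi) (kh := ⟨0, by omega⟩)
    (kg := ⟨1, by omega⟩) (by simp) hU
    (fun w hw => by rw [trM_τ, vs_xiG, hev, lam_dl, dl_apply, if_neg (by simpa using hw.symm)])
    (fun x ε hε => by
      obtain ⟨_, ⟨z, rfl⟩, hz⟩ := approx_of_mem xiG_spec (RG hU) x (fun y hy =>
        mem_vnGen.1 (show x.1 ∈ vnGen (range leftRegular) from x.2) y (by
          rintro _ ⟨w, rfl⟩
          rw [star_lam]
          exact ⟨hy _ ⟨_, ⟨sg w, rfl⟩, by rw [pi_sg, hev]⟩,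
            hy _ ⟨_, ⟨sg w⁻¹, rfl⟩, by rw [pi_sg, hev]⟩⟩)) hε
      exact ⟨z, hz⟩)
  exact iso_of_gen V h1 h2 h3

end Crest.Agent.H1VN
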