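import Crest.Agent.H1VN.Ultra
import Crest.Agent.H1VN.FGF

/-! Generic unitaries generate. -/

set_option autoImplicit false

open Set Filter Topology Crest.OpAlg
open scoped InnerProductSpace ComplexConjugate

noncomputable section

namespace Crest.Agent.H1VN

section
variable {A : Type*} [CStarAlgebra A] {T : Tr A} {P : StarSubalgebra ℂ A}

def Sep (T : Tr A) : Prop := ∀ S : Set A, S.Nonempty →
  ∃ x : ℕ → A, (∀ k, x k ∈ S) ∧ ∀ y ∈ S, ∀ ε > 0, ∃ k, ‖T.J (y - x k)‖ < ε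

lemma Sep.res (h : Sep T) (N : StarSubalgebra ℂ A) [IsClosed (N : Set A)] : Sep (T.res N) := by
  intro S hS
  obtain ⟨x, h1, h2⟩ := h _ (hS.image Subtype.val)
  choose x' h3 h4 using h1
  refine ⟨x', h3, fun y hy ε hε => ?_⟩
  obtain ⟨k, hk⟩ := h2 _ ⟨y, hy, rfl⟩ ε hε
  exact ⟨k, by rw [J_res]; rwa [← h4] at hk⟩

def OO (T : Tr A) (P : StarSubalgebra ℂ A) (x : A) (ε : ℝ) : Set A :=
  {u | ∃ f, QF T P f ∧ ‖T.J (x - f u)‖ < ε}

lemma OO_open {x u : A} {ε : ℝ} (hu : u ∈ unitary A) (h : u ∈ OO T P x ε) :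
    ∃ δ > 0, ∀ v ∈ unitary A, ‖T.J (v - u)‖ < δ → v ∈ OO T P x ε := by
  obtain ⟨f, hf, h⟩ := h
  obtain ⟨L, hL, -, H⟩ := hf.1
  refine ⟨(ε - ‖T.J (x - f u)‖) / L, div_pos (sub_pos.2 h) hL, fun v hv h1 => ⟨f, hf, ?_⟩⟩
  rw [← sub_add_sub_cancel _ (f u), map_add]
  refine (norm_add_le _ _).trans_lt ?_
  have := H u hu v hv
  rw [← neg_sub v, map_neg, norm_neg] at this
  rw [lt_div_iff₀ hL] at h1
  linarith

lemma gen_of_OO {x : ℕ → A} (hx : ∀ y ∈ unitary A, ∀ ε > 0, ∃ k, ‖T.J (y - x k)‖ < ε) {u : A}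
    (h : ∀ k : ℕ, u ∈ OO T P (x k.unpair.1) (1 / (k.unpair.2 + 1))) {B : StarSubalgebra ℂ A}
    (hB : Cl T B) (hP : P ≤ B) (hu : u ∈ B) (y : A) : y ∈ B := by
  have : y ∈ Submodule.span ℂ (unitary A : Set A) := by rw [CStarAlgebra.span_unitary]; trivial
  refine (Submodule.span_le (p := B.toSubalgebra.toSubmodule)).2 (fun y hy => hB y fun ε hε => ?_) this
  obtain ⟨k, hk⟩ := hx y hy _ (half_pos hε)
  obtain ⟨j, hj⟩ := exists_nat_one_div_lt (half_pos hε)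
  obtain ⟨f, hf, h1⟩ := h (Nat.pair k j)
  rw [Nat.unpair_pair] at h1
  refine ⟨f u, hf.2 B hP u hu, ?_⟩
  rw [← sub_add_sub_cancel _ (x k), map_add]
  exact (norm_add_le _ _).trans (by linarith)

lemma QF.const {a : A} (ha : a ∈ P) : QF T P fun _ => a :=
  ⟨⟨‖a‖ + 1, by positivity, fun _ _ => by linarith, fun _ _ _ _ => by simp; positivity⟩,
    fun _ hB _ _ => hB ha⟩

lemma QF_of_adjoin {u a : A} (ha : a ∈ StarAlgebra.adjoin ℂ (insert u (P : Set A))) :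
    ∃ f, QF T P f ∧ f u = a := by
  induction ha using StarAlgebra.adjoin_induction with
  | mem a ha =>
    rcases ha with rfl | ha
    · exact ⟨id, ⟨⟨1, one_pos, fun _ => Tr.norm_unit_le, fun _ _ _ _ => by simp⟩,
        fun _ _ _ h => h⟩, rfl⟩
    · exact ⟨_, QF.const ha, rfl⟩
  | algebraMap c => exact ⟨_, QF.const (algebraMap_mem P c), rfl⟩
  | add a b _ _ ha hb =>
    obtain ⟨f, ⟨⟨K, hK, f1, f2⟩, f3⟩, rfl⟩ := ha
    obtain ⟨g, ⟨⟨L, hL, g1, g2⟩, g3⟩, rfl⟩ := hb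
    refine ⟨fun v => f v + g v, ⟨⟨K + L, by positivity, fun v hv => (norm_add_le _ _).trans
      (add_le_add (f1 v hv) (g1 v hv)), fun v hv w hw => ?_⟩,
      fun B hB v hv => add_mem (f3 B hB v hv) (g3 B hB v hv)⟩, rfl⟩
    rw [add_sub_add_comm, map_add, add_mul]
    exact (norm_add_le _ _).trans (add_le_add (f2 v hv w hw) (g2 v hv w hw))
  | mul a b _ _ ha hb =>
    obtain ⟨f, ⟨⟨K, hK, f1, f2⟩, f3⟩, rfl⟩ := ha
    obtain ⟨g, ⟨⟨L, hL, g1, g2⟩, g3⟩, rfl⟩ := hb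
    refine ⟨fun v => f v * g v, ⟨⟨2 * (K * L), by positivity, fun v hv => (norm_mul_le _ _).trans
      ((mul_le_mul (f1 v hv) (g1 v hv) (norm_nonneg _) hK.le).trans (by linarith [mul_pos hK hL])),
      fun v hv w hw => ?_⟩, fun B hB v hv => mul_mem (f3 B hB v hv) (g3 B hB v hv)⟩, rfl⟩
    rw [show f v * g v - f w * g w = (f v - f w) * g v + f w * (g v - g w) by noncomm_ring, map_add]
    refine (norm_add_le _ _).trans ((add_le_add ((T.J_mul_le' _ _).trans (mul_le_mul (f2 v hv w hw)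
      (g1 v hv) (norm_nonneg _) (by positivity))) ((T.J_mul_le _ _).trans (mul_le_mul (f1 w hw)
      (g2 v hv w hw) (norm_nonneg _) hK.le))).trans (le_of_eq (by ring)))
  | star a _ ha =>
    obtain ⟨f, ⟨⟨K, hK, f1, f2⟩, f3⟩, rfl⟩ := ha
    exact ⟨fun v => star (f v), ⟨⟨K, hK, fun v hv => by simpa using f1 v hv, fun v hv w hw => by
      rw [← star_sub, T.J_star]; exact f2 v hv w hw⟩, fun B hB v hv => star_mem (f3 B hB v hv)⟩, rfl⟩

theorem baire (hT : T.Good) (O : ℕ → Set A)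
    (ho : ∀ k, ∀ u ∈ unitary A, u ∈ O k → ∃ δ > 0, ∀ v ∈ unitary A, ‖T.J (v - u)‖ < δ → v ∈ O k)
    (hd : ∀ k, ∀ u ∈ unitary A, ∀ δ > 0, ∃ v ∈ unitary A, ‖T.J (v - u)‖ < δ ∧ v ∈ O k)
    {u : A} (hu : u ∈ unitary A) {δ : ℝ} (hδ : 0 < δ) :
    ∃ v ∈ unitary A, ‖T.J (v - u)‖ < δ ∧ ∀ k, v ∈ O k := by
  have hc : IsClosed (T.J '' (unitary A : Set A)) := by
    refine isSeqClosed_iff_isClosed.1 fun x κ hx hκ => ?_
    choose y hy e using hx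
    obtain rfl : x = fun n => T.J (y n) := funext fun n => (e n).symm
    obtain ⟨z, -, hz⟩ := hT.comp y 1 (fun n => Tr.norm_unit_le (hy n)) hκ.cauchySeq
    exact ⟨z, hT.unit hy hz, tendsto_nhds_unique hz hκ⟩
  have := hc.completeSpace_coe
  have := dense_iInter_of_isOpen (X := T.J '' (unitary A : Set A))
    (f := fun k => {κ | ∃ v ∈ unitary A, T.J v = κ.1 ∧ v ∈ O k}) (fun k => Metric.isOpen_iff.2 (by
      rintro ⟨_, w, hw, rfl⟩ ⟨v, hv, e, h⟩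
      obtain ⟨δ, hδ, H⟩ := ho k v hv h
      refine ⟨δ, hδ, ?_⟩
      rintro ⟨_, z, hz, rfl⟩ h1
      refine ⟨z, hz, rfl, H z hz ?_⟩
      rw [map_sub, e, ← dist_eq_norm]; exact h1))
    fun k => Metric.dense_iff.2 (by
      rintro ⟨_, w, hw, rfl⟩ δ hδ
      obtain ⟨v, hv, h1, h2⟩ := hd k w hw δ hδ
      refine ⟨⟨_, v, hv, rfl⟩, ?_, v, hv, rfl, h2⟩
      rw [map_sub, ← dist_eq_norm] at h1; exact h1)
  obtain ⟨⟨_, v, hv, rfl⟩, h1, h2⟩ := Metric.dense_iff.1 this ⟨_, u, hu, rfl⟩ δ hδ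
  refine ⟨v, hv, by rw [map_sub, ← dist_eq_norm]; exact h1, fun k => ?_⟩
  obtain ⟨w, -, e, h⟩ := mem_iInter.1 h2 k
  rwa [← hT.eq e]

theorem generic (hT : T.Good) (hS : Sep T) (hP : IsClosed (P : Set A)) (h1 : AV T P)
    (h2 : WN T P) {u : A} (hu : u ∈ unitary A) {δ : ℝ} (hδ : 0 < δ) :
    ∃ v ∈ unitary A, ‖T.J (v - u)‖ < δ ∧
      ∀ B : StarSubalgebra ℂ A, Cl T B → P ≤ B → v ∈ B → ∀ y, y ∈ B := by
  obtain ⟨x, hx, hx'⟩ := hS (unitary A) ⟨1, one_mem _⟩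
  obtain ⟨v, hv, h3, h4⟩ := baire hT (fun k => OO T P (x k.unpair.1) (1 / (k.unpair.2 + 1)))
    (fun k u hu h => OO_open hu h)
    (fun k u hu δ hδ => dense_O hP h1 h2 hu (hx _) hδ (by positivity)) hu hδ
  exact ⟨v, hv, h3, fun B hB h5 h6 => gen_of_OO hx' h4 hB h5 h6⟩

end

variable {H : Type*} [NormedAddCommGroup H] [InnerProductSpace ℂ H] [CompleteSpace H]
  {M : VonNeumannAlgebra H} {ξ : ℕ → H} (hξ : IsFaithfulTracialVectorState M ξ)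

lemma sep_trM [TopologicalSpace.SeparableSpace H] : Sep (trM hξ) := by
  have h1 : TopologicalSpace.IsSeparable (univ : Set (LH H)) := by
    refine (TopologicalSpace.IsSeparable.span (R := ℂ) (TopologicalSpace.IsSeparable.iUnion
      fun n : ℕ => TopologicalSpace.isSeparable_range
        (lp.singleContinuousLinearMap ℂ (fun _ : ℕ => H) 2 n).continuous)).closure.mono
      fun η _ => ?_
    exact mem_closure_of_tendsto (lp.hasSum_single (p := 2) (by simp) η) (Eventually.of_forall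
      fun s => sum_mem fun n _ => Submodule.subset_span (mem_iUnion.2 ⟨n, η n, rfl⟩))
  intro S hS
  obtain ⟨t, ht, htc, hd⟩ := (h1.mono (subset_univ ((fun x : MA M => dg x (Xi hξ)) '' S))
    ).exists_countable_dense_subset
  have hne : t.Nonempty := closure_nonempty_iff.1 ((hS.image _).mono hd)
  obtain ⟨f, rfl⟩ := htc.exists_eq_range hne
  choose x h2 h3 using fun k => ht (mem_range_self k)
  refine ⟨x, h2, fun y hy ε hε => ?_⟩
  obtain ⟨_, ⟨k, rfl⟩, hk⟩ := Metric.mem_closure_iff.1 (hd ⟨y, hy, rfl⟩) ε hε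
  refine ⟨k, ?_⟩
  rw [← h3, dist_eq_norm] at hk
  rw [norm_J_eq]; exact hk

/-- the part of `M` inside `N` -/
def sub (M N : VonNeumannAlgebra H) : StarSubalgebra ℂ (MA M) :=
  N.toStarSubalgebra.comap (MA M).subtype

lemma mem_sub {N : VonNeumannAlgebra H} {x : MA M} : x ∈ sub M N ↔ x.1 ∈ N := Iff.rfl

lemma cl_sub (N : VonNeumannAlgebra H) : Cl (trM hξ) (sub M N) :=
  fun z hz => mem_of_approx hξ N z hz

lemma unit_iff {x : MA M} : x ∈ unitary (MA M) ↔ x.1 ∈ unitary (H →L[ℂ] H) :=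
  ⟨fun h => ⟨congrArg Subtype.val h.1, congrArg Subtype.val h.2⟩,
    fun h => ⟨Subtype.ext h.1, Subtype.ext h.2⟩⟩

lemma fac_sub {P : VonNeumannAlgebra H} (hPM : P ≤ M) (hP : IsTypeIIOneFactor P) :
    Fac (trM hξ) (sub M P) where
  cl := cl_sub hξ P
  fac z hz h := by
    obtain ⟨c, hc⟩ := hP.1 z.1 hz fun y hy => congrArg Subtype.val (h ⟨y, hPM hy⟩ hy)
    exact ⟨c, Subtype.ext hc⟩
  inf h := by
    let L : P.toStarSubalgebra →ₗ[ℂ] sub M P :=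
      { toFun := fun x => ⟨⟨x.1, hPM x.2⟩, x.2⟩
        map_add' := fun _ _ => rfl
        map_smul' := fun _ _ => rfl }
    exact hP.2.1 (Module.Finite.of_injective L fun x y h => Subtype.ext (congrArg (·.1.1) h))

theorem s0126 [TopologicalSpace.SeparableSpace H] (P M : VonNeumannAlgebra H) (hPM : P ≤ M)
    (hP : IsTypeIIOneFactor P)
    (hPM' : ∀ x ∈ M, (∀ y ∈ P, x * y = y * x) → ∃ c : ℂ, x = c • (1 : H →L[ℂ] H))
    (ξ : ℕ → H) (hξ : IsFaithfulTracialVectorState M ξ) :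
    (∃ O : ℕ → Set (H →L[ℂ] H),
      (∀ k : ℕ, ∀ u ∈ M, u ∈ unitary (H →L[ℂ] H) → u ∈ O k → ∃ δ : ℝ, 0 < δ ∧
        ∀ v ∈ M, v ∈ unitary (H →L[ℂ] H) → traceNormSq ξ (v - u) < δ → v ∈ O k) ∧
      (∀ u ∈ M, u ∈ unitary (H →L[ℂ] H) →
        ((∀ N : VonNeumannAlgebra H, P ≤ N → u ∈ N → M ≤ N) ↔ ∀ k : ℕ, u ∈ O k))) ∧
    (∀ u ∈ M, u ∈ unitary (H →L[ℂ] H) → ∀ ε : ℝ, 0 < ε →
      ∃ v ∈ M, v ∈ unitary (H →L[ℂ] H) ∧ (∀ N : VonNeumannAlgebra H, P ≤ N → v ∈ N → M ≤ N) ∧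
        traceNormSq ξ (v - u) < ε) := by
  have hF := fac_sub hξ hPM hP
  have hT := trM_good hξ
  constructor
  · obtain ⟨x, -, hx'⟩ := sep_trM hξ (unitary (MA M)) ⟨1, one_mem (unitary (MA M))⟩
    refine ⟨fun k => {u | ∃ hu : u ∈ M, (⟨u, hu⟩ : MA M) ∈
      OO (trM hξ) (sub M P) (x k.unpair.1) (1 / (k.unpair.2 + 1))}, ?_, fun u hu hu' => ⟨?_, ?_⟩⟩
    · rintro k u hu hu' ⟨_, h⟩
      obtain ⟨δ, hδ, H⟩ := OO_open ((unit_iff (x := ⟨u, hu⟩)).2 hu') h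
      refine ⟨δ ^ 2, by positivity, fun v hv hv' h1 =>
        ⟨hv, H ⟨v, hv⟩ ((unit_iff (x := ⟨v, hv⟩)).2 hv') ?_⟩⟩
      rw [show v - u = (⟨v, hv⟩ - ⟨u, hu⟩ : MA M).1 from rfl, tns_eq' hξ] at h1
      exact lt_of_pow_lt_pow_left₀ 2 hδ.le h1
    · intro h k
      refine ⟨hu, ?_⟩
      let B := StarAlgebra.adjoin ℂ (insert ⟨u, hu⟩ (sub M P : Set (MA M)))
      have h1 := h (vnGen (Subtype.val '' (B : Set (MA M))))
        (fun y hy => subset_vnGen ⟨⟨y, hPM hy⟩, StarAlgebra.subset_adjoin _ _ (Or.inr hy), rfl⟩)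
        (subset_vnGen ⟨⟨u, hu⟩, StarAlgebra.subset_adjoin _ _ (Or.inl rfl), rfl⟩) (x k.unpair.1).2
      obtain ⟨a, ha, h2⟩ := approx_of_mem hξ B (x k.unpair.1) (fun y hy => mem_vnGen.1 h1 y (by
        rintro _ ⟨b, hb, rfl⟩
        exact ⟨hy _ ⟨b, hb, rfl⟩, hy _ ⟨star b, star_mem hb, rfl⟩⟩))
        (ε := 1 / (k.unpair.2 + 1) / 2) (by positivity)
      obtain ⟨f, hf, rfl⟩ := QF_of_adjoin (T := trM hξ) ha
      exact ⟨f, hf, h2.trans_lt (half_lt_self (by positivity))⟩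
    · intro h N h1 h2 y hy
      exact gen_of_OO hx' (u := ⟨u, hu⟩) (fun k => (h k).2) (cl_sub hξ N) (fun _ hz => h1 hz) h2
        ⟨y, hy⟩
  · intro u hu hu' ε hε
    obtain ⟨v, hv, h1, h2⟩ := generic hT (sep_trM hξ) hF.cl.isClosed (av_of hT hF.cl.isClosed
      fun z hz => by
        obtain ⟨c, hc⟩ := hPM' z.1 z.2 fun y hy => congrArg Subtype.val (hz ⟨y, hPM hy⟩ hy)
        exact ⟨c, Subtype.ext hc⟩) (hF.wn hT) ((unit_iff (x := ⟨u, hu⟩)).2 hu')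
      (Real.sqrt_pos.2 hε)
    refine ⟨v, v.2, unit_iff.1 hv, fun N h3 h4 y hy =>
      h2 _ (cl_sub hξ N) (fun _ hz => h3 hz) h4 ⟨y, hy⟩, ?_⟩
    rw [show v.1 - u = (v - ⟨u, hu⟩ : MA M).1 from rfl, tns_eq' hξ]
    exact (Real.lt_sqrt (norm_nonneg _)).1 h1

end Crest.Agent.H1VN
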