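import Crest.Agent.H1VN.Tr

/-! Evaluation of free group words, and the derivation attached to `h ↦ (1 + ε Z) h`. -/

set_option autoImplicit false

open Set MonoidAlgebra

noncomputable section

namespace Crest.Agent.H1VN

variable {ι : Type*} [DecidableEq ι] {A : Type*} [CStarAlgebra A]

abbrev GA (ι : Type*) := MonoidAlgebra ℂ (FreeGroup ι)

/-- the group element as an element of the group algebra -/
abbrev sg (w : FreeGroup ι) : GA ι := single w 1

omit [DecidableEq ι] in
@[simp] lemma sg_one : sg (1 : FreeGroup ι) = 1 := rfl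

omit [DecidableEq ι] in
lemma sg_mul (v w : FreeGroup ι) : sg (v * w) = sg v * sg w := by simp [single_mul_single]

omit [DecidableEq ι] in
lemma sg_mul_inv (v : FreeGroup ι) : sg v * sg v⁻¹ = 1 := by rw [← sg_mul, mul_inv_cancel, sg_one]

omit [DecidableEq ι] in
lemma sg_inv_mul (v : FreeGroup ι) : sg v⁻¹ * sg v = 1 := by rw [← sg_mul, inv_mul_cancel, sg_one]

def evL (U : ι → A) (l : List (ι × Bool)) : A :=
  (l.map fun p => bif p.2 then U p.1 else star (U p.1)).prod

def ev (U : ι → A) (w : FreeGroup ι) : A := evL U w.toWord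

def pi (U : ι → A) : GA ι →ₗ[ℂ] A :=
  (Finsupp.linearCombination ℂ (ev U)).comp (coeffLinearEquiv ℂ).toLinearMap

lemma pi_single (U : ι → A) (w : FreeGroup ι) (c : ℂ) : pi U (single w c) = c • ev U w := by
  simp [pi]

lemma pi_sg (U : ι → A) (w : FreeGroup ι) : pi U (sg w) = ev U w := by simp [pi_single]

def Un (U : ι → A) : Prop := ∀ i, U i ∈ unitary A

def lft {U : ι → A} (hU : Un U) : FreeGroup ι →* unitary A := FreeGroup.lift fun i => ⟨U i, hU i⟩

omit [DecidableEq ι] in
lemma lft_mk {U : ι → A} (hU : Un U) (l : List (ι × Bool)) :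
    (lft hU (FreeGroup.mk l) : A) = evL U l := by
  rw [lft, FreeGroup.lift_mk, evL, Submonoid.coe_list_prod, List.map_map]
  congr 2
  ext ⟨i, b⟩
  cases b <;> rfl

lemma ev_eq {U : ι → A} (hU : Un U) (w : FreeGroup ι) : ev U w = lft hU w := by
  rw [ev, ← lft_mk hU, FreeGroup.mk_toWord]

lemma ev_mk {U : ι → A} (hU : Un U) (l : List (ι × Bool)) : ev U (FreeGroup.mk l) = evL U l := by
  rw [ev_eq hU, lft_mk]

lemma ev_mul {U : ι → A} (hU : Un U) (v w : FreeGroup ι) : ev U (v * w) = ev U v * ev U w := by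
  simp [ev_eq hU]

@[simp] lemma ev_one (U : ι → A) : ev U 1 = 1 := by simp [ev, evL]

@[simp] lemma ev_of (U : ι → A) (i : ι) : ev U (FreeGroup.of i) = U i := by
  simp [ev, evL, FreeGroup.toWord_of]

lemma ev_inv {U : ι → A} (hU : Un U) (w : FreeGroup ι) : ev U w⁻¹ = star (ev U w) := by
  rw [ev_eq hU, ev_eq hU, map_inv]; rfl

lemma ev_pow {U : ι → A} (hU : Un U) (w : FreeGroup ι) (n : ℕ) : ev U (w ^ n) = ev U w ^ n := by
  simp [ev_eq hU]

lemma ev_mem {U : ι → A} (hU : Un U) (w : FreeGroup ι) : ev U w ∈ unitary A := by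
  rw [ev_eq hU]; exact (lft hU w).2

lemma pi_mul {U : ι → A} (hU : Un U) (x y : GA ι) : pi U (x * y) = pi U x * pi U y := by
  induction x using MonoidAlgebra.induction_linear with
  | zero => simp
  | add a b ha hb => simp [add_mul, ha, hb]
  | single v c =>
    induction y using MonoidAlgebra.induction_linear with
    | zero => simp
    | add a b ha hb => simp [mul_add, ha, hb]
    | single w d => simp [single_mul_single, pi_single, ev_mul hU, smul_smul, mul_comm]

lemma Un.update {U : ι → A} (hU : Un U) (h : ι) {u : A} (hu : u ∈ unitary A) :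
    Un (Function.update U h u) := fun i => by
  by_cases hi : i = h
  · subst hi; simpa
  · simpa [hi] using hU i

/-- free Haar unitary family -/
def Free (T : Tr A) (U : ι → A) : Prop := ∀ w, w ≠ 1 → T.τ (ev U w) = 0

lemma Free.τ_pi {T : Tr A} {U : ι → A} (hF : Free T U) (z : GA ι) : T.τ (pi U z) = z.coeff 1 := by
  induction z using MonoidAlgebra.induction_linear with
  | zero => simp
  | add a b ha hb => simp [ha, hb]
  | single w c =>
    rw [pi_single, map_smul, coeff_single, Finsupp.single_apply]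
    split_ifs with h
    · subst h; simp [T.one]
    · simp [hF w h]

/-! ### the derivation -/

section
variable (h : ι) (Z : GA ι)

def d1 (p : ι × Bool) : GA ι :=
  if p.1 = h then bif p.2 then Z * sg (.of h) else -(sg (FreeGroup.of h)⁻¹ * Z) else 0

def DL : List (ι × Bool) → GA ι
  | [] => 0
  | p :: l => d1 h Z p * sg (.mk l) + sg (.mk [p]) * DL l

lemma DL_append (l₁ l₂ : List (ι × Bool)) :
    DL h Z (l₁ ++ l₂) = DL h Z l₁ * sg (.mk l₂) + sg (.mk l₁) * DL h Z l₂ := by
  induction l₁ with
  | nil => simp [DL, ← FreeGroup.one_eq_mk, ← one_def]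
  | cons p l ih =>
    rw [List.cons_append, DL, DL, ih, ← FreeGroup.mul_mk, ← List.singleton_append (l := l),
      ← FreeGroup.mul_mk]
    simp only [mul_add, add_mul, mul_assoc, single_mul_single, ← mul_assoc (sg _) (sg _), mul_one]
    abel

omit [DecidableEq ι] in
lemma mk_false (i : ι) : FreeGroup.mk [(i, false)] = (FreeGroup.of i)⁻¹ := rfl

omit [DecidableEq ι] in
lemma mk_true (i : ι) : FreeGroup.mk [(i, true)] = FreeGroup.of i := rfl

lemma DL_pair (i : ι) (b : Bool) : DL h Z [(i, b), (i, !b)] = 0 := by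
  by_cases hi : i = h
  · subst hi
    cases b
    · simp [DL, d1, mk_false, mk_true, ← FreeGroup.one_eq_mk, ← one_def, mul_assoc]
    · simp only [DL, d1, Bool.not_true, mk_false, ← FreeGroup.one_eq_mk, ← one_def, if_true,
        cond_true, cond_false, mul_one, mul_zero, add_zero, mul_assoc, mul_neg,
        ← mul_assoc (sg _) (sg _), single_mul_single]
      change _ + -(single (FreeGroup.of i * _) _ * _) = _
      simp [← one_def]
  · simp [DL, d1, hi]

def D : FreeGroup ι → GA ι := Quot.lift (DL h Z) (by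
  rintro _ _ @⟨l₁, l₂, i, b⟩
  have e : FreeGroup.mk ((i, b) :: (i, !b) :: l₂) = FreeGroup.mk l₂ :=
    Quot.sound (FreeGroup.Red.Step.cons_not)
  have e2 : FreeGroup.mk [(i, b), (i, !b)] = 1 := Quot.sound (FreeGroup.Red.Step.cons_not)
  rw [DL_append, DL_append, e]
  congr 2
  have := DL_append h Z [(i, b), (i, !b)] l₂
  rwa [DL_pair, e2, zero_mul, zero_add, sg_one, one_mul] at this)

lemma D_mk (l : List (ι × Bool)) : D h Z (.mk l) = DL h Z l := rfl

lemma D_mul (v w : FreeGroup ι) : D h Z (v * w) = D h Z v * sg w + sg v * D h Z w := by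
  rcases v with ⟨v⟩; rcases w with ⟨w⟩
  exact DL_append h Z v w

lemma D_one : D h Z 1 = 0 := rfl

lemma D_of (i : ι) : D h Z (.of i) = if i = h then Z * sg (.of h) else 0 := by
  change DL h Z [(i, true)] = _
  simp [DL, d1, ← FreeGroup.one_eq_mk, ← one_def]

lemma D_inv (w : FreeGroup ι) : D h Z w⁻¹ = -(sg w⁻¹ * D h Z w * sg w⁻¹) := by
  have := D_mul h Z w⁻¹ w
  rw [inv_mul_cancel, D_one] at this
  rw [← neg_mul, ← eq_neg_of_add_eq_zero_left this.symm, mul_assoc, sg_mul_inv, mul_one]

lemma D_zpow {y : ι} (hy : y ≠ h) (m : ℤ) : D h Z (.of y ^ m) = 0 := by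
  have h1 : D h Z (.of y) = 0 := by rw [D_of, if_neg hy]
  induction m using Int.induction_on with
  | zero => exact D_one h Z
  | succ m ih => rw [zpow_add_one, D_mul, ih, h1]; simp
  | pred m ih => rw [zpow_sub_one, D_mul, ih, D_inv, h1]; simp

/-- conjugates of powers of `y` -/
def CJ (y : ι) : Set (FreeGroup ι) := {w | ∃ (k : FreeGroup ι) (m : ℤ), w = k * .of y ^ m * k⁻¹}

omit [DecidableEq ι] in
lemma conj_supp {y : ι} {z : GA ι} (hz : z ∈ supported ℂ ℂ (CJ y)) (v : FreeGroup ι) :
    sg v * z * sg v⁻¹ ∈ supported ℂ ℂ (CJ y) := by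
  rw [mem_supported'] at hz ⊢
  intro w hw
  rw [coeff_mul_single_apply, coeff_single_mul_apply, hz, mul_zero, zero_mul]
  rintro ⟨k, m, e⟩
  refine hw ⟨v * k, m, ?_⟩
  rw [inv_inv] at e
  calc w = v * (v⁻¹ * (w * v)) * v⁻¹ := by group
    _ = _ := by rw [e]; group

lemma D_supp {y : ι} (hZ : Z ∈ supported ℂ ℂ (CJ y)) (w : FreeGroup ι) :
    D h Z w * sg w⁻¹ ∈ supported ℂ ℂ (CJ y) := by
  induction w with
  | C1 => simp [D_one]
  | of i =>
    rw [D_of]; split_ifs with hi
    · subst hi; rwa [mul_assoc, sg_mul_inv, mul_one]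
    · simp
  | inv_of i ih =>
    have := conj_supp ih (FreeGroup.of i)⁻¹
    rw [D_inv, neg_mul]
    refine neg_mem ?_
    simpa only [mul_assoc] using this
  | mul v w hv hw =>
    have := conj_supp hw v
    rw [D_mul, mul_inv_rev, sg_mul, add_mul, mul_assoc, ← mul_assoc (sg w), sg_mul_inv, one_mul]
    refine add_mem hv ?_
    simpa only [mul_assoc] using this

lemma D_coeff {y : ι} (hy : y ≠ h) (hZ : Z ∈ supported ℂ ℂ (CJ y)) (w : FreeGroup ι) :
    (D h Z w).coeff 1 = 0 := by
  by_cases hw : w⁻¹ ∈ CJ y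
  · obtain ⟨k, m, e⟩ := hw
    have : w = k * .of y ^ (-m) * k⁻¹ := by rw [← inv_inv w, e]; group
    rw [this, D_mul, D_mul, D_zpow h Z hy, D_inv, mul_zero, add_zero, mul_neg, ← mul_assoc,
      ← mul_assoc, ← sg_mul]
    simp only [coeff_add, coeff_neg, Finsupp.add_apply, Finsupp.neg_apply, coeff_mul_single_apply,
      coeff_single_mul_apply, mul_one, one_mul]
    rw [add_neg_eq_zero]; congr 1; group
  · have := mem_supported'.1 (D_supp h Z hZ w) _ hw
    simpa [coeff_mul_single_apply] using this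

lemma exists_bd : ∃ C K : ℝ, 0 < C ∧ 0 < K ∧ ∀ (σ b : ℝ), 0 ≤ σ → 0 ≤ b → ∀ ψ : GA ι →ₗ[ℂ] ℂ,
    (∀ w, ‖ψ (sg w)‖ ≤ b * Real.exp (σ * w.norm)) →
    ∀ w, ‖ψ (D h Z w)‖ ≤ w.norm * (b * C * Real.exp (σ * (w.norm + K))) := by
  refine ⟨(∑ γ ∈ Z.coeff.support, ‖Z.coeff γ‖) + 1, (∑ γ ∈ Z.coeff.support, (γ.norm : ℝ)) + 1,
    by positivity, by positivity, fun σ b hσ hb ψ hψ w => ?_⟩
  set C := (∑ γ ∈ Z.coeff.support, ‖Z.coeff γ‖) + 1 with hC
  set K := (∑ γ ∈ Z.coeff.support, (γ.norm : ℝ)) + 1 with hK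
  have hC0 : 0 ≤ C := by positivity
  have h1 : ∀ (p q : FreeGroup ι) (n : ℝ), (p.norm + q.norm : ℝ) ≤ n →
      ‖ψ (sg p * Z * sg q)‖ ≤ b * C * Real.exp (σ * (n + K)) := by
    intro p q n hn
    rw [← sum_coeff_single Z, Finsupp.sum, Finset.mul_sum, Finset.sum_mul, map_sum]
    refine (norm_sum_le _ _).trans ?_
    have : ∀ γ ∈ Z.coeff.support, ‖ψ (sg p * single γ (Z.coeff γ) * sg q)‖ ≤
        ‖Z.coeff γ‖ * (b * Real.exp (σ * (n + K))) := by
      intro γ hγ
      have e : sg p * single γ (Z.coeff γ) * sg q = Z.coeff γ • sg (p * γ * q) := by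
        simp [single_mul_single]
      rw [e, map_smul, norm_smul]
      gcongr
      refine (hψ _).trans ?_
      gcongr
      have h2 : ((p * γ * q).norm : ℝ) ≤ p.norm + γ.norm + q.norm := by
        exact_mod_cast (FreeGroup.norm_mul_le _ _).trans
          (Nat.add_le_add_right (FreeGroup.norm_mul_le _ _) _)
      have h3 : (γ.norm : ℝ) ≤ ∑ γ ∈ Z.coeff.support, (γ.norm : ℝ) :=
        Finset.single_le_sum (f := fun γ : FreeGroup ι => (γ.norm : ℝ))
          (fun _ _ => by positivity) hγ
      linarith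
    refine (Finset.sum_le_sum this).trans ?_
    rw [← Finset.sum_mul, mul_comm b C, mul_assoc]
    gcongr; linarith
  have h2 : ∀ (l : List (ι × Bool)) (p : FreeGroup ι) (n : ℝ), (p.norm + l.length : ℝ) ≤ n →
      ‖ψ (sg p * DL h Z l)‖ ≤ l.length * (b * C * Real.exp (σ * (n + K))) := by
    intro l
    induction l with
    | nil => intro p n _; simp [DL]
    | cons x l ih =>
      intro p n hn
      have hl : ((FreeGroup.mk l).norm : ℝ) ≤ l.length := by exact_mod_cast FreeGroup.norm_mk_le
      have hx : ∀ x : ι × Bool, ((p * FreeGroup.mk [x]).norm : ℝ) ≤ p.norm + 1 := fun x => by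
        exact_mod_cast (FreeGroup.norm_mul_le _ _).trans
          (Nat.add_le_add_left FreeGroup.norm_mk_le _)
      rw [List.length_cons] at hn ⊢
      push_cast at hn ⊢
      rw [DL, mul_add, map_add, ← mul_assoc _ (sg _), ← sg_mul, add_mul, one_mul, add_comm]
      refine (norm_add_le _ _).trans (add_le_add (ih _ n (by linarith [hx x])) ?_)
      unfold d1
      split_ifs with hx'
      · cases x.2
        · rw [cond_false, neg_mul, mul_neg, map_neg, norm_neg, ← mul_assoc, ← mul_assoc, ← sg_mul]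
          exact h1 _ _ n (by have := hx (h, false); rw [mk_false] at this; linarith)
        · rw [cond_true, mul_assoc, ← sg_mul, ← mul_assoc]
          refine h1 _ _ n ?_
          have : ((FreeGroup.of h * FreeGroup.mk l).norm : ℝ) ≤ 1 + (FreeGroup.mk l).norm := by
            exact_mod_cast FreeGroup.norm_mul_le _ _
          linarith
      · simp only [zero_mul, mul_zero, map_zero, norm_zero]; positivity
  have := h2 w.toWord 1 w.norm (by simp [FreeGroup.norm])
  rwa [sg_one, one_mul, ← D_mk, FreeGroup.mk_toWord] at this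

/-- derivative of a word along the flow -/
lemma hasDeriv_ev {U : ι → A} {u : ℝ → A} {S : Set ℝ} {t : ℝ} (hU : Un U) (hu : u t ∈ unitary A)
    (hs : star (pi (Function.update U h (u t)) Z) = pi (Function.update U h (u t)) Z)
    (hd : HasDerivWithinAt u (Complex.I • (pi (Function.update U h (u t)) Z * u t)) S t)
    (w : FreeGroup ι) :
    HasDerivWithinAt (fun t => ev (Function.update U h (u t)) w)
      (Complex.I • pi (Function.update U h (u t)) (D h Z w)) S t := by
  have hV := hU.update h hu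
  have : ∀ l : List (ι × Bool), HasDerivWithinAt (fun t => evL (Function.update U h (u t)) l)
      (Complex.I • pi (Function.update U h (u t)) (DL h Z l)) S t := by
    intro l
    induction l with
    | nil => simpa [evL, DL] using hasDerivWithinAt_const t S (1 : A)
    | cons x l ih =>
      have h1 : HasDerivWithinAt (fun t => evL (Function.update U h (u t)) [x])
          (Complex.I • pi (Function.update U h (u t)) (d1 h Z x)) S t := by
        obtain ⟨i, b⟩ := x
        by_cases hi : i = h
        · subst hi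
          cases b
          · have := hd.star
            simp only [evL, d1, pi_mul hV, pi_sg, ev_inv hV, ev_of, map_neg] at this ⊢
            simpa [hs, pi_mul hV, pi_sg, ev_inv hV] using this
          · simpa [evL, d1, pi_mul hV, pi_sg] using hd
        · simpa [evL, d1, hi] using hasDerivWithinAt_const t S _
      have := h1.mul ih
      convert this using 1
      · ext t; simp [evL]
      · simp only [DL, map_add, pi_mul hV, pi_sg, ev_mk hV, smul_add, smul_mul_assoc,
          mul_smul_comm]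
  have e : D h Z w = DL h Z w.toWord := by rw [← D_mk, FreeGroup.mk_toWord]
  rw [e]; exact this _

end

end Crest.Agent.H1VN
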