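import Crest.Agent.H1VN.Flow1

/-! The flow `u' = i ξ(u) u` preserves the free Haar law. -/

set_option autoImplicit false

open Set MonoidAlgebra Metric Filter Topology

noncomputable section

namespace Crest.Agent.H1VN

variable {ι : Type*} [DecidableEq ι] {A : Type*} [CStarAlgebra A]

lemma ici_of_icc {E : Type*} [NormedAddCommGroup E] [NormedSpace ℝ E] {f : ℝ → E} {f' : E}
    {a b x : ℝ} (hx : x ∈ Ico a b) (h : HasDerivWithinAt f f' (Icc a b) x) :
    HasDerivWithinAt f f' (Ici x) x :=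
  h.mono_of_mem_nhdsWithin (Icc_mem_nhdsGE_of_mem hx)

theorem free_unique (T : Tr A) (h : ι) (Z : GA ι) (hZ0 : ∀ w, (D h Z w).coeff 1 = 0) :
    ∃ s₀ : ℝ, 0 < s₀ ∧ ∀ s ≤ s₀, ∀ (V : ℝ → ι → A), (∀ t ∈ Icc 0 s, Un (V t)) → Free T (V 0) →
      (∀ t ∈ Icc 0 s, ∀ w, HasDerivWithinAt (fun t => ev (V t) w)
        (Complex.I • pi (V t) (D h Z w)) (Icc 0 s) t) → ∀ t ∈ Icc 0 s, Free T (V t) := by
  obtain ⟨C, K, hC, hK, H⟩ := exists_bd h Z
  refine ⟨Real.log 2 / (4 * C * K), div_pos (Real.log_pos one_lt_two) (by positivity),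
    fun s hs V hV h0 hd => ?_⟩
  let ψ : ℝ → GA ι →ₗ[ℂ] ℂ := fun t =>
    T.τ.comp (pi (V t)) - (Finsupp.lapply 1).comp (coeffLinearEquiv ℂ).toLinearMap
  have hψ : ∀ t z, ψ t z = T.τ (pi (V t) z) - z.coeff 1 := fun t z => rfl
  have hd' : ∀ t ∈ Icc 0 s, ∀ w, HasDerivWithinAt (fun t => ψ t (sg w))
      (Complex.I * ψ t (D h Z w)) (Icc 0 s) t := by
    intro t ht w
    have := ((T.τL.restrictScalars ℝ).hasFDerivAt.comp_hasDerivWithinAt t (hd t ht w)).sub_const
      ((sg w).coeff 1)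
    simpa [hψ, pi_sg, hZ0] using this
  have key : ∀ j : ℕ, ∀ t ∈ Icc 0 s, ∀ w,
      ‖ψ t (sg w)‖ ≤ (2 * (1 / 2) ^ j) * Real.exp ((4 * C * t) * w.norm) := by
    intro j
    induction j with
    | zero =>
      intro t ht w
      rw [hψ, pi_sg]
      refine (norm_sub_le _ _).trans ?_
      have h1 : ‖T.τ (ev (V t) w)‖ ≤ 1 :=
        (T.norm_τ_le _).trans (Tr.norm_unit_le (ev_mem (hV t ht) w))
      have h2 : ‖(sg w).coeff 1‖ ≤ 1 := by
        rw [coeff_single, Finsupp.single_apply]; split_ifs <;> simp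
      have h3 : 1 ≤ Real.exp ((4 * C * t) * w.norm) :=
        Real.one_le_exp (by have := ht.1; positivity)
      simp only [pow_zero]; linarith
    | succ j ih =>
      intro t ht w
      refine image_norm_le_of_norm_deriv_right_le_deriv_boundary (a := 0) (b := s)
        (f := fun t => ψ t (sg w))
        (B := fun t => (2 * (1 / 2) ^ (j + 1)) * Real.exp ((4 * C * t) * w.norm))
        (B' := fun t => (2 * (1 / 2) ^ (j + 1)) * (Real.exp ((4 * C * t) * w.norm) *
          ((4 * C * 1) * w.norm)))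
        (fun t ht => (hd' t ht w).continuousWithinAt)
        (fun t ht => ici_of_icc ht (hd' t (Ico_subset_Icc_self ht) w)) ?_ ?_ ?_ ht
      · rw [hψ, h0.τ_pi, sub_self, norm_zero]; positivity
      · intro x
        exact ((((hasDerivAt_id x).const_mul (4 * C)).mul_const _).exp).const_mul _
      · intro x hx
        have hx0 := hx.1
        rw [norm_mul, Complex.norm_I, one_mul]
        refine (H _ _ (by positivity) (by positivity) (ψ x)
          (ih x (Ico_subset_Icc_self hx)) w).trans ?_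
        rw [mul_add, Real.exp_add]
        have h2 : Real.exp (4 * C * x * K) ≤ 2 := by
          rw [← Real.le_log_iff_exp_le two_pos]
          have := hx.2.le.trans hs
          rw [le_div_iff₀ (by positivity)] at this
          linarith
        calc _ ≤ (w.norm : ℝ) * (2 * (1 / 2) ^ j * C * (Real.exp (4 * C * x * w.norm) * 2)) := by
              gcongr
          _ = _ := by ring
  intro t ht w hw
  have h1 : Tendsto (fun j : ℕ => (2 * (1 / 2 : ℝ) ^ j) * Real.exp ((4 * C * t) * w.norm))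
      atTop (𝓝 ((2 * 0) * _)) :=
    ((tendsto_pow_atTop_nhds_zero_of_lt_one (by norm_num) (by norm_num)).const_mul 2).mul_const _
  have h2 := ge_of_tendsto' h1 fun j => key j t ht w
  rw [mul_zero, zero_mul, norm_le_zero_iff, hψ, pi_sg, coeff_single, Finsupp.single_apply,
    if_neg hw, sub_zero] at h2
  exact h2

/-- bounded Lipschitz polynomial vector fields -/
def Nice (h : ι) (F : (ι → A) → A → A) : Prop :=
  (∃ K : ℝ, 0 ≤ K ∧ ∀ U, Un U → (∀ u, ‖u‖ ≤ 3 → ‖F U u‖ ≤ K) ∧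
    ∀ u v, ‖u‖ ≤ 3 → ‖v‖ ≤ 3 → ‖F U u - F U v‖ ≤ K * ‖u - v‖) ∧
  ∀ (B : StarSubalgebra ℂ A) (U : ι → A), (∀ i, i ≠ h → U i ∈ B) → ∀ u ∈ B, F U u ∈ B

namespace Nice
variable {h : ι} {F G : (ι → A) → A → A}

omit [DecidableEq ι] in
lemma id : Nice h fun (_ : ι → A) u => u :=
  ⟨⟨3, by norm_num, fun _ _ => ⟨fun _ hu => hu, fun u v _ _ => by linarith [norm_nonneg (u - v)]⟩⟩,
    fun _ _ _ _ hu => hu⟩

omit [DecidableEq ι] in
lemma one : Nice h fun (_ : ι → A) _ => 1 :=
  ⟨⟨1, by norm_num, fun _ _ => ⟨fun _ _ => Tr.norm_unit_le (one_mem _), fun u v _ _ => by simp⟩⟩,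
    fun _ _ _ _ _ => one_mem _⟩

lemma upd (i : ι) : Nice h fun (U : ι → A) u => Function.update U h u i := by
  by_cases hi : i = h
  · subst hi; simpa using id
  · simp only [Function.update_of_ne hi]
    exact ⟨⟨1, by norm_num, fun _ hU => ⟨fun _ _ => Tr.norm_unit_le (hU i), fun u v _ _ => by simp⟩⟩,
      fun _ _ hU _ _ => hU i hi⟩

omit [DecidableEq ι] in
lemma star (hF : Nice h F) : Nice h fun U u => star (F U u) := by
  obtain ⟨⟨K, hK, H⟩, H'⟩ := hF
  exact ⟨⟨K, hK, fun U hU => ⟨fun u hu => by simpa using (H U hU).1 u hu, fun u v hu hv => by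
    rw [← star_sub, norm_star]; exact (H U hU).2 u v hu hv⟩⟩,
    fun B U hU u hu => star_mem (H' B U hU u hu)⟩

omit [DecidableEq ι] in
lemma smul (hF : Nice h F) (c : ℂ) : Nice h fun U u => c • F U u := by
  obtain ⟨⟨K, hK, H⟩, H'⟩ := hF
  refine ⟨⟨‖c‖ * K, by positivity, fun U hU => ⟨fun u hu => ?_, fun u v hu hv => ?_⟩⟩,
    fun B U hU u hu => B.smul_mem (H' B U hU u hu) c⟩
  · rw [norm_smul]; gcongr; exact (H U hU).1 u hu
  · rw [← smul_sub, norm_smul, mul_assoc]; gcongr; exact (H U hU).2 u v hu hv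

omit [DecidableEq ι] in
lemma add (hF : Nice h F) (hG : Nice h G) : Nice h fun U u => F U u + G U u := by
  obtain ⟨⟨K, hK, H⟩, H'⟩ := hF
  obtain ⟨⟨L, hL, J⟩, J'⟩ := hG
  refine ⟨⟨K + L, by positivity, fun U hU => ⟨fun u hu => ?_, fun u v hu hv => ?_⟩⟩,
    fun B U hU u hu => add_mem (H' B U hU u hu) (J' B U hU u hu)⟩
  · exact (norm_add_le _ _).trans (add_le_add ((H U hU).1 u hu) ((J U hU).1 u hu))
  · rw [add_sub_add_comm, add_mul]
    exact (norm_add_le _ _).trans (add_le_add ((H U hU).2 u v hu hv) ((J U hU).2 u v hu hv))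

omit [DecidableEq ι] in
lemma mul (hF : Nice h F) (hG : Nice h G) : Nice h fun U u => F U u * G U u := by
  obtain ⟨⟨K, hK, H⟩, H'⟩ := hF
  obtain ⟨⟨L, hL, J⟩, J'⟩ := hG
  refine ⟨⟨2 * (K * L), by positivity, fun U hU => ⟨fun u hu => ?_, fun u v hu hv => ?_⟩⟩,
    fun B U hU u hu => mul_mem (H' B U hU u hu) (J' B U hU u hu)⟩
  · refine (norm_mul_le _ _).trans ((mul_le_mul ((H U hU).1 u hu) ((J U hU).1 u hu)
      (norm_nonneg _) hK).trans ?_)
    linarith [mul_nonneg hK hL]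
  · have e : F U u * G U u - F U v * G U v =
        (F U u - F U v) * G U u + F U v * (G U u - G U v) := by noncomm_ring
    rw [e]
    refine (norm_add_le _ _).trans ((add_le_add ((norm_mul_le _ _).trans
      (mul_le_mul ((H U hU).2 u v hu hv) ((J U hU).1 u hu) (norm_nonneg _) (by positivity)))
      ((norm_mul_le _ _).trans (mul_le_mul ((H U hU).1 v hv) ((J U hU).2 u v hu hv)
        (norm_nonneg _) hK))).trans (le_of_eq (by ring)))

lemma evL (l : List (ι × Bool)) : Nice h fun (U : ι → A) u => evL (Function.update U h u) l := by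
  induction l with
  | nil => simpa [H1VN.evL] using one
  | cons x l ih =>
    obtain ⟨i, b⟩ := x
    cases b
    · simpa [H1VN.evL] using (upd i).star.mul ih
    · simpa [H1VN.evL] using (upd i).mul ih

lemma pi (z : GA ι) : Nice h fun (U : ι → A) u => pi (Function.update U h u) z := by
  induction z using MonoidAlgebra.induction_linear with
  | zero => simpa using (one (h := h) (A := A)).smul 0
  | add a b ha hb => simpa using ha.add hb
  | single w c => simpa [pi_single, ev] using (evL w.toWord).smul c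

end Nice

lemma inv_sub {f : A → A} {K : ℝ} (hK : 0 ≤ K)
    (hL : ∀ u v, ‖u‖ ≤ 3 → ‖v‖ ≤ 3 → ‖f u - f v‖ ≤ K * ‖u - v‖)
    (B : StarSubalgebra ℂ A) (hB : IsClosed (B : Set A)) (hf : ∀ u ∈ B, f u ∈ B)
    {u : ℝ → A} {s : ℝ} (hs : 0 ≤ s) (hu : ∀ t ∈ Icc 0 s, ‖u t‖ ≤ 1)
    (hd : ∀ t ∈ Icc 0 s, HasDerivWithinAt u (f (u t)) (Icc 0 s) t) (h0 : u 0 ∈ B) : u s ∈ B := by
  let S : Submodule ℂ A := B.toSubalgebra.toSubmodule
  haveI : IsClosed (S : Set A) := hB
  let q : A →L[ℝ] A ⧸ S := S.mkQL.restrictScalars ℝ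
  have hq : ∀ x, q x = Submodule.Quotient.mk x := fun x => rfl
  have hd' : ∀ t ∈ Icc 0 s, HasDerivWithinAt (fun t => q (u t)) (q (f (u t))) (Icc 0 s) t :=
    fun t ht => q.hasFDerivAt.comp_hasDerivWithinAt t (hd t ht)
  have := eq_zero_of_abs_deriv_le_mul_abs_self_of_eq_zero_right (K := K)
    (fun t ht => (hd' t ht).continuousWithinAt)
    (fun t ht => ici_of_icc ht (hd' t (Ico_subset_Icc_self ht)))
    ((Submodule.Quotient.mk_eq_zero S).2 h0) (fun t ht => ?_) s ⟨hs, le_rfl⟩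
  · exact (Submodule.Quotient.mk_eq_zero S).1 this
  · have h1 := hu t (Ico_subset_Icc_self ht)
    refine le_of_forall_pos_le_add fun ε hε => ?_
    obtain ⟨m, hm, hm'⟩ := Submodule.Quotient.norm_mk_lt (q (u t)) (ε := min 1 (ε / (K + 1)))
      (by positivity)
    have hb : u t - m ∈ B := (Submodule.Quotient.eq S).1 hm.symm
    have h2 : ‖q (u t)‖ ≤ 1 := (Submodule.Quotient.norm_mk_le S _).trans h1
    have h3 : ‖u t - m‖ ≤ 3 := (norm_sub_le _ _).trans (by linarith [min_le_left 1 (ε / (K + 1))])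
    have e : q (f (u t)) = q (f (u t) - f (u t - m)) := by
      rw [map_sub, hq (f (u t - m)), (Submodule.Quotient.mk_eq_zero S).2 (hf _ hb), sub_zero]
    rw [e]
    refine (Submodule.Quotient.norm_mk_le S _).trans ((hL _ _ (by linarith) h3).trans ?_)
    rw [sub_sub_cancel]
    have h4 : ‖m‖ ≤ ‖q (u t)‖ + ε / (K + 1) := by linarith [min_le_right 1 (ε / (K + 1))]
    have h5 : K * (ε / (K + 1)) ≤ ε := by
      rw [← mul_div_assoc, div_le_iff₀ (by positivity)]; nlinarith
    nlinarith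

theorem step (T : Tr A) (h : ι) (Z : GA ι) (hZ0 : ∀ w, (D h Z w).coeff 1 = 0)
    (hZs : ∀ U : ι → A, Un U → star (pi U Z) = pi U Z) :
    ∃ s₀ : ℝ, 0 < s₀ ∧ ∀ s, 0 ≤ s → s ≤ s₀ → ∀ U : ι → A, Un U → Free T U → ∃ u : ℝ → A,
      u 0 = U h ∧ (∀ t ∈ Icc 0 s, u t ∈ unitary A ∧ Free T (Function.update U h (u t)) ∧
        ∀ w, HasDerivWithinAt (fun t => ev (Function.update U h (u t)) w)
          (Complex.I • pi (Function.update U h (u t)) (D h Z w)) (Icc 0 s) t) ∧
      ∀ B : StarSubalgebra ℂ A, IsClosed (B : Set A) → (∀ i, i ≠ h → U i ∈ B) →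
        (u 0 ∈ B ↔ u s ∈ B) := by
  obtain ⟨s₁, hs₁, H1⟩ := free_unique T h Z hZ0
  let ξ : (ι → A) → A → A := fun U u => (1 / 2 : ℂ) •
    (pi (Function.update U h u) Z + star (pi (Function.update U h u) Z))
  have hξs : ∀ U u, star (ξ U u) = ξ U u := fun U u => by simp [ξ, add_comm]
  have hξ : Nice h ξ := ((Nice.pi Z).add (Nice.pi Z).star).smul _
  obtain ⟨⟨K, hK, HK⟩, HB⟩ := (hξ.mul Nice.id).smul Complex.I
  obtain ⟨⟨L, hL, HL⟩, -⟩ := hξ
  refine ⟨min s₁ (1 / (K + 1)), by positivity, fun s hs0 hs U hU hF => ?_⟩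
  have hn : ∀ x ∈ closedBall (U h) (1 : NNReal), ‖x‖ ≤ 3 := fun x hx => by
    have h1 := Tr.norm_unit_le (hU h)
    have h2 := norm_le_norm_add_norm_sub' x (U h)
    rw [mem_closedBall, dist_eq_norm] at hx
    push_cast at hx; linarith
  have hP : IsPicardLindelof (fun _ u => Complex.I • (ξ U u * u)) (tmin := 0) (tmax := s)
      ⟨0, le_rfl, hs0⟩ (U h) 1 0 (NNReal.mk K hK) (NNReal.mk K hK) := by
    refine IsPicardLindelof.of_time_independent (fun x hx => (HK U hU).1 x (hn x hx)) ?_ ?_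
    · exact LipschitzOnWith.of_dist_le_mul fun x hx y hy => by
        simpa [dist_eq_norm] using (HK U hU).2 x y (hn x hx) (hn y hy)
    · have := hs.trans (min_le_right _ _)
      rw [le_div_iff₀ (by positivity)] at this
      simp only [NNReal.coe_mk, sub_zero, sub_self, NNReal.coe_one, NNReal.coe_zero]
      rw [max_eq_left hs0]; nlinarith
  obtain ⟨u, hu0, hd⟩ := hP.exists_eq_forall_mem_Icc_hasDerivWithinAt₀
  change u 0 = U h at hu0
  have h1 : ∀ t ∈ Icc 0 s, star (u t) * u t = 1 := by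
    have hd' : ∀ t ∈ Icc 0 s, HasDerivWithinAt (fun t => star (u t) * u t) 0 (Icc 0 s) t := by
      intro t ht
      exact ((hd t ht).star.mul (hd t ht)).congr_deriv (by simp [hξs, mul_assoc])
    intro t ht
    rw [constant_of_has_deriv_right_zero (fun t ht => (hd' t ht).continuousWithinAt)
      (fun t ht => ici_of_icc ht (hd' t (Ico_subset_Icc_self ht))) t ht, hu0, (hU h).1]
  have hn1 : ∀ t ∈ Icc 0 s, ‖u t‖ ≤ 1 := fun t ht => by
    have := CStarRing.norm_star_mul_self (x := u t)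
    rw [h1 t ht] at this
    have h2 : ‖(1 : A)‖ ≤ 1 := Tr.norm_unit_le (one_mem _)
    nlinarith [norm_nonneg (u t)]
  have h2 : ∀ t ∈ Icc 0 s, u t * star (u t) - 1 = 0 := by
    have hd' : ∀ t ∈ Icc 0 s, HasDerivWithinAt (fun t => u t * star (u t) - 1)
        (Complex.I • (ξ U (u t) * (u t * star (u t) - 1) - (u t * star (u t) - 1) * ξ U (u t)))
        (Icc 0 s) t := by
      intro t ht
      exact (((hd t ht).mul (hd t ht).star).sub_const 1).congr_deriv (by
        simp only [hξs, mul_assoc, mul_sub, sub_mul, smul_sub, star_smul, star_mul, smul_mul_assoc,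
          mul_smul_comm, mul_one, one_mul, Complex.star_def, Complex.conj_I, neg_smul, mul_neg]
        abel)
    refine eq_zero_of_abs_deriv_le_mul_abs_self_of_eq_zero_right (K := 2 * L)
      (fun t ht => (hd' t ht).continuousWithinAt)
      (fun t ht => ici_of_icc ht (hd' t (Ico_subset_Icc_self ht)))
      (by rw [hu0, (hU h).2, sub_self]) fun t ht => ?_
    have h3 := (HL U hU).1 (u t) ((hn1 t (Ico_subset_Icc_self ht)).trans (by norm_num))
    rw [norm_smul, Complex.norm_I, one_mul]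
    refine (norm_sub_le _ _).trans ((add_le_add (norm_mul_le _ _) (norm_mul_le _ _)).trans ?_)
    nlinarith [norm_nonneg (u t * star (u t) - 1)]
  have hun : ∀ t ∈ Icc 0 s, u t ∈ unitary A := fun t ht => ⟨h1 t ht, sub_eq_zero.1 (h2 t ht)⟩
  have hd2 : ∀ t ∈ Icc 0 s, ∀ w, HasDerivWithinAt (fun t => ev (Function.update U h (u t)) w)
      (Complex.I • pi (Function.update U h (u t)) (D h Z w)) (Icc 0 s) t := by
    intro t ht w
    have h3 := hZs _ (hU.update h (hun t ht))
    refine hasDeriv_ev h Z hU (hun t ht) h3 ?_ w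
    refine (hd t ht).congr_deriv ?_
    simp only [ξ, h3]; rw [← two_smul ℂ, smul_smul]; simp
  refine ⟨u, hu0, fun t ht => ⟨hun t ht, ?_, hd2 t ht⟩, fun B hB hUB => ⟨fun h0 => ?_, fun h0 => ?_⟩⟩
  · exact H1 s (hs.trans (min_le_left _ _)) (fun t => Function.update U h (u t))
      (fun t ht => hU.update h (hun t ht)) (by simpa [hu0] using hF) hd2 t ht
  · exact inv_sub hK (HK U hU).2 B hB (HB B U hUB) hs0 hn1 hd h0
  · have := inv_sub (f := fun u => -(Complex.I • (ξ U u * u))) (u := fun t => u (s - t)) hK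
      (fun x y hx hy => by rw [neg_sub_neg, norm_sub_rev]; exact (HK U hU).2 x y hx hy) B hB
      (fun x hx => neg_mem (HB B U hUB x hx)) hs0
      (fun t ht => hn1 _ ⟨by linarith [ht.2], by linarith [ht.1]⟩) (fun t ht => ?_)
      (by simpa using h0)
    · simpa using this
    · have h3 := (hd (s - t) ⟨by linarith [ht.2], by linarith [ht.1]⟩).scomp t
        ((hasDerivAt_id t).const_sub s).hasDerivWithinAt (s := Icc 0 s)
        (fun x hx => ⟨by linarith [hx.2], by linarith [hx.1]⟩)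
      exact h3.congr_deriv (by simp)

end Crest.Agent.H1VN
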