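import Crest.Agent.H1VN.Tr

/-! A Haar unitary is close to the exponential of a mean-zero trigonometric polynomial. -/

set_option autoImplicit false

open Set Finset NormedSpace
open scoped InnerProductSpace ComplexConjugate

noncomputable section

namespace Crest.Agent.H1VN

variable {A : Type*} [CStarAlgebra A]

lemma norm_sum_orth {E κ : Type*} [NormedAddCommGroup E] [InnerProductSpace ℂ E] (x : κ → E)
    (hx : ∀ i j, i ≠ j → ⟪x i, x j⟫_ℂ = 0) {ρ : ℝ} (hρ : ∀ i, ‖x i‖ = ρ) (c : κ → ℝ)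
    (s : Finset κ) : ‖∑ i ∈ s, (c i : ℂ) • x i‖ ^ 2 = (∑ i ∈ s, c i ^ 2) * ρ ^ 2 := by
  classical
  induction s using Finset.induction_on with
  | empty => simp
  | insert i s hi ih =>
    rw [Finset.sum_insert hi, Finset.sum_insert hi, add_mul, ← ih, sq,
      norm_add_sq_eq_norm_sq_add_norm_sq_of_inner_eq_zero (𝕜 := ℂ), norm_smul, hρ,
      Complex.norm_real, Real.norm_eq_abs, ← sq, ← sq, mul_pow, sq_abs]
    rw [inner_sum]
    exact Finset.sum_eq_zero fun j hj => by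
      rw [inner_smul_left, inner_smul_right, hx i j (by rintro rfl; exact hi hj)]; simp

/-- the trigonometric polynomial -/
def aA (α : ℕ → ℂ) (M : ℕ) (Y : A) : A :=
  ∑ j ∈ range M, (α j • Y ^ (j + 1) + conj (α j) • star (Y ^ (j + 1)))

lemma star_aA (α : ℕ → ℂ) (M : ℕ) (Y : A) : star (aA α M Y) = aA α M Y := by
  simp [aA, add_comm]

lemma exp_I_unit {a : A} (ha : star a = a) (t : ℝ) : exp (t • Complex.I • a) ∈ unitary A := by
  let +nondep : NormedAlgebra ℚ A := .restrictScalars ℚ ℂ A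
  refine exp_mem_unitary_of_mem_skewAdjoint ?_
  rw [skewAdjoint.mem_iff]; simp [ha]

lemma log_pt {r : ℝ} (hr0 : 0 ≤ r) (hr : r < 1) (M : ℕ) (hM : r ^ (M + 1) * (1 - r)⁻¹ ≤ 1 / 2)
    {z : ℂ} (hz : ‖z‖ = 1) :
    ‖Complex.exp (Complex.logTaylor (M + 1) (r * z) - conj (Complex.logTaylor (M + 1) (r * z))) *
      (1 + r * conj z) - (1 + r * z)‖ ≤ 8 * (r ^ (M + 1) * (1 - r)⁻¹) := by
  have h1 : ‖(r : ℂ) * z‖ = r := by simp [hz, hr0]
  have h2 := Complex.norm_log_sub_logTaylor_le M (z := r * z) (by rwa [h1])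
  rw [h1] at h2
  have h3 : r ^ (M + 1) * (1 - r)⁻¹ / (M + 1) ≤ r ^ (M + 1) * (1 - r)⁻¹ :=
    div_le_self (mul_nonneg (by positivity) (inv_nonneg.2 (by linarith))) (by linarith [M.cast_nonneg (α := ℝ)])
  set P := Complex.logTaylor (M + 1) (r * z)
  set L := Complex.log (1 + r * z) with hL
  have hne : 1 + (r : ℂ) * z ≠ 0 := fun h => by
    have : (r : ℂ) * z = -1 := by linear_combination h
    rw [this] at h1; simp at h1; linarith
  have e1 : Complex.exp L = 1 + r * z := Complex.exp_log hne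
  have e2 : Complex.exp (conj L) = 1 + r * conj z := by rw [Complex.exp_conj, e1]; simp
  have e3 : Complex.exp (P - conj P) * (1 + r * conj z) - (1 + r * z) =
      (Complex.exp ((P - L) - conj (P - L)) - 1) * (1 + r * z) := by
    rw [← e1, ← e2, ← Complex.exp_add, sub_mul, ← Complex.exp_add, one_mul, map_sub]
    congr 2; ring
  have h4 : ‖(P - L) - conj (P - L)‖ ≤ 2 * (r ^ (M + 1) * (1 - r)⁻¹) := by
    refine (norm_sub_le _ _).trans ?_
    rw [Complex.norm_conj, norm_sub_rev]; linarith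
  rw [e3, norm_mul]
  have h5 := Complex.norm_exp_sub_one_le (x := (P - L) - conj (P - L)) (by linarith)
  have h6 : ‖1 + (r : ℂ) * z‖ ≤ 2 := (norm_add_le _ _).trans (by rw [h1, norm_one]; linarith)
  calc _ ≤ (2 * (2 * (r ^ (M + 1) * (1 - r)⁻¹))) * 2 :=
        mul_le_mul (by linarith) h6 (norm_nonneg _) (by linarith [norm_nonneg ((P - L) - conj (P - L))])
    _ = _ := by ring

def αL (r : ℝ) (j : ℕ) : ℂ := -Complex.I * ((-1) ^ j * r ^ (j + 1) / (j + 1))

lemma log_op {r : ℝ} (hr0 : 0 ≤ r) (hr : r < 1) (M : ℕ) (hM : r ^ (M + 1) * (1 - r)⁻¹ ≤ 1 / 2)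
    {Y : A} (hY : Y ∈ unitary A) :
    ‖exp (Complex.I • aA (αL r) M Y) * (1 + (r : ℂ) • star Y) - (1 + (r : ℂ) • Y)‖ ≤
      8 * (r ^ (M + 1) * (1 - r)⁻¹) := by
  have : IsStarNormal Y := isStarNormal_of_mem_unitary hY
  let P : ℂ → ℂ := fun z => Complex.logTaylor (M + 1) (r * z)
  have hPc : Continuous P := by unfold P Complex.logTaylor; fun_prop
  have hP : cfc P Y = ∑ j ∈ range M, ((-1) ^ j * r ^ (j + 1) / (j + 1) : ℂ) • Y ^ (j + 1) := by
    have : P = ∑ j ∈ range M, fun z => ((-1) ^ j * r ^ (j + 1) / (j + 1) : ℂ) * z ^ (j + 1) := by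
      ext z
      simp only [P, Complex.logTaylor, Finset.sum_range_succ', Finset.sum_apply]
      simp only [Nat.cast_zero, div_zero, add_zero]
      exact Finset.sum_congr rfl fun j _ => by push_cast; ring
    rw [this, cfc_sum ..]
    exact Finset.sum_congr rfl fun j _ => by rw [cfc_const_mul .., cfc_pow_id ..]
  have h1 : Complex.I • aA (αL r) M Y = cfc (fun z => P z - star (P z)) Y := by
    rw [cfc_sub .., cfc_star, hP, aA, star_sum, ← Finset.sum_sub_distrib, Finset.smul_sum]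
    refine Finset.sum_congr rfl fun j _ => ?_
    rw [smul_add, smul_smul, smul_smul, star_smul, sub_eq_add_neg, ← neg_smul]
    congr 2
    · rw [αL]; linear_combination (-((-1) ^ j * r ^ (j + 1) / (j + 1) : ℂ)) * Complex.I_mul_I
    · rw [αL, map_mul, map_neg, Complex.conj_I, neg_neg, ← mul_assoc, Complex.I_mul_I]; simp
  have h2 : exp (Complex.I • aA (αL r) M Y) * (1 + (r : ℂ) • star Y) - (1 + (r : ℂ) • Y) =
      cfc (fun z => Complex.exp (P z - star (P z)) * (1 + r * star z) - (1 + r * z)) Y := by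
    rw [cfc_sub .., cfc_mul .., cfc_const_add .., cfc_const_add .., cfc_const_mul ..,
      cfc_const_mul .., cfc_id' .., cfc_star_id .., cfc_comp' Complex.exp ..,
      CFC.complex_exp_eq_normedSpace_exp .., h1, map_one]
  rw [h2]
  exact norm_cfc_le (mul_nonneg (by norm_num) (mul_nonneg (by positivity)
    (inv_nonneg.2 (by linarith)))) fun z hz =>
      log_pt hr0 hr M hM (spectrum.norm_eq_one_of_unitary hY hz)

theorem exists_log {ε : ℝ} (hε : 0 < ε) : ∃ (α : ℕ → ℂ) (M : ℕ), ∀ (T : Tr A) (Y : A),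
    Y ∈ unitary A → (∀ k, T.τ (Y ^ (k + 1)) = 0) →
      ‖T.J (exp (Complex.I • aA α M Y) - Y)‖ ≤ ε := by
  obtain ⟨ρ, hρ0, hρ1, hρ⟩ : ∃ ρ : ℝ, 0 < ρ ∧ ρ < 1 ∧ 4 * ρ ≤ ε :=
    ⟨min (1 / 2) (ε / 4), by positivity, (min_le_left _ _).trans_lt (by norm_num),
      by linarith [min_le_right (1 / 2) (ε / 4)]⟩
  set r := 1 - ρ ^ 2 with hr
  have hr0 : 0 ≤ r := by nlinarith
  have hr1 : r < 1 := by nlinarith
  obtain ⟨M, hM⟩ := exists_pow_lt_of_lt_one (x := ρ ^ 4 / 8) (by positivity) hr1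
  have hM' : r ^ (M + 1) * (1 - r)⁻¹ ≤ ρ ^ 2 / 8 := by
    rw [hr, sub_sub_cancel, ← hr, ← div_eq_mul_inv, div_le_iff₀ (by positivity), pow_succ]
    nlinarith [pow_nonneg hr0 M]
  refine ⟨αL r, M, fun T Y hY h0 => ?_⟩
  have h1 := log_op hr0 hr1 M (by nlinarith) hY
  have hV := exp_I_unit (star_aA (αL r) M Y) 1
  rw [one_smul] at hV
  set V := exp (Complex.I • aA (αL r) M Y)
  set N := V * (1 + (r : ℂ) • star Y) - (1 + (r : ℂ) • Y) with hN
  set x : A := -((r : ℂ) • star Y) with hx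
  have hg := mul_neg_geom_sum x M
  have e1 : (V - Y) * (1 - x) = N - ((1 - r : ℝ) : ℂ) • (Y - 1) := by
    rw [hN, hx, sub_neg_eq_add, sub_mul, mul_add Y, mul_smul_comm, hY.2, mul_one]
    push_cast; module
  have e2 : V - Y = (V - Y) * x ^ M + (N - ((1 - r : ℝ) : ℂ) • (Y - 1)) * ∑ i ∈ range M, x ^ i := by
    rw [← e1, mul_assoc, hg, ← mul_add]; simp
  have hYn := Tr.norm_unit_le hY
  have hxi : ∀ i, x ^ i = (((-r) ^ i : ℝ) : ℂ) • star Y ^ i := fun i => by
    rw [hx, ← neg_smul, smul_pow]; push_cast; rfl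
  have hsY : ∀ i, star Y ^ i ∈ unitary A := fun i => pow_mem (Unitary.star_mem hY) i
  have hG : ‖T.J (∑ i ∈ range M, x ^ i)‖ ≤ 1 / ρ := by
    refine abs_le_of_sq_le_sq' ?_ (by positivity) |>.2
    simp_rw [hxi, map_sum, map_smul]
    have key : ∀ i d, ⟪T.J (star Y ^ i), T.J (star Y ^ (i + d + 1))⟫_ℂ = 0 := fun i d => by
      rw [T.inner_J, add_assoc, pow_add, ← mul_assoc, (hsY i).1, one_mul, ← star_pow, T.star, h0,
        map_zero]
    rw [norm_sum_orth (fun i => T.J (star Y ^ i)) (ρ := 1)]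
    · rw [one_pow, mul_one, div_pow, one_pow]
      have h2 : ∑ i ∈ range M, ((-r) ^ i) ^ 2 ≤ ∑ i ∈ range M, r ^ i :=
        Finset.sum_le_sum fun i _ => by
          rw [← pow_mul, mul_comm, pow_mul, neg_sq]
          gcongr; nlinarith
      refine h2.trans ?_
      have h3 := mul_neg_geom_sum r M
      rw [le_div_iff₀ (by positivity)]
      have : ρ ^ 2 = 1 - r := by rw [hr]; ring
      rw [this]; nlinarith [pow_nonneg hr0 M]
    · intro i j hij
      rcases lt_or_gt_of_ne hij with h | h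
      · obtain ⟨d, rfl⟩ := Nat.exists_eq_add_of_lt h; exact key _ _
      · obtain ⟨d, rfl⟩ := Nat.exists_eq_add_of_lt h
        rw [← inner_conj_symm, key, map_zero]
    · intro i
      rw [← mul_one (star Y ^ i), T.J_unit_mul (hsY i), T.norm_J_one]
  have h3 : ‖(V - Y) * x ^ M‖ ≤ ρ := by
    refine (norm_mul_le _ _).trans ?_
    have h4 : ‖V - Y‖ ≤ 2 := (norm_sub_le _ _).trans (by linarith [Tr.norm_unit_le hV])
    have h5 : ‖x ^ M‖ ≤ r ^ M := by
      rw [hxi, norm_smul, Complex.norm_real, norm_pow, norm_neg, Real.norm_of_nonneg hr0]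
      exact mul_le_of_le_one_right (by positivity) (Tr.norm_unit_le (hsY M))
    have h6 : ρ ^ 4 ≤ ρ := pow_le_of_le_one hρ0.le hρ1.le (by norm_num)
    calc _ ≤ 2 * r ^ M := by gcongr
      _ ≤ ρ := by linarith
  have h4 : ‖N - ((1 - r : ℝ) : ℂ) • (Y - 1)‖ ≤ 3 * ρ ^ 2 := by
    refine (norm_sub_le _ _).trans ?_
    have h5 : ‖Y - 1‖ ≤ 2 := (norm_sub_le _ _).trans
      (by linarith [Tr.norm_unit_le (one_mem (unitary A))])
    rw [norm_smul, Complex.norm_real, hr, sub_sub_cancel, Real.norm_of_nonneg (sq_nonneg _)]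
    nlinarith [sq_nonneg ρ]
  rw [e2, map_add]
  refine (norm_add_le _ _).trans ((add_le_add ((T.J_le _).trans h3) ((T.J_mul_le _ _).trans
    (mul_le_mul h4 hG (norm_nonneg _) (by positivity)))).trans ?_)
  have : 3 * ρ ^ 2 * (1 / ρ) = 3 * ρ := by field_simp
  linarith

end Crest.Agent.H1VN
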