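import Mathlib

/-! An approximate `ℓ²`-inverse with small norm for the Fox derivative of a long word. -/

set_option autoImplicit false

open Set Finset MonoidAlgebra

noncomputable section

namespace Crest.Agent.H1VN

variable {Γ : Type*} [Group Γ]

/-- squared `ℓ²`-norm of the coefficients -/
def nsq (z : MonoidAlgebra ℝ Γ) : ℝ := ∑' γ, (z.coeff γ) ^ 2

omit [Group Γ] in
lemma nsq_summable (z : MonoidAlgebra ℝ Γ) : Summable fun γ => (z.coeff γ) ^ 2 :=
  summable_of_ne_finset_zero (s := z.coeff.support) fun γ hγ => by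
    rw [Finsupp.notMem_support_iff.1 hγ]; simp

omit [Group Γ] in
lemma nsq_nonneg (z : MonoidAlgebra ℝ Γ) : 0 ≤ nsq z := tsum_nonneg fun _ => sq_nonneg _

lemma nsq_single_mul (v : Γ) (z : MonoidAlgebra ℝ Γ) : nsq (single v 1 * z) = nsq z := by
  simp only [nsq, coeff_single_mul_apply, one_mul]
  exact (Equiv.mulLeft v⁻¹).tsum_eq fun γ => (z.coeff γ) ^ 2

lemma nsq_smul (r : ℝ) (z : MonoidAlgebra ℝ Γ) : nsq (r • z) = r ^ 2 * nsq z := by
  simp only [nsq, coeff_smul_apply, smul_eq_mul, mul_pow, tsum_mul_left]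

lemma nsq_one : nsq (1 : MonoidAlgebra ℝ Γ) = 1 := by
  classical
  rw [nsq, tsum_eq_single 1]
  · simp
  · intro γ hγ; rw [one_def, coeff_single, Finsupp.single_apply, if_neg (Ne.symm hγ)]; simp

omit [Group Γ] in
lemma nsq_sum_disj (s : Finset ℕ) (z : ℕ → MonoidAlgebra ℝ Γ) (X : ℕ → Set Γ)
    (hX : ∀ i j, i ≠ j → Disjoint (X i) (X j)) (hz : ∀ i ∈ s, z i ∈ supported ℝ ℝ (X i)) :
    nsq (∑ i ∈ s, z i) = ∑ i ∈ s, nsq (z i) := by
  simp only [nsq]
  rw [← Summable.tsum_finsetSum fun i _ => nsq_summable (z i)]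
  refine tsum_congr fun γ => ?_
  rw [coeff_sum, Finsupp.finsetSum_apply, sq, Finset.sum_mul_sum]
  refine Finset.sum_congr rfl fun i hi => ?_
  rw [Finset.sum_eq_single i, sq]
  · intro j hj hij
    by_cases h : γ ∈ X i
    · rw [mem_supported'.1 (hz j hj) γ (Set.disjoint_left.1 (hX i j hij.symm) h), mul_zero]
    · rw [mem_supported'.1 (hz i hi) γ h, zero_mul]
  · exact fun h => (h hi).elim

lemma nsq_one_sub (z : MonoidAlgebra ℝ Γ) (hz : z.coeff 1 = 0) : nsq (1 - z) = 1 + nsq z := by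
  classical
  conv_rhs => rw [← nsq_one (Γ := Γ)]
  simp only [nsq]
  rw [← (nsq_summable _).tsum_add (nsq_summable _)]
  refine tsum_congr fun γ => ?_
  rw [coeff_sub, Finsupp.sub_apply]
  by_cases h : γ = 1
  · subst h; rw [hz]; ring
  · rw [one_def, coeff_single, Finsupp.single_apply, if_neg (Ne.symm h)]; ring

omit [Group Γ] in
lemma nsq_sum_le (s : Finset ℕ) (z : ℕ → MonoidAlgebra ℝ Γ) :
    nsq (∑ i ∈ s, z i) ≤ s.card * ∑ i ∈ s, nsq (z i) := by
  simp only [nsq]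
  rw [← Summable.tsum_finsetSum fun i _ => nsq_summable (z i), ← tsum_mul_left]
  refine (nsq_summable _).tsum_le_tsum (fun γ => ?_)
    ((summable_sum fun i _ => nsq_summable (z i)).mul_left _)
  rw [coeff_sum, Finsupp.finsetSum_apply]
  exact sq_sum_le_card_mul_sum_sq

lemma single_mul_supported {v : Γ} {z : MonoidAlgebra ℝ Γ} {X Y : Set Γ}
    (hz : z ∈ supported ℝ ℝ X) (h : ∀ γ ∈ X, v * γ ∈ Y) : single v 1 * z ∈ supported ℝ ℝ Y := by
  rw [mem_supported'] at hz ⊢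
  intro γ hγ
  rw [coeff_single_mul_apply, hz, mul_zero]
  intro h'
  exact hγ (by simpa using h _ h')

def far (i j : ℕ) : Prop := i + 2 ≤ j ∨ j + 2 ≤ i

instance (i j : ℕ) : Decidable (far i j) := inferInstanceAs (Decidable (_ ∨ _))

def mfar (N i : ℕ) : ℕ := ((range N).filter (far i)).card

lemma mfar_ge (M i : ℕ) : M ≤ mfar (M + 3) i := by
  have h : range (M + 3) ⊆ (range (M + 3)).filter (far i) ∪ {i - 1, i, i + 1} := by
    intro j hj
    simp only [Finset.mem_union, Finset.mem_filter, far, Finset.mem_insert, Finset.mem_singleton]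
    rw [Finset.mem_range] at *
    omega
  have h2 := (Finset.card_le_card h).trans (Finset.card_union_le _ _)
  have h3 : ({i - 1, i, i + 1} : Finset ℕ).card ≤ 3 := Finset.card_le_three
  rw [Finset.card_range] at h2
  unfold mfar; omega

section
variable (N : ℕ) (v : ℕ → Γ)

def bOf (a : ℕ → MonoidAlgebra ℝ Γ) (j : ℕ) : MonoidAlgebra ℝ Γ :=
  single (v j)⁻¹ 1 * (1 - ∑ i ∈ (range N).filter (far · j), ((mfar N i : ℝ)⁻¹) • a i)

def aSeq : ℕ → ℕ → MonoidAlgebra ℝ Γ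
  | 0 => fun _ => 0
  | r + 1 => fun i => single (v i) 1 * ∑ j ∈ (range N).erase i, bOf N v (aSeq r) j

lemma aSeq_succ (r i : ℕ) : aSeq N v (r + 1) i =
    single (v i) 1 * ∑ j ∈ (range N).erase i, bOf N v (aSeq N v r) j := rfl

lemma S_mul (hN : ∀ i, 0 < mfar N i) (r : ℕ) :
    (∑ i ∈ range N, single (v i) (1 : ℝ)) * ∑ j ∈ range N, bOf N v (aSeq N v r) j =
      (N : ℝ) • 1 + (∑ i ∈ range N, aSeq N v (r + 1) i - ∑ i ∈ range N, aSeq N v r i) := by
  rw [Finset.sum_mul]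
  have e1 : ∀ i ∈ range N, single (v i) (1 : ℝ) * ∑ j ∈ range N, bOf N v (aSeq N v r) j =
      (1 - ∑ k ∈ (range N).filter (far · i), ((mfar N k : ℝ)⁻¹) • aSeq N v r k) +
        aSeq N v (r + 1) i := by
    intro i hi
    rw [← Finset.add_sum_erase _ _ hi, mul_add, bOf, ← mul_assoc, single_mul_single]
    simp [aSeq, ← one_def]
  rw [Finset.sum_congr rfl e1, Finset.sum_add_distrib, Finset.sum_sub_distrib]
  have e2 : ∑ i ∈ range N, ∑ k ∈ (range N).filter (far · i), ((mfar N k : ℝ)⁻¹) • aSeq N v r k =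
      ∑ k ∈ range N, aSeq N v r k := by
    rw [Finset.sum_comm' (t' := range N) (s' := fun k => (range N).filter (far k))
      (by simp only [Finset.mem_filter]; tauto)]
    refine Finset.sum_congr rfl fun k _ => ?_
    rw [Finset.sum_const, ← Nat.cast_smul_eq_nsmul ℝ, smul_smul]
    change ((mfar N k : ℝ) * _) • _ = _
    rw [mul_inv_cancel₀ (by exact_mod_cast (hN k).ne'), one_smul]
  rw [e2, Finset.sum_const, Finset.card_range, Nat.cast_smul_eq_nsmul]; abel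

variable {𝒜 ℬ : ℕ → Set Γ}

structure PP (v : ℕ → Γ) (𝒜 ℬ : ℕ → Set Γ) : Prop where
  dA : ∀ i j, i ≠ j → Disjoint (𝒜 i) (𝒜 j)
  oA : ∀ i, 1 ∉ 𝒜 i
  dB : ∀ i j, i ≠ j → Disjoint (ℬ i) (ℬ j)
  oB : ∀ j, (v j)⁻¹ ∈ ℬ j
  AB : ∀ i j, far i j → ∀ γ ∈ 𝒜 i, (v j)⁻¹ * γ ∈ ℬ j
  BA : ∀ i j, i ≠ j → ∀ γ ∈ ℬ j, v i * γ ∈ 𝒜 i

variable {v}

lemma bOf_supp (H : PP v 𝒜 ℬ) {a : ℕ → MonoidAlgebra ℝ Γ} (ha : ∀ i, a i ∈ supported ℝ ℝ (𝒜 i))
    (j : ℕ) : bOf N v a j ∈ supported ℝ ℝ (ℬ j) := by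
  rw [bOf, mul_sub, Finset.mul_sum]
  refine sub_mem ?_ (sum_mem fun i hi => ?_)
  · rw [mul_one, mem_supported, coeff_single, Finsupp.support_single _ one_ne_zero]
    simpa using H.oB j
  · exact single_mul_supported (Submodule.smul_mem _ _ (ha i))
      (H.AB i j (Finset.mem_filter.1 hi).2)

lemma aSeq_supp (H : PP v 𝒜 ℬ) (r : ℕ) : ∀ i, aSeq N v r i ∈ supported ℝ ℝ (𝒜 i) := by
  induction r with
  | zero => exact fun i => zero_mem _
  | succ r ih =>
    intro i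
    rw [aSeq_succ, Finset.mul_sum]
    exact sum_mem fun j hj => single_mul_supported (bOf_supp N H ih j)
      (H.BA i j (Finset.ne_of_mem_erase hj).symm)

lemma nsq_bOf (H : PP v 𝒜 ℬ) {M : ℕ} (hM : 0 < M) {a : ℕ → MonoidAlgebra ℝ Γ}
    (ha : ∀ i, a i ∈ supported ℝ ℝ (𝒜 i)) {α : ℝ} (hα : ∀ i, nsq (a i) ≤ α) (j : ℕ) :
    nsq (bOf (M + 3) v a j) ≤ 1 + (M + 3) * (α / M ^ 2) := by
  have hα0 : 0 ≤ α := (nsq_nonneg _).trans (hα 0)
  rw [bOf, nsq_single_mul, nsq_one_sub, nsq_sum_disj _ _ 𝒜 H.dA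
    fun i _ => Submodule.smul_mem _ _ (ha i)]
  · gcongr
    refine (Finset.sum_le_card_nsmul _ _ (α / M ^ 2) fun i _ => ?_).trans ?_
    · rw [nsq_smul, inv_pow, ← div_eq_inv_mul]
      have : (M : ℝ) ≤ mfar (M + 3) i := by exact_mod_cast mfar_ge M i
      gcongr
      exact hα i
    · rw [nsmul_eq_mul]
      gcongr
      exact_mod_cast (Finset.card_filter_le _ _).trans (Finset.card_range _).le
  · rw [coeff_sum, Finsupp.finsetSum_apply]
    exact Finset.sum_eq_zero fun i _ => by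
      rw [coeff_smul_apply, mem_supported'.1 (ha i) 1 (H.oA i), smul_zero]

lemma nsq_aSeq (H : PP v 𝒜 ℬ) {M L : ℕ} (hL : 0 < L) (hM : 18 * L ≤ M) (r : ℕ) (hr : r ≤ L) :
    ∀ i, nsq (aSeq (M + 3) v r i) ≤ 2 * r * (M + 3) := by
  induction r with
  | zero => intro i; simp [aSeq, nsq]
  | succ r ih =>
    intro i
    have hM0 : 0 < M := by omega
    have h := nsq_bOf H hM0 (aSeq_supp (M + 3) H r) (ih (by omega))
    rw [aSeq_succ, nsq_single_mul, nsq_sum_disj _ _ ℬ H.dB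
      fun j _ => bOf_supp _ H (aSeq_supp _ H r) j]
    refine (Finset.sum_le_card_nsmul _ _ _ fun j _ => h j).trans ?_
    have hc : ((((range (M + 3)).erase i).card : ℕ) : ℝ) ≤ M + 3 := by
      exact_mod_cast (Finset.card_erase_le).trans (Finset.card_range _).le
    rw [nsmul_eq_mul]
    refine (mul_le_mul_of_nonneg_right hc (by positivity)).trans ?_
    have hM' : (18 * (r + 1) : ℝ) ≤ M := by exact_mod_cast (by omega : 18 * (r + 1) ≤ M)
    have hr0 : (0 : ℝ) ≤ r := by positivity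
    have : (M + 3 : ℝ) * (2 * r * (M + 3) / M ^ 2) ≤ 2 * r + 1 := by
      rw [← mul_div_assoc, div_le_iff₀ (by positivity)]
      nlinarith [mul_nonneg hr0 hr0, mul_le_mul_of_nonneg_left hM' hr0,
        mul_le_mul_of_nonneg_left hM' (by positivity : (0 : ℝ) ≤ M)]
    push_cast
    nlinarith

theorem tree_abs (H : PP v 𝒜 ℬ) {δ : ℝ} (hδ : 0 < δ) :
    ∃ (N : ℕ) (c : MonoidAlgebra ℝ Γ), nsq c ≤ δ ∧
      nsq ((∑ i ∈ range N, single (v i) (1 : ℝ)) * c - 1) ≤ δ := by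
  obtain ⟨L, hL⟩ := exists_nat_gt (2 / δ)
  have hL0 : (0 : ℝ) < L := lt_trans (by positivity) hL
  obtain ⟨M, hM⟩ := exists_nat_gt (max (18 * L : ℝ) ((1 + 8 * L) / δ))
  rw [max_lt_iff] at hM
  have hLn : 0 < L := by exact_mod_cast hL0
  have hM1 : 18 * L ≤ M := by exact_mod_cast hM.1.le
  have hM0 : 0 < M := by omega
  have hL1 : (1 : ℝ) ≤ L := by exact_mod_cast hLn
  have hM0' : (0 : ℝ) < M := by exact_mod_cast hM0
  refine ⟨M + 3, ((M + 3 : ℝ) * L)⁻¹ • ∑ r ∈ range L, ∑ j ∈ range (M + 3),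
    bOf (M + 3) v (aSeq (M + 3) v r) j, ?_, ?_⟩
  · rw [nsq_smul]
    have h1 : ∀ r ∈ range L, nsq (∑ j ∈ range (M + 3), bOf (M + 3) v (aSeq (M + 3) v r) j) ≤
        (M + 3) * (1 + 8 * L) := by
      intro r hr
      have hr' := (Finset.mem_range.1 hr).le
      rw [nsq_sum_disj _ _ ℬ H.dB fun j _ => bOf_supp _ H (aSeq_supp _ H r) j]
      refine (Finset.sum_le_card_nsmul _ _ _ fun j _ =>
        nsq_bOf H hM0 (aSeq_supp (M + 3) H r) (nsq_aSeq H hLn hM1 r hr') j).trans ?_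
      rw [Finset.card_range, nsmul_eq_mul]
      push_cast
      refine mul_le_mul_of_nonneg_left (add_le_add le_rfl ?_) (by positivity)
      rw [← mul_div_assoc, div_le_iff₀ (by positivity)]
      have : (r : ℝ) ≤ L := by exact_mod_cast hr'
      have h3 : (M + 3 : ℝ) ≤ 2 * M := by linarith [hM.1]
      calc (M + 3 : ℝ) * (2 * r * (M + 3)) ≤ (2 * M) * (2 * L * (2 * M)) := by gcongr
        _ = _ := by ring
    refine (mul_le_mul_of_nonneg_left ((nsq_sum_le _ _).trans (mul_le_mul_of_nonneg_left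
      (Finset.sum_le_card_nsmul _ _ _ h1) (by positivity))) (by positivity)).trans ?_
    rw [Finset.card_range, nsmul_eq_mul]
    have h2 := hM.2
    rw [div_lt_iff₀ hδ] at h2
    calc _ = (1 + 8 * L) / (M + 3 : ℝ) := by field_simp
      _ ≤ δ := by rw [div_le_iff₀ (by positivity)]; nlinarith
  · have hN : ∀ i, 0 < mfar (M + 3) i := fun i => hM0.trans_le (mfar_ge M i)
    rw [mul_smul_comm, Finset.mul_sum]
    simp_rw [S_mul _ _ hN]
    rw [Finset.sum_add_distrib, Finset.sum_range_sub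
      (fun r => ∑ i ∈ range (M + 3), aSeq (M + 3) v r i), Finset.sum_const, Finset.card_range,
      ← Nat.cast_smul_eq_nsmul ℝ, smul_add, smul_smul, smul_smul]
    have e : ((M + 3 : ℝ) * L)⁻¹ * L * ((M + 3 : ℕ) : ℝ) = 1 := by push_cast; field_simp
    rw [e, one_smul, add_sub_cancel_left, nsq_smul]
    simp only [aSeq, Finset.sum_const_zero, sub_zero]
    rw [nsq_sum_disj _ _ 𝒜 H.dA fun i _ => aSeq_supp _ H L i]
    refine (mul_le_mul_of_nonneg_left (Finset.sum_le_card_nsmul _ _ _ fun i _ =>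
      nsq_aSeq H hLn hM1 L le_rfl i) (by positivity)).trans ?_
    rw [Finset.card_range, nsmul_eq_mul]
    rw [div_lt_iff₀ hδ] at hL
    calc _ = 2 / (L : ℝ) := by push_cast; field_simp
      _ ≤ δ := by rw [div_le_iff₀ (by positivity)]; nlinarith

end

/-! ### Ping-pong -/

abbrev Om := ℤ × ℕ × Bool

lemma exists_pp : ∃ h : Equiv.Perm Om, ∀ t : Om,
    ¬ (t.1 = 0 ∧ t.2.2 = false) ↔ ((h t).1 = 0 ∧ (h t).2.2 = true) := by
  classical
  have i1 : ∀ b : Bool, Infinite {t : Om // t.1 = 0 ∧ t.2.2 = b} := fun b =>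
    Infinite.of_injective (fun n : ℕ => ⟨(0, n, b), rfl, rfl⟩) fun m n h => by simpa using h
  have i2 : ∀ b : Bool, Infinite {t : Om // ¬ (t.1 = 0 ∧ t.2.2 = b)} := fun b =>
    Infinite.of_injective (fun n : ℕ => ⟨(1, n, b), by simp⟩) fun m n h => by simpa using h
  obtain ⟨e1⟩ : Nonempty ({t : Om // t.1 = 0 ∧ t.2.2 = false} ≃
    {t : Om // ¬ (t.1 = 0 ∧ t.2.2 = true)}) := nonempty_equiv_of_countable
  obtain ⟨e2⟩ : Nonempty ({t : Om // ¬ (t.1 = 0 ∧ t.2.2 = false)} ≃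
    {t : Om // t.1 = 0 ∧ t.2.2 = true}) := nonempty_equiv_of_countable
  refine ⟨(Equiv.sumCompl fun t : Om => t.1 = 0 ∧ t.2.2 = false).symm.trans
    ((e1.sumCongr e2).trans ((Equiv.sumComm _ _).trans
      (Equiv.sumCompl fun t : Om => t.1 = 0 ∧ t.2.2 = true))), fun t => ?_⟩
  by_cases ht : t.1 = 0 ∧ t.2.2 = false
  · rw [Equiv.trans_apply, Equiv.sumCompl_symm_apply_of_pos (p := fun t : Om => t.1 = 0 ∧ t.2.2 = false) ht]
    simpa [ht] using (e1 ⟨t, ht⟩).2
  · rw [Equiv.trans_apply, Equiv.sumCompl_symm_apply_of_neg (p := fun t : Om => t.1 = 0 ∧ t.2.2 = false) ht]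
    simpa [ht] using (e2 ⟨t, ht⟩).2

def shift : Equiv.Perm Om := Equiv.prodCongr (Equiv.addRight 1) (Equiv.refl _)

lemma shift_pow (k : ℕ) (t : Om) : (shift ^ k) t = (t.1 + k, t.2) := by
  induction k with
  | zero => simp
  | succ k ih => rw [pow_succ', Equiv.Perm.mul_apply, ih]; simp [shift, add_assoc]

lemma shift_pow_inv (k : ℕ) (t : Om) : (shift ^ k)⁻¹ t = (t.1 - k, t.2) := by
  rw [Equiv.Perm.inv_eq_iff_eq, shift_pow]; simp

lemma pia (f : Equiv.Perm Om) (t : Om) : f⁻¹ (f t) = t := f.symm_apply_apply t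
lemma pai (f : Equiv.Perm Om) (t : Om) : f (f⁻¹ t) = t := f.apply_symm_apply t

/-- the prefixes of the long word -/
def vW {G : Type*} [Group G] (h g : G) : ℕ → G
  | 0 => 1
  | i + 1 => vW h g i * h * g ^ (i + 2)

lemma map_vW {G G' : Type*} [Group G] [Group G'] (f : G →* G') (h g : G) (i : ℕ) :
    f (vW h g i) = vW (f h) (f g) i := by
  induction i with
  | zero => simp [vW]
  | succ i ih => simp [vW, ih]

section
variable {h : Equiv.Perm Om}
  (H : ∀ t : Om, ¬ (t.1 = 0 ∧ t.2.2 = false) ↔ ((h t).1 = 0 ∧ (h t).2.2 = true))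

def XP (h : Equiv.Perm Om) (j : ℕ) (t : Om) : Prop := (h⁻¹ t).1 = j + 2 ∧ (h⁻¹ t).2.2 = true
def XQ (j : ℕ) (t : Om) : Prop := t.1 = -(j + 1) ∧ t.2.2 = false
def XX (h : Equiv.Perm Om) (j : ℕ) (t : Om) : Prop := XP h j t ∨ XQ j t
def YY (h : Equiv.Perm Om) (i : ℕ) (t : Om) : Prop := ∃ j, j ≠ i ∧ XX h j t
def HP (t : Om) : Prop := t.1 = 0 ∧ t.2.2 = true

include H

lemma XP_HP {j : ℕ} {t : Om} (ht : XP h j t) : HP t := by
  have := (H (h⁻¹ t)).1 (by rw [ht.2]; simp)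
  simpa [HP] using this

lemma XX_disj {i j : ℕ} {t : Om} (hi : XX h i t) (hj : XX h j t) : i = j := by
  rcases hi with hi | hi <;> rcases hj with hj | hj
  · have := hi.1.symm.trans hj.1; omega
  · have := (XP_HP H hi).2.symm.trans hj.2; simp at this
  · have := (XP_HP H hj).2.symm.trans hi.2; simp at this
  · have := hi.1.symm.trans hj.1; omega

lemma fwd2 (i : ℕ) {t : Om} (ht : HP t) : XP h i ((h * shift ^ (i + 2)) t) := by
  simp [XP, shift_pow, ht.1, ht.2]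

lemma fwd1 (i : ℕ) {t : Om} (ht : YY h (i + 1) t) :
    HP ((h * shift ^ (i + 2)) t) ∧ ¬ YY h i ((h * shift ^ (i + 2)) t) := by
  obtain ⟨j, hj, ht⟩ := ht
  have h1 : HP ((h * shift ^ (i + 2)) t) := by
    refine (H _).1 ?_
    rw [shift_pow]
    rcases ht with ht | ht
    · simp [(XP_HP H ht).2]
    · simp only [ht.1, not_and]; intro h; exfalso; push_cast at h; omega
  refine ⟨h1, ?_⟩
  rintro ⟨k, hk, hk' | hk'⟩
  · simp only [XP, Equiv.Perm.mul_apply, pia, shift_pow] at hk'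
    rcases ht with ht | ht
    · have := hk'.1; rw [(XP_HP H ht).1] at this; push_cast at this; omega
    · have := hk'.2.symm.trans ht.2; simp at this
  · have := h1.2.symm.trans hk'.2; simp at this

lemma bwd2 (i : ℕ) {t : Om} (ht : ¬ HP t) : XQ (i + 1) ((h * shift ^ (i + 2))⁻¹ t) := by
  have := (H (h⁻¹ t)).not_right.2 (by simpa [HP] using ht)
  rw [mul_inv_rev, Equiv.Perm.mul_apply, shift_pow_inv]
  refine ⟨?_, this.2⟩
  simp only [this.1]; push_cast; ring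

lemma XQ_nHP {j : ℕ} {t : Om} (ht : XQ j t) : ¬ HP t := fun h' => by
  have := h'.2.symm.trans ht.2; simp at this

lemma bwd1 (i : ℕ) {t : Om} (ht : YY h i t) : ¬ HP ((h * shift ^ (i + 2))⁻¹ t) := by
  obtain ⟨j, hj, ht | ht⟩ := ht
  · rw [mul_inv_rev, Equiv.Perm.mul_apply, shift_pow_inv]
    intro h'
    have := h'.1
    simp only [ht.1] at this; push_cast at this; omega
  · exact XQ_nHP H (bwd2 H i (XQ_nHP H ht))

lemma fwd (i d : ℕ) {t : Om} (ht : YY h (i + d + 1) t) :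
    HP ((vW h shift i)⁻¹ (vW h shift (i + d + 1) t)) ∧
      ¬ YY h i ((vW h shift i)⁻¹ (vW h shift (i + d + 1) t)) ∧
      (0 < d → XP h i ((vW h shift i)⁻¹ (vW h shift (i + d + 1) t))) := by
  induction d generalizing i with
  | zero => simpa [vW, mul_assoc] using fwd1 H i ht
  | succ d ih =>
    have e : i + (d + 1) + 1 = i + 1 + d + 1 := by ring
    rw [e] at ht ⊢
    have h1 := fwd2 H i (ih (i + 1) ht).1
    have e2 : (h * shift ^ (i + 2)) ((vW h shift (i + 1))⁻¹ (vW h shift (i + 1 + d + 1) t)) =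
        (vW h shift i)⁻¹ (vW h shift (i + 1 + d + 1) t) := by
      rw [vW, mul_assoc, mul_inv_rev, Equiv.Perm.mul_apply _ (vW h shift i)⁻¹,
        pai]
    rw [e2] at h1
    exact ⟨XP_HP H h1, fun ⟨j, hj, hj'⟩ => hj (XX_disj H hj' (Or.inl h1)), fun _ => h1⟩

lemma bwd (i d : ℕ) {t : Om} (ht : ¬ HP ((vW h shift i)⁻¹ t)) :
    XQ (i + d + 1) ((vW h shift (i + d + 1))⁻¹ t) := by
  induction d with
  | zero => simpa [vW, mul_assoc] using bwd2 H i ht
  | succ d ih =>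
    have := bwd2 H (i + d + 1) (XQ_nHP H ih)
    rw [← add_assoc, vW, mul_assoc, mul_inv_rev, Equiv.Perm.mul_apply]
    exact this

lemma om_XX (j : ℕ) : XX h j ((vW h shift j)⁻¹ (-1, 0, false)) := by
  rcases j with _ | j
  · right; simp [vW, XQ]
  · right; simpa using bwd H 0 j (t := (-1, 0, false)) (by simp [vW, HP])

end

theorem tree {δ : ℝ} (hδ : 0 < δ) :
    ∃ (N : ℕ) (c : MonoidAlgebra ℝ (FreeGroup Bool)), nsq c ≤ δ ∧
      nsq ((∑ i ∈ range N, single (vW (FreeGroup.of true) (FreeGroup.of false) i) (1 : ℝ)) * c - 1)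
        ≤ δ := by
  obtain ⟨h, H⟩ := exists_pp
  let φ : FreeGroup Bool →* Equiv.Perm Om := FreeGroup.lift fun b => bif b then h else shift
  have hφ : ∀ i, φ (vW (FreeGroup.of true) (FreeGroup.of false) i) = vW h shift i := fun i => by
    rw [map_vW]; simp [φ]
  refine tree_abs (𝒜 := fun i => {γ | YY h i ((vW h shift i)⁻¹ (φ γ (-1, 0, false)))})
    (ℬ := fun j => {γ | XX h j (φ γ (-1, 0, false))}) ⟨?_, ?_, ?_, ?_, ?_, ?_⟩ hδ
  · have key : ∀ i j, i < j → Disjoint {γ | YY h i ((vW h shift i)⁻¹ (φ γ (-1, 0, false)))}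
        {γ | YY h j ((vW h shift j)⁻¹ (φ γ (-1, 0, false)))} := by
      intro i j hij
      obtain ⟨d, rfl⟩ := Nat.exists_eq_add_of_lt hij
      refine Set.disjoint_left.2 fun γ h1 h2 => (fwd H i d h2).2.1 ?_
      simpa using h1
    intro i j hij
    rcases lt_or_gt_of_ne hij with h1 | h1
    · exact key i j h1
    · exact (key j i h1).symm
  · rintro i ⟨j, hj, hj'⟩
    exact hj (XX_disj H (by simpa using hj') (om_XX H i))
  · exact fun i j hij => Set.disjoint_left.2 fun γ h1 h2 => hij (XX_disj H h1 h2)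
  · intro j
    simpa [hφ] using om_XX H j
  · rintro i j (hij | hij) γ hγ
    · obtain ⟨d, rfl⟩ : ∃ d, j = i + 1 + d + 1 := ⟨j - i - 2, by omega⟩
      have := bwd H (i + 1) d (t := φ γ (-1, 0, false)) (by
        have := bwd1 H i hγ
        rwa [vW, mul_assoc, mul_inv_rev, Equiv.Perm.mul_apply])
      simp only [Set.mem_setOf_eq, map_mul, map_inv, hφ, Equiv.Perm.mul_apply]
      exact Or.inr this
    · obtain ⟨d, rfl⟩ : ∃ d, i = j + (d + 1) + 1 := ⟨i - j - 2, by omega⟩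
      have := (fwd H j (d + 1) hγ).2.2 (by omega)
      simp only [Set.mem_setOf_eq, map_mul, map_inv, hφ, Equiv.Perm.mul_apply]
      exact Or.inl (by simpa using this)
  · intro i j hij γ hγ
    simp only [Set.mem_setOf_eq, map_mul, hφ, Equiv.Perm.mul_apply, pia]
    exact ⟨j, hij.symm, hγ⟩

end Crest.Agent.H1VN
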