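import Crest.Agent.H1VN.Flow2
import Crest.Agent.H1VN.Log
import Crest.Agent.H1VN.Tree

/-! The time-one flow and the core perturbation theorem. -/

set_option autoImplicit false

open Set MonoidAlgebra NormedSpace
open scoped InnerProductSpace ComplexConjugate

noncomputable section

namespace Crest.Agent.H1VN

variable {ι : Type*} [DecidableEq ι] {A : Type*} [CStarAlgebra A]

theorem flow (T : Tr A) (h : ι) (Z : GA ι) (hZ0 : ∀ w, (D h Z w).coeff 1 = 0)
    (hZs : ∀ U : ι → A, Un U → star (pi U Z) = pi U Z) (W : FreeGroup ι) (a E : GA ι)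
    (hW : D h Z W = (a + E) * sg W)
    (ha : ∀ U : ι → A, Un U → ∀ u ∈ unitary A, pi (Function.update U h u) a = pi U a)
    (has : ∀ U : ι → A, Un U → star (pi U a) = pi U a) {δ ε : ℝ}
    (hδ : ∀ U : ι → A, Un U → Free T U → ‖T.J (pi U Z)‖ ≤ δ)
    (hε : ∀ U : ι → A, Un U → Free T U → ‖T.J (pi U E)‖ ≤ ε) (U : ι → A) (hU : Un U)
    (hF : Free T U) : ∃ u ∈ unitary A, Free T (Function.update U h u) ∧ ‖T.J (u - U h)‖ ≤ δ ∧
      ‖T.J (ev (Function.update U h u) W - exp (Complex.I • pi U a) * ev U W)‖ ≤ ε ∧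
      ∀ B : StarSubalgebra ℂ A, IsClosed (B : Set A) → (∀ i, i ≠ h → U i ∈ B) →
        (U h ∈ B ↔ u ∈ B) := by
  let +nondep : NormedAlgebra ℚ A := .restrictScalars ℚ ℂ A
  let P : ℝ → Prop := fun s => ∀ U : ι → A, Un U → Free T U →
    ∃ u ∈ unitary A, Free T (Function.update U h u) ∧ ‖T.J (u - U h)‖ ≤ δ * s ∧
      ‖T.J (ev (Function.update U h u) W - exp (s • Complex.I • pi U a) * ev U W)‖ ≤ ε * s ∧
      ∀ B : StarSubalgebra ℂ A, IsClosed (B : Set A) → (∀ i, i ≠ h → U i ∈ B) →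
        (U h ∈ B ↔ u ∈ B)
  have hexp : ∀ (X : A) (s t : ℝ), exp ((s + t) • X) = exp (s • X) * exp (t • X) := fun X s t => by
    rw [add_smul, exp_add_of_commute (((Commute.refl X).smul_left s).smul_right t)]
  have P0 : P 0 := fun U hU hF => ⟨U h, hU h, by simpa using hF, by simp, by simp, by simp⟩
  have Padd : ∀ s t, P s → P t → P (s + t) := by
    intro s t hs ht U hU hF
    obtain ⟨u, hu, hF1, h1, h2, h3⟩ := hs U hU hF
    obtain ⟨v, hv, hF2, h4, h5, h6⟩ := ht _ (hU.update h hu) hF1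
    simp only [Function.update_idem, Function.update_self, ha U hU u hu] at hF2 h4 h5 h6
    refine ⟨v, hv, hF2, ?_, ?_, fun B hB hUB => (h3 B hB hUB).trans (h6 B hB fun i hi => ?_)⟩
    · rw [← sub_add_sub_cancel v u, map_add, mul_add, add_comm]
      exact (norm_add_le _ _).trans (add_le_add h1 h4)
    · rw [add_comm s, hexp, ← sub_add_sub_cancel _ (exp (t • Complex.I • pi U a) *
        ev (Function.update U h u) W), map_add, mul_add, mul_assoc, ← mul_sub]
      refine (norm_add_le _ _).trans (add_le_add h5 ?_)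
      rwa [T.J_unit_mul (exp_I_unit (has U hU) t)]
    · rw [Function.update_of_ne hi]; exact hUB i hi
  obtain ⟨s₀, hs₀, H⟩ := step T h Z hZ0 hZs
  have Ps : ∀ s, 0 ≤ s → s ≤ s₀ → P s := by
    intro s hs0 hs U hU hF
    obtain ⟨u, hu0, hu, hB⟩ := H s hs0 hs U hU hF
    have hs' : s ∈ Icc 0 s := ⟨hs0, le_rfl⟩
    refine ⟨u s, (hu s hs').1, (hu s hs').2.1, ?_, ?_, fun B h1 h2 => hu0 ▸ hB B h1 h2⟩
    · have := norm_image_sub_le_of_norm_deriv_le_segment' (C := δ)
        (fun t ht => (T.J.restrictScalars ℝ).hasFDerivAt.comp_hasDerivWithinAt t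
          ((hu t ht).2.2 (.of h))) (fun t ht => ?_) s hs'
      · simpa [hu0] using this
      · have ht' := hu t (Ico_subset_Icc_self ht)
        have hV := hU.update h ht'.1
        rw [ContinuousLinearMap.coe_restrictScalars', map_smul, norm_smul, Complex.norm_I, one_mul,
          D_of, if_pos rfl, pi_mul hV, pi_sg, T.J_mul_unit (ev_mem hV _)]
        exact hδ _ hV ht'.2.1
    · set X := Complex.I • pi U a with hX
      have := norm_image_sub_le_of_norm_deriv_le_segment' (C := ε)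
        (fun t ht => (T.J.restrictScalars ℝ).hasFDerivAt.comp_hasDerivWithinAt t
          ((hasDerivAt_exp_smul_const (-X) t).hasDerivWithinAt.mul ((hu t ht).2.2 W)))
          (fun t ht => ?_) s hs'
      · simp only [Function.comp, ContinuousLinearMap.coe_restrictScalars', Pi.mul_apply, zero_smul,
          exp_zero, one_mul, hu0, Function.update_eq_self, sub_zero, ← map_sub] at this
        rw [← T.J_unit_mul (exp_I_unit (has U hU) s), mul_sub, ← mul_assoc, smul_neg, ← neg_smul,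
          ← hX, ← hexp, add_neg_cancel, zero_smul, exp_zero, one_mul] at this
        exact this
      · have ht' := hu t (Ico_subset_Icc_self ht)
        have hV := hU.update h ht'.1
        have e : exp (t • -X) * -X * ev (Function.update U h (u t)) W + exp (t • -X) *
            Complex.I • pi (Function.update U h (u t)) (D h Z W) = Complex.I • (exp (t • -X) *
              (pi (Function.update U h (u t)) E * ev (Function.update U h (u t)) W)) := by
          rw [hW, pi_mul hV, map_add, ha U hU _ ht'.1, pi_sg, hX]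
          simp only [mul_assoc, add_mul, smul_add, mul_add, neg_mul, mul_neg, smul_mul_assoc,
            mul_smul_comm]
          abel
        rw [ContinuousLinearMap.coe_restrictScalars', e, map_smul, norm_smul, Complex.norm_I,
          one_mul, smul_neg, ← neg_smul, T.J_unit_mul (exp_I_unit (has U hU) _),
          T.J_mul_unit (ev_mem hV _)]
        exact hε _ hV ht'.2.1
  obtain ⟨n, hn⟩ := exists_nat_one_div_lt hs₀
  have Pn : ∀ k : ℕ, P (k * (1 / (n + 1))) := by
    intro k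
    induction k with
    | zero => simpa using P0
    | succ k ih =>
      have := Padd _ _ ih (Ps _ (by positivity) hn.le)
      rwa [← add_one_mul, ← Nat.cast_succ] at this
  have := Pn (n + 1) U hU hF
  rw [Nat.cast_succ, mul_one_div_cancel (by positivity)] at this
  simpa using this

/-! ### conjugation averages -/

variable {Γ : Type*} [Group Γ] (j : Γ →* FreeGroup ι)

def Ad (a : GA ι) : MonoidAlgebra ℝ Γ →ₗ[ℝ] GA ι :=
  (Finsupp.linearCombination ℝ fun γ => sg (j γ) * a * sg (j γ)⁻¹).comp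
    (coeffLinearEquiv ℝ).toLinearMap

omit [DecidableEq ι] in
lemma Ad_single (a : GA ι) (γ : Γ) (r : ℝ) :
    Ad j a (single γ r) = r • (sg (j γ) * a * sg (j γ)⁻¹) := by simp [Ad]

omit [DecidableEq ι] in
lemma Ad_mul (a : GA ι) (v : Γ) (c : MonoidAlgebra ℝ Γ) :
    Ad j a (single v 1 * c) = sg (j v) * Ad j a c * sg (j v)⁻¹ := by
  induction c using MonoidAlgebra.induction_linear with
  | zero => simp
  | add a b ha hb => simp [mul_add, add_mul, ha, hb]
  | single γ r =>
    rw [single_mul_single, Ad_single, Ad_single, map_mul, mul_inv_rev, sg_mul, sg_mul]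
    simp only [mul_assoc, one_mul, mul_smul_comm, smul_mul_assoc]

omit [DecidableEq ι] in
lemma Ad_supp {y : ι} {a : GA ι} (ha : a ∈ supported ℂ ℂ (CJ y)) (c : MonoidAlgebra ℝ Γ) :
    Ad j a c ∈ supported ℂ ℂ (CJ y) := by
  induction c using MonoidAlgebra.induction_linear with
  | zero => simp
  | add a b ha hb => rw [map_add]; exact add_mem ha hb
  | single γ r => rw [Ad_single]; exact Submodule.smul_of_tower_mem _ _ (conj_supp ha _)

lemma pi_Ad {U : ι → A} (hU : Un U) (a : GA ι) (c : MonoidAlgebra ℝ Γ) :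
    pi U (Ad j a c) = ∑ γ ∈ c.coeff.support,
      (c.coeff γ : ℂ) • (ev U (j γ) * pi U a * star (ev U (j γ))) := by
  conv_lhs => rw [← sum_coeff_single c, Finsupp.sum, map_sum, map_sum]
  refine Finset.sum_congr rfl fun γ _ => ?_
  rw [Ad_single, ← Complex.coe_smul, map_smul, pi_mul hU, pi_mul hU, pi_sg, pi_sg, ev_inv hU]

lemma norm_Ad {T : Tr A} {U : ι → A} (hU : Un U) (hF : Free T U) {a : GA ι}
    (has : star (pi U a) = pi U a)
    (ho : ∀ γ γ', γ ≠ γ' → (sg (j γ) * a * sg (j γ)⁻¹ * (sg (j γ') * a * sg (j γ')⁻¹)).coeff 1 = 0)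
    (c : MonoidAlgebra ℝ Γ) : ‖T.J (pi U (Ad j a c))‖ ^ 2 = nsq c * ‖T.J (pi U a)‖ ^ 2 := by
  rw [pi_Ad j hU, map_sum]
  simp_rw [map_smul]
  rw [norm_sum_orth (fun γ => T.J (ev U (j γ) * pi U a * star (ev U (j γ)))) (ρ := ‖T.J (pi U a)‖),
    nsq, tsum_eq_sum (s := c.coeff.support)]
  · intro γ hγ; rw [Finsupp.notMem_support_iff.1 hγ]; simp
  · intro γ γ' hγ
    rw [T.inner_J, ← ho γ γ' hγ, ← hF.τ_pi]
    simp [pi_mul hU, pi_sg, ev_inv hU, has, mul_assoc]
  · intro γ
    rw [T.J_mul_unit (Unitary.star_mem (ev_mem hU _)), T.J_unit_mul (ev_mem hU _)]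

/-- the embedding of the free group on `h, g` -/
def jj (h g : ι) : FreeGroup Bool →* FreeGroup ι :=
  FreeGroup.lift fun b => bif b then .of h else .of g

lemma conj_ne {h g y : ι} (hhg : g ≠ h) (hh : y ≠ h) (hg : y ≠ g) {γ γ' : FreeGroup Bool}
    (hγ : γ ≠ γ') {m : ℤ} (hm : m ≠ 0) (m' : ℤ) :
    jj h g γ * .of y ^ m * (jj h g γ)⁻¹ * (jj h g γ' * .of y ^ m' * (jj h g γ')⁻¹) ≠ 1 := by
  classical
  let L : FreeGroup Bool →* Equiv.Perm (FreeGroup Bool × ℤ) :=
    { toFun := fun γ => Equiv.prodCongr (Equiv.mulLeft γ) (Equiv.refl ℤ)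
      map_one' := by ext <;> simp
      map_mul' := fun a b => by ext <;> simp [mul_assoc] }
  have hL : ∀ γ ω n, L γ (ω, n) = (γ * ω, n) := fun _ _ _ => rfl
  let t : Equiv.Perm (FreeGroup Bool × ℤ) :=
    Equiv.prodShear (Equiv.refl _) fun ω => Equiv.addRight (if ω = 1 then 1 else 0)
  have ht : ∀ (m : ℤ) ω n, (t ^ m) (ω, n) = (ω, n + if ω = 1 then m else 0) := by
    intro m
    induction m using Int.induction_on with
    | zero => simp
    | succ m ih =>
      intro ω n
      rw [zpow_add_one, Equiv.Perm.mul_apply]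
      change (t ^ (m : ℤ)) (ω, n + _) = _
      rw [ih]; split_ifs <;> simp; ring
    | pred m ih =>
      intro ω n
      rw [zpow_sub_one, Equiv.Perm.mul_apply]
      change (t ^ (-m : ℤ)) (ω, n + -(if ω = 1 then 1 else 0)) = _
      rw [ih]; split_ifs <;> simp; ring
  let ρ : FreeGroup ι →* Equiv.Perm (FreeGroup Bool × ℤ) := FreeGroup.lift fun i =>
    if i = y then t else if i = h then L (.of true) else L (.of false)
  have hρ : ∀ γ, ρ (jj h g γ) = L γ := by
    have : ρ.comp (jj h g) = L := by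
      ext1 b; cases b <;> simp [ρ, jj, hhg, hh.symm, hg.symm]
    exact fun γ => DFunLike.congr_fun this γ
  intro e
  have := congrArg (fun w => ρ w (γ, 0)) e
  have h1 : γ'⁻¹ * γ ≠ 1 := fun h => hγ (inv_mul_eq_one.1 h).symm
  have hy : ρ (.of y) = t := by simp [ρ]
  simp only [map_mul, ← map_inv, hρ, map_zpow, hy, Equiv.Perm.mul_apply, hL, ht, if_neg h1,
    map_one, Equiv.Perm.one_apply] at this
  simp [hm] at this

/-- the polynomial in the group algebra -/
def aG (α : ℕ → ℂ) (M : ℕ) (y : ι) : GA ι :=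
  ∑ j ∈ Finset.range M, (α j • sg (.of y ^ (j + 1)) + conj (α j) • sg (.of y ^ (j + 1))⁻¹)

lemma pi_aG {U : ι → A} (hU : Un U) (α : ℕ → ℂ) (M : ℕ) (y : ι) :
    pi U (aG α M y) = aA α M (U y) := by
  simp only [aG, aA, map_sum, map_add, map_smul, pi_sg, ev_inv hU, ev_pow hU, ev_of]

omit [DecidableEq ι] in
lemma aG_supp (α : ℕ → ℂ) (M : ℕ) (y : ι) :
    aG α M y ∈ supported ℂ ℂ {w | ∃ m : ℤ, m ≠ 0 ∧ w = .of y ^ m} := by
  rw [supported_eq_span_single]
  refine sum_mem fun j _ => add_mem (Submodule.smul_mem _ _ (Submodule.subset_span ?_))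
    (Submodule.smul_mem _ _ (Submodule.subset_span ?_))
  · exact ⟨_, ⟨(j + 1 : ℕ), by omega, (zpow_natCast _ _).symm⟩, rfl⟩
  · exact ⟨_, ⟨-(j + 1 : ℕ), by omega, by rw [zpow_neg, zpow_natCast]⟩, rfl⟩

lemma aG_orth {h g y : ι} (hhg : g ≠ h) (hh : y ≠ h) (hg : y ≠ g) {γ γ' : FreeGroup Bool}
    (hγ : γ ≠ γ') {a b : GA ι} (ha : a ∈ supported ℂ ℂ {w | ∃ m : ℤ, m ≠ 0 ∧ w = .of y ^ m})
    (hb : b ∈ supported ℂ ℂ {w | ∃ m : ℤ, m ≠ 0 ∧ w = .of y ^ m}) :
    (sg (jj h g γ) * a * sg (jj h g γ)⁻¹ * (sg (jj h g γ') * b * sg (jj h g γ')⁻¹)).coeff 1 = 0 := by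
  rw [supported_eq_span_single] at ha hb
  induction ha using Submodule.span_induction with
  | zero => simp
  | add x y _ _ hx hy => simp [mul_add, add_mul, hx, hy]
  | smul c x _ hx => simp [hx]
  | mem x hx =>
    obtain ⟨_, ⟨m, hm, rfl⟩, rfl⟩ := hx
    induction hb using Submodule.span_induction with
    | zero => simp
    | add x y _ _ hx hy => simp only [mul_add, add_mul, coeff_add, Finsupp.add_apply, hx, hy, add_zero]
    | smul c x _ hx => simp only [mul_smul_comm, smul_mul_assoc, coeff_smul_apply, hx, smul_zero]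
    | mem x hx =>
      obtain ⟨_, ⟨m', -, rfl⟩, rfl⟩ := hx
      simp only [single_mul_single, coeff_single]
      rw [Finsupp.single_apply, if_neg (conj_ne hhg hh hg hγ hm m')]

lemma D_vW {h g : ι} (hhg : g ≠ h) (a : GA ι) (c : MonoidAlgebra ℝ (FreeGroup Bool)) (N : ℕ) :
    D h (Ad (jj h g) a c) (jj h g (vW (.of true) (.of false) N)) =
      Ad (jj h g) a ((∑ i ∈ Finset.range N, single (vW (.of true) (.of false) i) (1 : ℝ)) * c) *
        sg (jj h g (vW (.of true) (.of false) N)) := by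
  induction N with
  | zero => simp [vW, D_one]
  | succ N ih =>
    have e1 : jj h g (.of true) = .of h := by simp [jj]
    have e2 : jj h g (.of false) = .of g := by simp [jj]
    rw [Finset.sum_range_succ, add_mul, map_add, Ad_mul, vW, map_mul, map_mul, map_pow, e1, e2,
      D_mul, D_mul, ih, ← zpow_natCast, D_zpow _ _ hhg, D_of, if_pos rfl]
    simp only [sg_mul, mul_zero, add_zero, add_mul, mul_assoc]
    rw [← mul_assoc (sg _⁻¹), sg_inv_mul, one_mul]

theorem core₀ (T : Tr A) {h g y : ι} (hhg : g ≠ h) (hh : y ≠ h) (hg : y ≠ g) {δ ε : ℝ}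
    (hδ : 0 < δ) (hε : 0 < ε) : ∃ W : FreeGroup Bool, ∀ U : ι → A, Un U → Free T U →
      ∃ u ∈ unitary A, Free T (Function.update U h u) ∧ ‖T.J (u - U h)‖ ≤ δ ∧
      ‖T.J (ev (Function.update U h u) (jj h g W) - U y * ev U (jj h g W))‖ ≤ ε ∧
      ∀ B : StarSubalgebra ℂ A, IsClosed (B : Set A) → (∀ i, i ≠ h → U i ∈ B) →
        (U h ∈ B ↔ u ∈ B) := by
  obtain ⟨α, M, hα⟩ := exists_log (A := A) (half_pos hε)
  set R := ∑ j ∈ Finset.range M, 2 * ‖α j‖ + 1 with hR
  have hR0 : 0 < R := by positivity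
  have hRb : ∀ Y ∈ unitary A, ‖T.J (aA α M Y)‖ ≤ R := fun Y hY => by
    refine (T.J_le _).trans ((norm_sum_le _ _).trans ((Finset.sum_le_sum fun j _ => ?_).trans
      (le_add_of_nonneg_right zero_le_one)))
    have := Tr.norm_unit_le (pow_mem hY (j + 1))
    refine (norm_add_le _ _).trans ?_
    rw [norm_smul, norm_smul, norm_star, Complex.norm_conj]
    nlinarith [norm_nonneg (α j)]
  obtain ⟨N, c, hc1, hc2⟩ := tree (δ := (min δ (ε / 2) / R) ^ 2) (by positivity)
  have has : ∀ U : ι → A, Un U → star (pi U (aG α M y)) = pi U (aG α M y) := fun U hU => by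
    rw [pi_aG hU, star_aA]
  have hb : ∀ c : MonoidAlgebra ℝ (FreeGroup Bool), nsq c ≤ (min δ (ε / 2) / R) ^ 2 →
      ∀ U : ι → A, Un U → Free T U → ‖T.J (pi U (Ad (jj h g) (aG α M y) c))‖ ≤ min δ (ε / 2) := by
    intro c hc U hU hF
    refine abs_le_of_sq_le_sq' ?_ (by positivity) |>.2
    rw [norm_Ad _ hU hF (has U hU) fun γ γ' hγ =>
      aG_orth hhg hh hg hγ (aG_supp α M y) (aG_supp α M y), pi_aG hU]
    calc _ ≤ (min δ (ε / 2) / R) ^ 2 * R ^ 2 := by gcongr; exact hRb _ (hU y)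
      _ = _ := by field_simp
  refine ⟨vW (.of true) (.of false) N, fun U hU hF => ?_⟩
  obtain ⟨u, hu, h1, h2, h3, h4⟩ := flow T h (Ad (jj h g) (aG α M y) c)
    (D_coeff h _ hh (Ad_supp _ (supported_mono (by rintro _ ⟨m, -, rfl⟩; exact ⟨1, m, by simp⟩)
      (aG_supp α M y)) c))
    (fun U hU => by rw [pi_Ad _ hU, star_sum]; simp [has U hU, mul_assoc])
    (jj h g (vW (.of true) (.of false) N)) (aG α M y) (Ad (jj h g) (aG α M y) (_ - 1))
    (by rw [D_vW hhg, map_sub, one_def, Ad_single]; simp)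
    (fun U hU u hu => by rw [pi_aG (hU.update h hu), pi_aG hU, Function.update_of_ne hh]) has
    (fun U hU hF => (hb _ hc1 U hU hF).trans (min_le_left _ _))
    (fun U hU hF => (hb _ hc2 U hU hF).trans (min_le_right _ _)) U hU hF
  refine ⟨u, hu, h1, h2, ?_, h4⟩
  rw [← sub_add_sub_cancel _ (exp (Complex.I • pi U (aG α M y)) * ev U _), map_add, ← sub_mul]
  refine (norm_add_le _ _).trans ?_
  rw [T.J_mul_unit (ev_mem hU _), pi_aG hU]
  have := hα T (U y) (hU y) fun k => by
    rw [← ev_of U y, ← ev_pow hU]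
    refine hF _ fun e => ?_
    have := congrArg FreeGroup.norm e
    rw [FreeGroup.norm_of_pow] at this; simp at this
  rw [pi_aG hU] at h3
  linarith

lemma ev_jj {U V : ι → A} (hU : Un U) (hV : Un V) {h g : ι} (e1 : U h = V h) (e2 : U g = V g)
    (W : FreeGroup Bool) : ev U (jj h g W) = ev V (jj h g W) := by
  have : (lft hU).comp (jj h g) = (lft hV).comp (jj h g) := by
    ext b; cases b <;> simp [lft, jj, e1, e2]
  rw [ev_eq hU, ev_eq hV]
  exact congrArg Subtype.val (DFunLike.congr_fun this W)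

lemma ev_mem_sub {U : ι → A} (B : StarSubalgebra ℂ A) (hB : ∀ i, U i ∈ B) (w : FreeGroup ι) :
    ev U w ∈ B := by
  refine list_prod_mem fun x hx => ?_
  obtain ⟨⟨i, b⟩, -, rfl⟩ := List.mem_map.1 hx
  cases b
  · exact star_mem (hB i)
  · exact hB i

lemma Free.nielsen {T : Tr A} {U : ι → A} (hU : Un U) (hF : Free T U) {h g y : ι} (hh : y ≠ h)
    (hg : y ≠ g) (W : FreeGroup Bool) :
    Free T (Function.update U y (U y * star (ev U (jj h g W)))) := by
  have hV := hU.update y (mul_mem (hU y) (Unitary.star_mem (ev_mem hU (jj h g W))))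
  let θ : FreeGroup ι → FreeGroup ι →* FreeGroup ι := fun k =>
    FreeGroup.lift (Function.update FreeGroup.of y (.of y * k))
  have h1 : ∀ k W, θ k (jj h g W) = jj h g W := fun k W => by
    have : (θ k).comp (jj h g) = jj h g := by
      ext1 b; cases b <;> simp [θ, jj, hh.symm, hg.symm]
    exact DFunLike.congr_fun this W
  have h2 : (θ (jj h g W)).comp (θ (jj h g W)⁻¹) = MonoidHom.id _ := by
    ext1 i
    by_cases hi : i = y
    · subst hi
      simp only [MonoidHom.comp_apply, MonoidHom.id_apply]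
      rw [show θ (jj h g W)⁻¹ (.of i) = .of i * (jj h g W)⁻¹ by simp [θ], map_mul, map_inv, h1]
      simp [θ]
    · simp [θ, hi]
  have h3 : lft hV = (lft hU).comp (θ (jj h g W)⁻¹) := by
    ext i
    by_cases hi : i = y
    · subst hi
      simp only [MonoidHom.comp_apply]
      rw [← ev_eq, ← ev_eq, show θ (jj h g W)⁻¹ (.of i) = .of i * (jj h g W)⁻¹ by simp [θ],
        ev_mul hU, ev_inv hU]
      simp
    · simp [θ, hi, lft]
  intro w hw
  rw [ev_eq hV, h3, MonoidHom.comp_apply, ← ev_eq]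
  refine hF _ fun e => hw ?_
  have := DFunLike.congr_fun h2 w
  rw [MonoidHom.comp_apply, e, map_one] at this
  exact this.symm

/-- The core perturbation theorem. -/
theorem core (T : Tr A) {h g y : ι} (hhg : g ≠ h) (hh : y ≠ h) (hg : y ≠ g) {δ ε : ℝ}
    (hδ : 0 < δ) (hε : 0 < ε) : ∃ W : FreeGroup Bool, ∀ U : ι → A, Un U → Free T U →
      ∃ V : ι → A, Un V ∧ Free T V ∧ ‖T.J (V h - U h)‖ ≤ δ ∧ (∀ i, i ≠ h → i ≠ y → V i = U i) ∧
      ‖T.J (ev V (jj h g W) - U y)‖ ≤ ε ∧
      ∀ B : StarSubalgebra ℂ A, IsClosed (B : Set A) → ((∀ i, U i ∈ B) ↔ ∀ i, V i ∈ B) := by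
  obtain ⟨W, H⟩ := core₀ T hhg hh hg hδ hε
  refine ⟨W, fun U hU hF => ?_⟩
  have hU' := hU.update y (mul_mem (hU y) (Unitary.star_mem (ev_mem hU (jj h g W))))
  obtain ⟨u, hu, h1, h2, h3, h4⟩ := H _ hU' (hF.nielsen hU hh hg W)
  have e : ev (Function.update U y (U y * star (ev U (jj h g W)))) (jj h g W) = ev U (jj h g W) :=
    ev_jj hU' hU (Function.update_of_ne hh.symm _ _) (Function.update_of_ne hg.symm _ _) W
  refine ⟨_, hU'.update h hu, h1, by simpa [hh.symm] using h2, fun i hi hi' => by simp [hi, hi'],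
    ?_, fun B hB => ⟨fun hUB => ?_, fun hVB => ?_⟩⟩
  · rwa [e, Function.update_self, mul_assoc, (ev_mem hU _).1, mul_one] at h3
  · have h5 : ∀ i, Function.update U y (U y * star (ev U (jj h g W))) i ∈ B := fun i => by
      by_cases hi : i = y
      · subst hi; simpa using mul_mem (hUB i) (star_mem (ev_mem_sub B hUB _))
      · simpa [hi] using hUB i
    intro i
    by_cases hi : i = h
    · subst hi; simpa using (h4 B hB fun i _ => h5 i).1 (h5 i)
    · simpa [hi] using h5 i
  · have h5 : ∀ i, i ≠ h → Function.update U y (U y * star (ev U (jj h g W))) i ∈ B :=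
      fun i hi => by simpa [hi] using hVB i
    have h6 : ∀ i, Function.update U y (U y * star (ev U (jj h g W))) i ∈ B := fun i => by
      by_cases hi : i = h
      · subst hi; exact (h4 B hB h5).2 (by simpa using hVB i)
      · exact h5 i hi
    intro i
    by_cases hi : i = y
    · subst hi
      have := mul_mem (h6 i) (ev_mem_sub B h6 (jj h g W))
      rwa [e, Function.update_self, mul_assoc, (ev_mem hU _).1, mul_one] at this
    · simpa [hi] using h6 i

end Crest.Agent.H1VN
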