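import Crest.Agent.H1VN.Baire

/-! Single generation of separable II₁ factors. -/

set_option autoImplicit false

open Set Filter Topology Crest.OpAlg
open scoped InnerProductSpace ComplexConjugate

noncomputable section

namespace Crest.Agent.H1VN

section
variable {A : Type*} [CStarAlgebra A] {T : Tr A}

lemma avg_star (μ : Av A) (y : A) : star (avg μ y) = avg μ (star y) := by
  unfold avg
  induction μ with
  | pt x => simp [Av.E, mul_assoc]
  | mid μ ν h1 h2 => simp only [Av.E, star_smul, star_add, h1, h2, star_trivial]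

lemma Pauli.norm_avg {X Z : A} (h : Pauli X Z) (y : A) :
    ‖T.J (avg (pμ X Z) y)‖ ^ 2 = (T.τ (star y * avg (pμ X Z) y)).re := by
  have h1 := h.commX y
  have h2 := h.commZ y
  rw [T.norm_J_sq, avg_star]
  generalize avg (pμ X Z) y = z at *
  have : (pμ X Z).All fun s => s ∈ unitary A ∧ z * s = s * z :=
    ⟨⟨⟨one_mem _, by simp⟩, h.uZ, h2.symm⟩, ⟨h.uX, h1.symm⟩, mul_mem h.uX h.uZ, by
      rw [← mul_assoc, ← h1, mul_assoc, ← h2, mul_assoc]⟩
  rw [T.tr, τ_mul_avg, Av.E_congr (g := fun _ => T.τ (star y * z)) (this.mono fun s hs => by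
    rw [← mul_assoc, ← mul_assoc, hs.2, mul_assoc s, τ_conj T hs.1, T.tr]), Av.E_const]

lemma Pauli.conj {X Z D : A} (h : Pauli X Z) (hD : D ∈ unitary A) :
    Pauli (star D * X * D) (star D * Z * D) := by
  have e : ∀ a b : A, star D * a * D * (star D * b * D) = star D * (a * b) * D := fun a b => by
    simp only [mul_assoc]; rw [← mul_assoc D, hD.2, one_mul]
  refine ⟨by simp [h.sX, mul_assoc], by simp [h.sZ, mul_assoc], ?_, ?_, ?_⟩
  · rw [e, h.XX, mul_one, hD.1]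
  · rw [e, h.ZZ, mul_one, hD.1]
  · rw [e, e, h.ZX]; simp

def QC (T : Tr A) (B X Z : A) : Prop :=
  ‖T.J (avg (pμ X Z) B - T.τ B • 1)‖ ^ 2 ≤ 1 / 2 * ‖T.J (B - T.τ B • 1)‖ ^ 2

theorem II1.contract (h : II1 T) (B : A) : ∃ X Z, Pauli X Z ∧ QC T B X Z := by
  obtain ⟨X, Z, hp⟩ := h.exists_pauli
  unfold QC
  have hy : T.τ (B - T.τ B • 1) = 0 := by simp [T.one]
  have hE : ∀ X Z : A, Pauli X Z → avg (pμ X Z) B - T.τ B • 1 = avg (pμ X Z) (B - T.τ B • 1) :=
    fun X Z hp => (avg_sub_smul (hp.all (P := ⊤) trivial trivial) _ _).symm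
  generalize B - T.τ B • 1 = y at *
  rcases (norm_nonneg (T.J y)).eq_or_lt with h0 | h0
  · have := J_avg_le (T := T) (hp.all (P := ⊤) trivial trivial) y
    refine ⟨X, Z, hp, ?_⟩
    rw [hE _ _ hp, ← h0, le_antisymm (h0 ▸ this) (norm_nonneg _)]; norm_num
  obtain ⟨l, _, h1, h2⟩ := key_filter isClosed_univ h.av (h.fac_top.wn h.good) (one_mem _)
  have h3 : ∀ σ σ' : A, T.τ σ = 0 → T.τ σ' = 0 → ∀ᶠ D in l,
      (T.τ (star y * (star D * σ * D * y * (star D * σ' * D)))).re ≤ ‖T.J y‖ ^ 2 / 3 := by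
    intro σ σ' a1 a2
    have := (Complex.continuous_re.tendsto _).comp (h2 (star y)
      [(false, σ), (true, y), (false, σ'), (true, 1)] (by simp [Valid, a1, a2, hy]) (by simp))
    refine (this.eventually (ge_mem_nhds (show Complex.re 0 < ‖T.J y‖ ^ 2 / 3 by
      rw [Complex.zero_re]; positivity))).mono
      fun D hD => ?_
    simpa [pat, lt, mul_assoc] using hD
  have τZ : T.τ Z = 0 := by simpa using hp.τZ (T := T) (y := 1) (by simp)
  obtain ⟨D, hD, ⟨a1, a2⟩, a3⟩ := (h1.and (((h3 Z Z τZ τZ).and (h3 X X hp.τX hp.τX)).and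
    (h3 (X * Z) (Z * X) hp.τXZ (by rw [T.tr, hp.τXZ])))).exists
  have hq := hp.conj hD.1
  have e : ∀ a b : A, star D * a * D * (star D * b * D) = star D * (a * b) * D := fun a b => by
    simp only [mul_assoc]; rw [← mul_assoc D, hD.1.2, one_mul]
  refine ⟨_, _, hq, ?_⟩
  rw [hE _ _ hq, hq.norm_avg, hq.avg_eq, e, e, mul_smul_comm, map_smul, mul_add, mul_add, mul_add,
    map_add, map_add, map_add, smul_eq_mul, show (1 / 4 : ℂ) = ((1 / 4 : ℝ) : ℂ) by norm_num,
    Complex.re_ofReal_mul, Complex.add_re, Complex.add_re, Complex.add_re, ← T.norm_J_sq]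
  linarith

lemma Fac.contract (hT : T.Good) {N : StarSubalgebra ℂ A} (hN : Fac T N) {B : A} (hB : B ∈ N) :
    ∃ X ∈ N, ∃ Z ∈ N, Pauli X Z ∧ QC T B X Z := by
  have := hN.cl.isClosed
  obtain ⟨X, Z, hp, h⟩ := (hN.ii1 hT).contract ⟨B, hB⟩
  refine ⟨X, X.2, Z, Z.2, hp.coe, ?_⟩
  unfold QC at h ⊢
  rw [J_res, J_res, hp.avg_eq] at h
  rw [hp.coe.avg_eq]
  exact h

lemma tendsto_of_halving {a : ℕ → ℝ} (h0 : ∀ n, 0 ≤ a n) (h1 : ∀ n, a (n + 1) ≤ a n)
    (h2 : ∀ n, ∃ k ≥ n, a (k + 1) ≤ 1 / 2 * a k) : Tendsto a atTop (𝓝 0) := by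
  have hb : BddBelow (range a) := ⟨0, by rintro _ ⟨n, rfl⟩; exact h0 n⟩
  have h3 := tendsto_atTop_ciInf (antitone_nat_of_succ_le h1) hb
  have : ⨅ n, a n = 0 := le_antisymm (le_of_forall_pos_le_add fun ε hε => by
    obtain ⟨N, hN⟩ := eventually_atTop.1 (h3.eventually (gt_mem_nhds (lt_add_of_pos_right _ hε)))
    obtain ⟨k, hk, h4⟩ := h2 N
    linarith [hN k hk, ciInf_le hb (k + 1)]) (le_ciInf h0)
  rwa [this] at h3

theorem gen_tower (h : II1 T) (hS : Sep T) : ∃ (X Z : ℕ → A) (u : A), (∀ k, Pauli (X k) (Z k)) ∧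
    (∀ i j, i < j → X i * X j = X j * X i ∧ Z i * Z j = Z j * Z i) ∧
    ∀ B : StarSubalgebra ℂ A, Cl T B → (∀ k, X k ∈ B) → (∀ k, Z k ∈ B) → u ∈ B → ∀ y, y ∈ B := by
  obtain ⟨c, -, hc⟩ := hS univ univ_nonempty
  obtain ⟨X, Z, μ, h1, h2, h3, h4, h5⟩ := exists_tower h (QC T)
    (fun N hN B hB => hN.contract h.good hB) fun k => c k.unpair.1
  let P := (StarAlgebra.adjoin ℂ (range X ∪ range Z)).topologicalClosure
  have hX : ∀ k, X k ∈ P := fun k => StarSubalgebra.le_topologicalClosure _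
    (StarAlgebra.subset_adjoin _ _ (Or.inl ⟨k, rfl⟩))
  have hZ : ∀ k, Z k ∈ P := fun k => StarSubalgebra.le_topologicalClosure _
    (StarAlgebra.subset_adjoin _ _ (Or.inr ⟨k, rfl⟩))
  have hμ : ∀ k, (μ k).All (UP P) := fun k => by
    induction k with
    | zero => rw [h3]; exact ⟨one_mem _, one_mem _⟩
    | succ k ih => rw [h4]; exact cmp_all ((h1 k).all (hX k) (hZ k)) ih
  have h6 : ∀ j, Tendsto (fun k => ‖T.J (avg (μ k) (c j) - T.τ (c j) • 1)‖) atTop (𝓝 0) := by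
    intro j
    have := (tendsto_of_halving (a := fun k => ‖T.J (avg (μ k) (c j) - T.τ (c j) • 1)‖ ^ 2)
      (fun _ => sq_nonneg _) (fun k => by
        have h7 := (h1 k).all (hX k) (hZ k)
        simp only [h4, avg_cmp]
        rw [← avg_sub_smul h7]
        gcongr; exact J_avg_le h7 _) fun n => ⟨Nat.pair j n, Nat.right_le_pair j n, by
          have := h5 (Nat.pair j n)
          simp only [QC, Nat.unpair_pair, τ_avg (hμ _)] at this
          simpa only [h4, avg_cmp] using this⟩).sqrt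
    simpa using this
  have hAV : AV T P := ⟨map μ atTop, inferInstance, eventually_map.2 (.of_forall hμ), fun y => by
    rw [tendsto_map'_iff, Metric.tendsto_atTop]
    intro ε hε
    obtain ⟨j, hj⟩ := hc y trivial (ε / 3) (by positivity)
    obtain ⟨N, hN⟩ := Metric.tendsto_atTop.1 (h6 j) (ε / 3) (by positivity)
    refine ⟨N, fun n hn => ?_⟩
    have h7 := hN n hn
    simp only [Function.comp_apply, dist_zero_right, norm_norm] at h7 ⊢
    have e : avg (μ n) y - T.τ y • 1 = (avg (μ n) (c j) - T.τ (c j) • 1) + avg (μ n) (y - c j) -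
        T.τ (y - c j) • 1 := by rw [avg_sub, map_sub, sub_smul]; abel
    rw [e, map_sub, map_add, map_smul]
    refine (norm_sub_le _ _).trans_lt ?_
    rw [norm_smul, T.norm_J_one, mul_one]
    linarith [norm_add_le (T.J (avg (μ n) (c j) - T.τ (c j) • 1)) (T.J (avg (μ n) (y - c j))),
      J_avg_le (T := T) (hμ n) (y - c j), T.norm_τ_le_J (y - c j)]⟩
  obtain ⟨u, -, -, hu⟩ := generic h.good hS (StarSubalgebra.isClosed_topologicalClosure _) hAV
    (wn_of_pauli h1 (fun i j hij => (h2 i j hij).2.1) hZ) (one_mem _) one_pos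
  refine ⟨X, Z, u, h1, fun i j hij => ⟨(h2 i j hij).1.1, (h2 i j hij).2.2⟩,
    fun B hB a1 a2 => hu B hB (StarSubalgebra.topologicalClosure_minimal
      (StarAlgebra.adjoin_le ?_) hB.isClosed)⟩
  rintro _ (⟨k, rfl⟩ | ⟨k, rfl⟩)
  exacts [a1 k, a2 k]

/-- closed under taking signs -/
def SG (B : StarSubalgebra ℂ A) : Prop :=
  ∀ Z γ : A, Z * Z = 1 → ‖Z‖ ≤ 1 → Z * γ = γ * Z → ‖γ‖ < 1 → Z + γ ∈ B → Z ∈ B

lemma series {W : ℕ → A} (hs : ∀ k, star (W k) = W k) (h1 : ∀ k, W k * W k = 1)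
    (hc : ∀ i j, i < j → W i * W j = W j * W i) : ∃ α : A, star α = α ∧ ‖α‖ ≤ 2 ∧
      ∀ B : StarSubalgebra ℂ A, SG B → α ∈ B → ∀ k, W k ∈ B := by
  have hn : ∀ k, ‖W k‖ ≤ 1 := fun k => Tr.norm_unit_le ⟨by rw [hs, h1], by rw [hs, h1]⟩
  let t : ℕ → A := fun k => ∑' j, ((1 / 3 : ℂ) ^ j) • W (k + j)
  have hb : ∀ k j, ‖((1 / 3 : ℂ) ^ j) • W (k + j)‖ ≤ (1 / 2) ^ j := fun k j => by
    rw [norm_smul, norm_pow]
    refine (mul_le_of_le_one_right (by positivity) (hn _)).trans ?_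
    gcongr; norm_num
  have hsum : ∀ k, Summable fun j => ((1 / 3 : ℂ) ^ j) • W (k + j) := fun k =>
    .of_norm_bounded summable_geometric_two (hb k)
  have ht : ∀ k, ‖t k‖ ≤ 2 := fun k => tsum_of_norm_bounded hasSum_geometric_two (hb k)
  have e : ∀ k, t k = W k + (1 / 3 : ℂ) • t (k + 1) := fun k => by
    simp only [t]
    rw [(hsum k).tsum_eq_zero_add, ← (hsum (k + 1)).tsum_const_smul]
    simp only [pow_zero, one_smul, add_zero, smul_smul, pow_succ', add_assoc, add_comm 1]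
  refine ⟨t 0, by simp [t, tsum_star, hs], ht 0, fun B hB h0 => ?_⟩
  have key : ∀ k, t k ∈ B → W k ∈ B := fun k hk => hB _ ((1 / 3 : ℂ) • t (k + 1)) (h1 k) (hn k)
    (Commute.smul_right (Commute.tsum_right _ fun j => Commute.smul_right
      (hc k (k + 1 + j) (by omega)) _) _)
    (by rw [norm_smul]; norm_num; linarith [ht (k + 1)]) (e k ▸ hk)
  have : ∀ k, t k ∈ B := fun k => by
    induction k with
    | zero => exact h0
    | succ k ih =>
      have := B.smul_mem (sub_mem ih (key k ih)) 3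
      rwa [e k, add_sub_cancel_left, smul_smul, mul_one_div_cancel (by norm_num), one_smul] at this
  exact fun k => key k (this k)

lemma re_im_mem {B : StarSubalgebra ℂ A} {a b : A} (ha : star a = a) (hb : star b = b)
    (h : a + Complex.I • b ∈ B) : a ∈ B ∧ b ∈ B := by
  have h1 := B.smul_mem (add_mem h (star_mem h)) (1 / 2)
  have h2 := B.smul_mem (sub_mem h (star_mem h)) (-Complex.I / 2)
  rw [star_add, star_smul, ha, hb, Complex.star_def, Complex.conj_I] at h1 h2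
  constructor
  · convert h1 using 1; module
  · convert h2 using 1
    rw [show a + Complex.I • b - (a + -Complex.I • b) = (2 * Complex.I) • b by module, smul_smul,
      show -Complex.I / 2 * (2 * Complex.I) = -(Complex.I * Complex.I) by ring, Complex.I_mul_I]
    simp

def mix (Z a b : A) : A := (1 + Z) * a + (1 - Z) * b

lemma mix_mem {X Z a b : A} (h : Pauli X Z) (ha : X * a = a * X) (hb : X * b = b * X)
    {B : StarSubalgebra ℂ A} (hX : X ∈ B) (hZ : Z ∈ B) (hm : mix Z a b ∈ B) : a ∈ B ∧ b ∈ B := by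
  have h1 : X * mix Z a b * X = (1 - Z) * a + (1 + Z) * b := by
    simp only [mix, mul_add, add_mul, sub_mul, mul_sub, one_mul, mul_assoc, ← ha, ← hb, h.XX',
      h.ZX', mul_neg]
    abel
  have h2 := mul_mem (mul_mem hX hm) hX
  rw [h1] at h2
  have p := add_mem (one_mem B) hZ
  have m := sub_mem (one_mem B) hZ
  constructor
  · convert B.smul_mem (add_mem (mul_mem p hm) (mul_mem m h2)) (1 / 4) using 1
    simp only [mix, mul_add, add_mul, sub_mul, mul_sub, one_mul, h.ZZ']; module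
  · convert B.smul_mem (add_mem (mul_mem m hm) (mul_mem p h2)) (1 / 4) using 1
    simp only [mix, mul_add, add_mul, sub_mul, mul_sub, one_mul, h.ZZ']; module

lemma mix_comm {Z a b : A} (ha : Z * a = a * Z) (hb : Z * b = b * Z) :
    Z * mix Z a b = mix Z a b * Z := by
  simp only [mix, mul_add, add_mul, sub_mul, mul_sub, one_mul, mul_assoc, ← ha, ← hb]

lemma mix_star {Z a b : A} (hZ : star Z = Z) (sa : star a = a) (sb : star b = b)
    (ha : Z * a = a * Z) (hb : Z * b = b * Z) : star (mix Z a b) = mix Z a b := by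
  simp [mix, mul_add, add_mul, sub_mul, mul_sub, hZ, sa, sb, ha, hb]

theorem single_gen (h : II1 T) (hS : Sep T) :
    ∃ x : A, ∀ B : StarSubalgebra ℂ A, Cl T B → SG B → x ∈ B → ∀ y, y ∈ B := by
  obtain ⟨X₀, Z₀, hp⟩ := h.exists_pauli
  have hN := h.fac_top.nxt h.good hp trivial trivial
  have := hN.cl.isClosed
  obtain ⟨X, Z, u, h1, h2, h3⟩ := gen_tower (hN.ii1 h.good) (hS.res _)
  obtain ⟨a, a1, a2, a3⟩ := series (fun k => (h1 k).sX) (fun k => (h1 k).XX)
    fun i j hij => (h2 i j hij).1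
  obtain ⟨b, b1, b2, b3⟩ := series (fun k => (h1 k).sZ) (fun k => (h1 k).ZZ)
    fun i j hij => (h2 i j hij).2
  obtain ⟨r, s, r1, s1, rfl⟩ : ∃ r s, star r = r ∧ star s = s ∧ u = r + Complex.I • s :=
    ⟨_, _, (realPart u).2, (imaginaryPart u).2, (realPart_add_I_smul_imaginaryPart u).symm⟩
  have c : ∀ y : nxt ⊤ X₀ Z₀, X₀ * y = y * X₀ ∧ Z₀ * y = y * Z₀ := fun y => ((mem_nxt hp).1 y.2).2
  have hZ := Tr.norm_unit_le hp.uZ
  have m1 := mix_star hp.sZ (congrArg Subtype.val a1) (congrArg Subtype.val b1) (c a).2 (c b).2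
  have m2 := mix_star hp.sZ (congrArg Subtype.val r1) (congrArg Subtype.val s1) (c r).2 (c s).2
  refine ⟨(Z₀ + (1 / 10 : ℂ) • mix Z₀ a b) + Complex.I • (X₀ + mix Z₀ r s), fun B hB hG hx y => ?_⟩
  obtain ⟨d1, d2⟩ := re_im_mem (by simp [hp.sZ, m1]) (by simp [hp.sX, m2]) hx
  have d3 : Z₀ ∈ B := hG _ _ hp.ZZ hZ
    (by rw [mul_smul_comm, smul_mul_assoc, mix_comm (c a).2 (c b).2]) (by
      have n1 : ‖(1 : A)‖ ≤ 1 := Tr.norm_unit_le (one_mem _)
      have n2 := (norm_mul_le _ _).trans (mul_le_mul ((norm_add_le 1 Z₀).trans (add_le_add n1 hZ))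
        (show ‖(a : A)‖ ≤ 2 from a2) (norm_nonneg _) (by norm_num))
      have n3 := (norm_mul_le _ _).trans (mul_le_mul ((norm_sub_le 1 Z₀).trans (add_le_add n1 hZ))
        (show ‖(b : A)‖ ≤ 2 from b2) (norm_nonneg _) (by norm_num))
      have n4 := norm_add_le ((1 + Z₀) * a) ((1 - Z₀) * b)
      rw [norm_smul, mix]; norm_num; linarith) d1
  have d4 : X₀ ∈ B := by
    convert B.smul_mem (sub_mem d2 (mul_mem (mul_mem d3 d2) d3)) (1 / 2) using 1
    rw [mul_add, add_mul, mix_comm (c r).2 (c s).2, hp.ZX, neg_mul, mul_assoc, mul_assoc, hp.ZZ]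
    simp only [mul_one]; module
  have d5 := mix_mem hp (c r).1 (c s).1 d4 d3 (by simpa using sub_mem d2 d4)
  have d6 := mix_mem hp (c a).1 (c b).1 d4 d3 (by
    have := B.smul_mem (sub_mem d1 d3) 10
    rwa [add_sub_cancel_left, smul_smul, mul_one_div_cancel (by norm_num), one_smul] at this)
  have hG' : SG (B.comap (nxt ⊤ X₀ Z₀).subtype) := fun Z γ e1 e2 e3 e4 e5 =>
    hG Z γ (congrArg Subtype.val e1) e2 (congrArg Subtype.val e3) e4 e5
  have d7 := h3 (B.comap (nxt ⊤ X₀ Z₀).subtype) (fun z hz => hB z fun ε hε => by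
      obtain ⟨w, hw, e⟩ := hz ε hε
      exact ⟨w, hw, by rwa [J_res] at e⟩) (a3 _ hG' d6.1) (b3 _ hG' d6.2)
    (add_mem d5.1 (B.smul_mem d5.2 _))
  have d8 : ∀ y, avg (pμ X₀ Z₀) y ∈ B := fun y => d7 ⟨_, avg_nxt hp trivial trivial trivial⟩
  rw [hp.decomp y]
  exact add_mem (add_mem (add_mem (d8 _) (mul_mem d4 (d8 _))) (mul_mem d3 (d8 _)))
    (mul_mem (mul_mem d4 d3) (d8 _))

lemma sgn_comm {Z γ t : A} (h1 : Z * Z = 1) (h2 : ‖Z‖ ≤ 1) (h3 : Z * γ = γ * Z) (h4 : ‖γ‖ < 1)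
    (h5 : t * (Z + γ) = (Z + γ) * t) : t * Z = Z * t := by
  have h1' : ∀ y, Z * (Z * y) = y := fun y => by rw [← mul_assoc, h1, one_mul]
  have h3' : ∀ y, γ * (Z * y) = Z * (γ * y) := fun y => by rw [← mul_assoc, ← h3, mul_assoc]
  have h6 : t * γ = Z * t + γ * t - t * Z := by rw [← add_mul, ← h5, mul_add]; abel
  have h6' : ∀ y, t * (γ * y) = Z * (t * y) + γ * (t * y) - t * (Z * y) := fun y => by
    rw [← mul_assoc, h6]; simp only [add_mul, sub_mul, mul_assoc]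
  set s := t - Z * t * Z with hs
  have e : (2 : ℂ) • s = Z * (s * γ - γ * s) := by
    simp only [hs, mul_sub, sub_mul, mul_add, mul_assoc, h3, h3', h6, h6', h1', h1, mul_one]
    module
  have h7 : 2 * ‖s‖ ≤ 2 * (‖γ‖ * ‖s‖) := by
    have := congrArg norm e
    rw [norm_smul, Complex.norm_two] at this
    rw [this]
    refine (norm_mul_le _ _).trans ((mul_le_of_le_one_left (norm_nonneg _) h2).trans
      ((norm_sub_le _ _).trans ?_))
    linarith [norm_mul_le s γ, norm_mul_le γ s]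
  have h8 : s = 0 := norm_eq_zero.1 (by nlinarith [norm_nonneg s])
  rw [hs, sub_eq_zero] at h8
  conv_lhs => rw [h8, mul_assoc, h1, mul_one]

end

theorem s0125 {H : Type*} [NormedAddCommGroup H] [InnerProductSpace ℂ H] [CompleteSpace H]
    [TopologicalSpace.SeparableSpace H] (M : VonNeumannAlgebra H) (hM : IsTypeIIOneFactor M) :
    ∃ x ∈ M, ∀ N : VonNeumannAlgebra H, x ∈ N → M ≤ N := by
  obtain ⟨ξ, hξ⟩ := hM.2.2
  obtain ⟨x, hx⟩ := single_gen (T := trM hξ) ⟨trM_good hξ, fun z hz => by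
    obtain ⟨c, hc⟩ := hM.1 z.1 z.2 fun y hy => congrArg Subtype.val (hz ⟨y, hy⟩)
    exact ⟨c, Subtype.ext hc⟩, hM.2.1⟩ (sep_trM hξ)
  refine ⟨x, x.2, fun N hN y hy => hx (sub M N) (cl_sub hξ N) ?_ hN ⟨y, hy⟩⟩
  intro Z γ h1 h2 h3 h4 h5
  rw [mem_sub, ← N.commutant_commutant, VonNeumannAlgebra.mem_commutant_iff] at h5 ⊢
  exact fun t ht => sgn_comm (congrArg Subtype.val h1) h2 (congrArg Subtype.val h3) h4 (h5 t ht)

end Crest.Agent.H1VN
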