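import Crest.Agent.H1VN.Flow3

/-! Iterating the core theorem: one generator becomes superfluous. -/

set_option autoImplicit false

open Set MonoidAlgebra Filter Topology
open scoped InnerProductSpace ComplexConjugate

noncomputable section

namespace Crest.Agent.H1VN

variable {ι : Type*} [DecidableEq ι] {A : Type*} [CStarAlgebra A]

/-- faithful, and the balls are complete for the 2-norm -/
structure Tr.Good (T : Tr A) : Prop where
  faith : ∀ x, T.J x = 0 → x = 0
  comp : ∀ (x : ℕ → A) (C : ℝ), (∀ n, ‖x n‖ ≤ C) → CauchySeq (fun n => T.J (x n)) →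
    ∃ z, ‖z‖ ≤ C ∧ Tendsto (fun n => T.J (x n)) atTop (𝓝 (T.J z))

lemma Tr.tendsto_iff (T : Tr A) {κ : Type*} {l : Filter κ} {x : κ → A} {z : A} :
    Tendsto (fun n => T.J (x n)) l (𝓝 (T.J z)) ↔ Tendsto (fun n => ‖T.J (x n - z)‖) l (𝓝 0) := by
  simp only [map_sub]; exact tendsto_iff_norm_sub_tendsto_zero

lemma Tr.tendsto_star (T : Tr A) {κ : Type*} {l : Filter κ} {x : κ → A} {z : A}
    (h : Tendsto (fun n => T.J (x n)) l (𝓝 (T.J z))) :
    Tendsto (fun n => T.J (Star.star (x n))) l (𝓝 (T.J (Star.star z))) := by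
  rw [T.tendsto_iff] at h ⊢
  simpa only [← star_sub, T.J_star] using h

lemma Tr.tendsto_mul (T : Tr A) {κ : Type*} {l : Filter κ} {x y : κ → A} {z w : A} {C : ℝ}
    (hC : ∀ n, ‖x n‖ ≤ C) (h : Tendsto (fun n => T.J (x n)) l (𝓝 (T.J z)))
    (h' : Tendsto (fun n => T.J (y n)) l (𝓝 (T.J w))) :
    Tendsto (fun n => T.J (x n * y n)) l (𝓝 (T.J (z * w))) := by
  rw [T.tendsto_iff] at h h' ⊢
  have := (h'.const_mul C).add (h.mul_const ‖w‖)
  rw [mul_zero, zero_mul, add_zero] at this
  refine squeeze_zero (fun _ => norm_nonneg _) (fun n => ?_) this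
  rw [show x n * y n - z * w = x n * (y n - w) + (x n - z) * w by noncomm_ring, map_add]
  exact (norm_add_le _ _).trans (add_le_add ((T.J_mul_le _ _).trans (by gcongr; exact hC n))
    (T.J_mul_le' _ _))

lemma Tr.Good.eq {T : Tr A} (hT : T.Good) {x y : A} (h : T.J x = T.J y) : x = y :=
  sub_eq_zero.1 (hT.faith _ (by rw [map_sub, h, sub_self]))

lemma Tr.Good.unit {T : Tr A} (hT : T.Good) {x : ℕ → A} (hx : ∀ n, x n ∈ unitary A) {z : A}
    (h : Tendsto (fun n => T.J (x n)) atTop (𝓝 (T.J z))) : z ∈ unitary A := by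
  have h1 := T.tendsto_mul (C := 1) (fun n => by simpa using Tr.norm_unit_le (hx n))
    (T.tendsto_star h) h
  have h2 := T.tendsto_mul (C := 1) (fun n => Tr.norm_unit_le (hx n)) h (T.tendsto_star h)
  simp only [(hx _).1, (hx _).2, tendsto_const_nhds_iff] at h1 h2
  exact ⟨hT.eq h1.symm, hT.eq h2.symm⟩

omit [DecidableEq ι] in
lemma evL_mem {U : ι → A} (hU : Un U) (l : List (ι × Bool)) : evL U l ∈ unitary A := by
  rw [← lft_mk hU]; exact (lft hU _).2

lemma pi_lip (T : Tr A) (z : GA ι) : ∃ L : ℝ, 0 < L ∧ ∀ U V : ι → A, Un U → Un V → ∀ ρ, 0 ≤ ρ →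
    (∀ i, ‖T.J (U i - V i)‖ ≤ ρ) → ‖T.J (pi U z - pi V z)‖ ≤ L * ρ := by
  induction z using MonoidAlgebra.induction_linear with
  | zero => exact ⟨1, one_pos, fun U V _ _ ρ hρ _ => by simpa⟩
  | add a b ha hb =>
    obtain ⟨K, hK, H⟩ := ha
    obtain ⟨L, hL, J⟩ := hb
    refine ⟨K + L, by positivity, fun U V hU hV ρ hρ h => ?_⟩
    rw [map_add, map_add, add_sub_add_comm, map_add, add_mul]
    exact (norm_add_le _ _).trans (add_le_add (H U V hU hV ρ hρ h) (J U V hU hV ρ hρ h))
  | single w c =>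
    refine ⟨‖c‖ * w.toWord.length + 1, by positivity, fun U V hU hV ρ hρ h => ?_⟩
    have : ∀ l : List (ι × Bool), ‖T.J (evL U l - evL V l)‖ ≤ l.length * ρ := by
      intro l
      induction l with
      | nil => simp [evL]
      | cons x l ih =>
        have e : evL U (x :: l) - evL V (x :: l) = (evL U [x] - evL V [x]) * evL U l +
            evL V [x] * (evL U l - evL V l) := by simp [evL, sub_mul, mul_sub]
        rw [e, map_add, List.length_cons, Nat.cast_succ, add_mul, one_mul, add_comm]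
        refine (norm_add_le _ _).trans (add_le_add ?_ ?_)
        · rwa [T.J_unit_mul (evL_mem hV _)]
        · rw [T.J_mul_unit (evL_mem hU _)]
          obtain ⟨i, b⟩ := x
          cases b
          · simpa [evL, ← star_sub, T.J_star, -map_sub] using h i
          · simpa [evL] using h i
    rw [pi_single, pi_single, ← smul_sub, map_smul, norm_smul, add_mul, mul_assoc]
    exact (mul_le_mul_of_nonneg_left (this _) (norm_nonneg _)).trans (by linarith)

/-- the range of the evaluation map -/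
def RG {U : ι → A} (hU : Un U) : StarSubalgebra ℂ A where
  carrier := range (pi U)
  mul_mem' := by rintro _ _ ⟨a, rfl⟩ ⟨b, rfl⟩; exact ⟨a * b, pi_mul hU a b⟩
  add_mem' := by rintro _ _ ⟨a, rfl⟩ ⟨b, rfl⟩; exact ⟨a + b, map_add _ a b⟩
  algebraMap_mem' c := ⟨single 1 c, by simp [pi_single, Algebra.algebraMap_eq_smul_one]⟩
  star_mem' := by
    rintro _ ⟨a, rfl⟩
    induction a using MonoidAlgebra.induction_linear with
    | zero => exact ⟨0, by simp⟩
    | add a b ha hb =>
      obtain ⟨a', ha⟩ := ha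
      obtain ⟨b', hb⟩ := hb
      exact ⟨a' + b', by simp [ha, hb]⟩
    | single w c => exact ⟨single w⁻¹ (conj c), by simp [pi_single, ev_inv hU]⟩

lemma pi_mem_sub {U : ι → A} (B : StarSubalgebra ℂ A) (hB : ∀ i, U i ∈ B) (z : GA ι) :
    pi U z ∈ B := by
  induction z using MonoidAlgebra.induction_linear with
  | zero => simp
  | add a b ha hb => rw [map_add]; exact add_mem ha hb
  | single w c => rw [pi_single]; exact B.smul_mem (ev_mem_sub B hB w) c

lemma ev_map {κ : Type*} [DecidableEq κ] {U : ι → A} (hU : Un U) (e : κ → ι) (w : FreeGroup κ) :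
    ev (U ∘ e) w = ev U (FreeGroup.map e w) := by
  have hV : Un (U ∘ e) := fun k => hU (e k)
  have : lft hV = (lft hU).comp (FreeGroup.map e) := by ext k; simp [lft]
  rw [ev_eq hV, ev_eq hU, this]; rfl

/-- `U` generates a 2-norm dense subalgebra -/
def Gen (T : Tr A) (U : ι → A) : Prop := ∀ x : A, ∀ ε > 0, ∃ z, ‖T.J (x - pi U z)‖ ≤ ε

theorem iter [Countable ι] {κ : Type*} [DecidableEq κ] {T : Tr A} (hT : T.Good) {y : ι}
    (e : κ → ι) (he : Function.Injective e) (hy : ∀ k, e k ≠ y) (he' : ∀ i, i ≠ y → ∃ k, e k = i)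
    {kh kg : κ} (hk : kg ≠ kh) {U₀ : ι → A} (hU₀ : Un U₀) (hF₀ : Free T U₀) (hG : Gen T U₀) :
    ∃ V : κ → A, Un V ∧ Free T V ∧ Gen T V := by
  set h := e kh
  set g := e kg
  have hhg : g ≠ h := fun h' => hk (he h')
  have hh : y ≠ h := (hy kh).symm
  have hg : y ≠ g := (hy kg).symm
  obtain ⟨f, hf⟩ := exists_surjective_nat (FreeGroup ι)
  let S := {s : (ι → A) × ℝ // Un s.1 ∧ Free T s.1 ∧ (∀ i, i ≠ h → i ≠ y → s.1 i = U₀ i) ∧
    (∀ B : StarSubalgebra ℂ A, IsClosed (B : Set A) → (∀ i, s.1 i ∈ B) → ∀ i, U₀ i ∈ B) ∧ 0 < s.2}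
  have stp : ∀ (k : ℕ) (s : S), ∃ s' : S, s'.1.2 ≤ s.1.2 / 2 ∧
      ‖T.J (s'.1.1 h - s.1.1 h)‖ ≤ s.1.2 / 2 ∧ ∀ v ∈ unitary A, ‖T.J (v - s'.1.1 h)‖ ≤ s'.1.2 →
        ∃ z, ‖T.J (ev U₀ (f k.unpair.1) - pi (Function.update U₀ h v ∘ e) z)‖ ≤ 3 / (k + 1) := by
    rintro k ⟨⟨U, r⟩, hU, hF, h1, h2, hr⟩
    simp only at hU hF h1 h2 hr ⊢
    have hη : (0 : ℝ) < 1 / (k + 1) := by positivity
    have h3 := ev_mem_sub _ (h2 (RG hU).topologicalClosure (RG hU).isClosed_topologicalClosure
      fun i => (RG hU).le_topologicalClosure ⟨sg (.of i), by simp [pi_sg]⟩) (f k.unpair.1)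
    obtain ⟨_, ⟨z, rfl⟩, hz⟩ := Metric.mem_closure_iff.1 h3 _ hη
    obtain ⟨L, hL, HL⟩ := pi_lip T z
    obtain ⟨W, HW⟩ := core T hhg hh hg (δ := min (r / 2) (1 / (k + 1) / L))
      (ε := 1 / (k + 1) / L) (by positivity) (by positivity)
    obtain ⟨V, hV, hFV, h4, h5, h6, h7⟩ := HW U hU hF
    have hV' := hV.update y (ev_mem hV (jj h g W))
    have hVe : Un (V ∘ e) := fun k => hV (e k)
    obtain ⟨z', hz'⟩ : pi (Function.update V y (ev V (jj h g W))) z ∈ RG hVe := by
      have h8 : ∀ k, V (e k) ∈ RG hVe := fun k => ⟨sg (.of k), by simp [pi_sg]⟩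
      refine pi_mem_sub _ (fun i => ?_) z
      by_cases hi : i = y
      · subst hi
        rw [Function.update_self]
        refine ⟨sg (jj kh kg W), ?_⟩
        rw [pi_sg, ev_map hV]
        congr 1
        have : (FreeGroup.map e).comp (jj kh kg) = jj h g := by ext1 b; cases b <;> simp [jj, h, g]
        exact DFunLike.congr_fun this W
      · obtain ⟨k, rfl⟩ := he' i hi
        rw [Function.update_of_ne hi]; exact h8 k
    obtain ⟨L', hL', HL'⟩ := pi_lip T z'
    refine ⟨⟨⟨V, min (r / 2) (1 / (k + 1) / L')⟩, hV, hFV,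
      fun i hi hi' => (h5 i hi hi').trans (h1 i hi hi'),
      fun B hB hVB => h2 B hB ((h7 B hB).2 hVB), by positivity⟩, min_le_left _ _,
      h4.trans (min_le_left _ _), fun v hv hv' => ⟨z', ?_⟩⟩
    have h8 := HL U _ hU hV' (1 / (k + 1) / L) (by positivity) fun i => by
      rw [← neg_sub, map_neg, norm_neg]
      by_cases hi : i = y
      · subst hi; rwa [Function.update_self]
      · rw [Function.update_of_ne hi]
        by_cases hi' : i = h
        · rw [hi']; exact h4.trans (min_le_right _ _)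
        · rw [h5 i hi' hi, sub_self, map_zero, norm_zero]; positivity
    have h9 := HL' (V ∘ e) (Function.update U₀ h v ∘ e) hVe (fun k => hU₀.update h hv (e k))
      (1 / (k + 1) / L') (by positivity) fun j => by
        rw [← neg_sub, map_neg, norm_neg, Function.comp_apply, Function.comp_apply]
        by_cases hj : e j = h
        · rw [hj, Function.update_self]; exact hv'.trans (min_le_right _ _)
        · rw [Function.update_of_ne hj, h5 _ hj (hy j), h1 _ hj (hy j), sub_self, map_zero,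
            norm_zero]; positivity
    rw [mul_div_cancel₀ _ hL.ne', ← hz'] at h8
    rw [mul_div_cancel₀ _ hL'.ne'] at h9
    rw [dist_eq_norm] at hz
    have h10 := (T.J_le _).trans hz.le
    rw [map_sub] at h8 h9 h10 ⊢
    have := dist_triangle4 (T.J (ev U₀ (f k.unpair.1))) (T.J (pi U z)) (T.J (pi (V ∘ e) z'))
      (T.J (pi (Function.update U₀ h v ∘ e) z'))
    simp only [dist_eq_norm] at this
    rw [show (3 : ℝ) / (k + 1) = 1 / (k + 1) + 1 / (k + 1) + 1 / (k + 1) by ring]
    linarith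
  choose F hF1 hF2 hF3 using stp
  let s : ℕ → S := fun n => Nat.rec ⟨⟨U₀, 1⟩, hU₀, hF₀, fun _ _ _ => rfl, fun _ _ h => h, one_pos⟩ F n
  have hs : ∀ n, s (n + 1) = F n (s n) := fun n => rfl
  have hr : ∀ k n, (s (k + n)).1.2 ≤ (s k).1.2 / 2 ^ n := by
    intro k n
    induction n with
    | zero => simp
    | succ n ih =>
      rw [← add_assoc, hs, pow_succ, ← div_div]
      exact (hF1 _ _).trans (by gcongr)
  have hd : ∀ k n, dist (T.J ((s (k + n)).1.1 h)) (T.J ((s (k + (n + 1))).1.1 h)) ≤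
      (s k).1.2 / 2 / 2 ^ n := by
    intro k n
    rw [dist_comm, dist_eq_norm, ← map_sub, ← add_assoc, hs, div_right_comm]
    exact (hF2 _ _).trans (by gcongr; exact hr k n)
  obtain ⟨v, -, hv⟩ := hT.comp (fun n => (s n).1.1 h) 1 (fun n => Tr.norm_unit_le ((s n).2.1 h))
    (cauchySeq_of_le_geometric_two (C := (s 0).1.2) fun n => by simpa using hd 0 n)
  have hvu : v ∈ unitary A := hT.unit (fun n => (s n).2.1 h) hv
  have hv' : ∀ k, ‖T.J (v - (s k).1.1 h)‖ ≤ (s k).1.2 := fun k => by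
    have := dist_le_of_le_geometric_two_of_tendsto₀ (f := fun n => T.J ((s (k + n)).1.1 h)) (hd k)
      (hv.comp (tendsto_atTop_mono (fun n => Nat.le_add_left n k) tendsto_id))
    rwa [dist_comm, dist_eq_norm, ← map_sub] at this
  have hV : Un (Function.update U₀ h v ∘ e) := fun k => hU₀.update h hvu (e k)
  refine ⟨_, hV, fun w hw => ?_, fun x ε hε => ?_⟩
  · obtain ⟨L, hL, HL⟩ := pi_lip T (sg w)
    have h1 : Tendsto (fun n : ℕ => L * (1 / 2 ^ n)) atTop (𝓝 (L * 0)) := by
      refine Tendsto.const_mul _ ?_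
      simpa using tendsto_pow_atTop_nhds_zero_of_lt_one (r := (2⁻¹ : ℝ)) (by norm_num) (by norm_num)
    rw [mul_zero] at h1
    refine norm_le_zero_iff.1 (ge_of_tendsto' h1 fun n => ?_)
    have h2 := HL _ ((s n).1.1 ∘ e) hV (fun k => (s n).2.1 (e k)) (1 / 2 ^ n) (by positivity)
      fun j => by
        rw [Function.comp_apply, Function.comp_apply]
        by_cases hj : e j = h
        · rw [hj, Function.update_self]
          exact (hv' n).trans (by have := hr 0 n; rwa [zero_add] at this)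
        · rw [Function.update_of_ne hj, (s n).2.2.2.1 _ hj (hy j), sub_self, map_zero,
            norm_zero]; positivity
    have h3 := (T.norm_τ_le_J _).trans h2
    rwa [map_sub, pi_sg, pi_sg, ev_map (s n).2.1, (s n).2.2.1 _ fun e' =>
      hw (FreeGroup.map_injective he (by rw [e', map_one])), sub_zero] at h3
  · have key : ∀ z : GA ι, ∀ ε > 0, ∃ z', ‖T.J (pi U₀ z - pi (Function.update U₀ h v ∘ e) z')‖ ≤ ε := by
      intro z
      induction z using MonoidAlgebra.induction_linear with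
      | zero => exact fun ε hε => ⟨0, by simpa using hε.le⟩
      | add a b ha hb =>
        intro ε hε
        obtain ⟨a', ha⟩ := ha _ (half_pos hε)
        obtain ⟨b', hb⟩ := hb _ (half_pos hε)
        refine ⟨a' + b', ?_⟩
        rw [map_add, map_add, add_sub_add_comm, map_add]
        exact (norm_add_le _ _).trans (by linarith)
      | single w c =>
        intro ε hε
        obtain ⟨m, rfl⟩ := hf w
        obtain ⟨n, hn⟩ := exists_nat_gt (3 * ‖c‖ / ε)
        obtain ⟨z, hz⟩ := hF3 (Nat.pair m n) (s _) v hvu (hv' (Nat.pair m n + 1))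
        refine ⟨c • z, ?_⟩
        rw [Nat.unpair_pair] at hz
        rw [pi_single, map_smul, ← smul_sub, map_smul, norm_smul]
        refine (mul_le_mul_of_nonneg_left hz (norm_nonneg _)).trans ?_
        have : (n : ℝ) ≤ Nat.pair m n := by exact_mod_cast Nat.right_le_pair m n
        rw [div_lt_iff₀ hε] at hn
        rw [← mul_div_assoc, div_le_iff₀ (by positivity)]
        nlinarith
    obtain ⟨z, hz⟩ := hG x _ (half_pos hε)
    obtain ⟨z', hz'⟩ := key z _ (half_pos hε)
    refine ⟨z', ?_⟩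
    rw [← sub_add_sub_cancel _ (pi U₀ z), map_add]
    exact (norm_add_le _ _).trans (by linarith)

end Crest.Agent.H1VN
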