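import Crest.Agent.H1VN.Tower

/-! Second order jets, noise and a Lyapunov lemma. -/

set_option autoImplicit false

open Set Filter Topology NormedSpace
open scoped InnerProductSpace ComplexConjugate

noncomputable section

namespace Crest.Agent.H1VN

variable {A : Type*} [CStarAlgebra A] {T : Tr A}

def Jet (K : ℝ) (F : ℝ → A) (f₀ f₁ f₂ : A) : Prop :=
  ‖f₀‖ ≤ K ∧ ‖f₁‖ ≤ K ∧ ‖f₂‖ ≤ K ∧
    ∀ h ∈ Icc (0 : ℝ) 1, ‖F h - (f₀ + h • f₁ + h ^ 2 • f₂)‖ ≤ K * h ^ 3

lemma Jet.const {b : A} (hb : ‖b‖ ≤ 1) : Jet 1 (fun _ => b) b 0 0 :=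
  ⟨hb, by simp, by simp, fun h hh => by simpa using pow_nonneg hh.1 3⟩

lemma Jet.star {K : ℝ} {F : ℝ → A} {f₀ f₁ f₂ : A} (h : Jet K F f₀ f₁ f₂) :
    Jet K (fun t => star (F t)) (star f₀) (star f₁) (star f₂) :=
  ⟨by simpa using h.1, by simpa using h.2.1, by simpa using h.2.2.1, fun t ht => by
    have := h.2.2.2 t ht
    rw [← norm_star] at this
    simpa using this⟩

lemma Jet.mul {K L : ℝ} {F G : ℝ → A} {f₀ f₁ f₂ g₀ g₁ g₂ : A} (hF : Jet K F f₀ f₁ f₂)
    (hG : Jet L G g₀ g₁ g₂) : Jet (10 * K * L) (fun t => F t * G t) (f₀ * g₀) (f₁ * g₀ + f₀ * g₁)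
      (f₂ * g₀ + f₁ * g₁ + f₀ * g₂) := by
  obtain ⟨a0, a1, a2, a3⟩ := hF
  obtain ⟨b0, b1, b2, b3⟩ := hG
  have hK : 0 ≤ K := (norm_nonneg _).trans a0
  have hL : 0 ≤ L := (norm_nonneg _).trans b0
  have m : ∀ {x y : A} {a b : ℝ}, ‖x‖ ≤ a → ‖y‖ ≤ b → ‖x * y‖ ≤ a * b := fun h1 h2 =>
    (norm_mul_le _ _).trans (mul_le_mul h1 h2 (norm_nonneg _) ((norm_nonneg _).trans h1))
  have hKL := mul_nonneg hK hL
  refine ⟨by linarith [m a0 b0], (norm_add_le _ _).trans (by linarith [m a1 b0, m a0 b1]),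
    norm_add₃_le.trans (by linarith [m a2 b0, m a1 b1, m a0 b2]), fun h hh => ?_⟩
  have h3 : 0 ≤ h ^ 3 := pow_nonneg hh.1 3
  have h31 : h ^ 3 ≤ 1 := pow_le_one₀ hh.1 hh.2
  have n3 : ∀ {x y z : A} {a : ℝ}, ‖x‖ ≤ a → ‖y‖ ≤ a → ‖z‖ ≤ a → ‖x + h • y + h ^ 2 • z‖ ≤ 3 * a := by
    intro x y z a hx hy hz
    refine norm_add₃_le.trans ?_
    rw [norm_smul, norm_smul, Real.norm_of_nonneg hh.1, Real.norm_of_nonneg (sq_nonneg h)]
    have := mul_le_of_le_one_left (norm_nonneg y) hh.2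
    have := mul_le_of_le_one_left (norm_nonneg z) (pow_le_one₀ hh.1 hh.2 : h ^ 2 ≤ 1)
    linarith
  have hG : ‖G h‖ ≤ 4 * L := by
    have := norm_le_norm_add_norm_sub' (G h) (g₀ + h • g₁ + h ^ 2 • g₂)
    nlinarith [n3 b0 b1 b2, b3 h hh]
  have e : F h * G h - (f₀ * g₀ + h • (f₁ * g₀ + f₀ * g₁) + h ^ 2 • (f₂ * g₀ + f₁ * g₁ + f₀ * g₂)) =
      (F h - (f₀ + h • f₁ + h ^ 2 • f₂)) * G h + (f₀ + h • f₁ + h ^ 2 • f₂) *
        (G h - (g₀ + h • g₁ + h ^ 2 • g₂)) + h ^ 3 • (f₁ * g₂ + f₂ * g₁ + h • (f₂ * g₂)) := by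
    simp only [sub_mul, mul_sub, add_mul, mul_add, smul_mul_assoc, mul_smul_comm]
    module
  rw [e]
  refine norm_add₃_le.trans ?_
  have h4 : ‖f₁ * g₂ + f₂ * g₁ + h • (f₂ * g₂)‖ ≤ 3 * (K * L) := by
    refine norm_add₃_le.trans ?_
    rw [norm_smul, Real.norm_of_nonneg hh.1]
    have := mul_le_of_le_one_left (norm_nonneg (f₂ * g₂)) hh.2
    linarith [m a1 b2, m a2 b1, m a2 b2]
  rw [norm_smul, Real.norm_of_nonneg h3]
  nlinarith [m (a3 h hh) hG, m (n3 a0 a1 a2) (b3 h hh), mul_le_mul_of_nonneg_left h4 h3]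

lemma norm_le_of_deriv {G g : ℝ → A} (hG : ∀ t, HasDerivAt G (g t) t) (h0 : G 0 = 0) {C : ℝ}
    (hC : 0 ≤ C) (n : ℕ) (hg : ∀ t, 0 ≤ t → ‖g t‖ ≤ C * t ^ n) (t : ℝ) (ht : 0 ≤ t) :
    ‖G t‖ ≤ C * t ^ (n + 1) := by
  have := norm_image_sub_le_of_norm_deriv_le_segment' (a := 0) (b := t) (C := C * t ^ n)
    (fun x _ => (hG x).hasDerivWithinAt) (fun x hx => (hg x hx.1).trans (by
      have := hx.1; gcongr; exact hx.2.le)) t ⟨ht, le_rfl⟩
  rwa [h0, sub_zero, sub_zero, mul_assoc, ← pow_succ] at this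

lemma Jet.exp {a : A} (ha : Star.star a = a) (h2 : ‖a‖ ≤ 2) :
    Jet 8 (fun t => exp (t • Complex.I • a)) 1 (Complex.I • a) ((-1 / 2 : ℂ) • (a * a)) := by
  set x := Complex.I • a with hx
  have hxn : ‖x‖ ≤ 2 := by rwa [hx, norm_smul, Complex.norm_I, one_mul]
  have m : ∀ {y : A} {c : ℝ}, ‖y‖ ≤ c → ‖y * x‖ ≤ 2 * c := fun h1 =>
    (norm_mul_le _ _).trans (by nlinarith [norm_nonneg x, (norm_nonneg _).trans h1])
  have d0 := hasDerivAt_exp_smul_const (𝕂 := ℝ) x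
  have e1 := norm_le_of_deriv (fun t => (d0 t).sub_const 1) (by simp) (C := 2) (by norm_num) 0
    fun t _ => by simpa using m (Tr.norm_unit_le (exp_I_unit ha t))
  have e2 := norm_le_of_deriv (G := fun t => NormedSpace.exp (t • x) - 1 - t • x)
    (g := fun t => (NormedSpace.exp (t • x) - 1) * x)
    (fun t => (((d0 t).sub_const 1).sub ((hasDerivAt_id t).smul_const x)).congr_deriv
      (by simp [sub_mul])) (by simp) (C := 4) (by norm_num) 1
    fun t ht => (m (e1 t ht)).trans (by norm_num; linarith)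
  have e3 := norm_le_of_deriv
    (G := fun t => NormedSpace.exp (t • x) - 1 - t • x - (t ^ 2 / 2) • (x * x))
    (g := fun t => (NormedSpace.exp (t • x) - 1 - t • x) * x)
    (fun t => ((((d0 t).sub_const 1).sub ((hasDerivAt_id t).smul_const x)).sub
      (((hasDerivAt_pow 2 t).div_const 2).smul_const (x * x))).congr_deriv
      (by simp [sub_mul])) (by simp) (C := 8) (by norm_num) 2
    fun t ht => (m (e2 t ht)).trans (by norm_num; linarith)
  refine ⟨(Tr.norm_unit_le (one_mem _)).trans (by norm_num), by linarith, ?_, fun t ht => ?_⟩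
  · rw [norm_smul]
    have := norm_mul_le a a
    norm_num; nlinarith [norm_nonneg a]
  · refine le_of_eq_of_le ?_ (e3 t ht.1)
    congr 1
    rw [hx, smul_mul_smul_comm, Complex.I_mul_I, ← Complex.coe_smul (t ^ 2 / 2),
      ← Complex.coe_smul (t ^ 2)]
    push_cast; module

theorem exists_noise {P : StarSubalgebra ℂ A} (h1 : AV T P) (h2 : WN T P) :
    ∃ l : Filter (Av A), l.NeBot ∧ (∀ᶠ ν in l, ν.All fun a => a ∈ P ∧ star a = a ∧ ‖a‖ ≤ 2) ∧
      (∀ C, ∀ η > 0, ∀ᶠ ν in l, ν.All fun a => ‖T.τ (a * C)‖ ≤ η) ∧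
      ∀ X Y, Tendsto (fun ν : Av A => ν.E fun a => T.τ (X * a * Y * a)) l
        (𝓝 (2 * (T.τ X * T.τ Y))) := by
  obtain ⟨l, hl, hl1, hl2⟩ := h1
  obtain ⟨r, hr, hr'⟩ := h2
  let φ : Av A × ℕ → Av A := fun p => p.1.bind fun s =>
    .mid (.pt (r p.2 * s + star (r p.2 * s))) (.pt (Complex.I • (r p.2 * s - star (r p.2 * s))))
  have hf : Tendsto Prod.fst (l.curry (atTop : Filter ℕ)) l := tendsto_fst.mono_left curry_le_prod
  have hne : (l.curry (atTop : Filter ℕ)).NeBot := ⟨fun h => by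
    have : ∀ᶠ x in l.curry (atTop : Filter ℕ), False := h ▸ eventually_bot
    rw [eventually_curry_iff] at this
    obtain ⟨_, h1⟩ := this.exists
    exact h1.exists.elim fun _ h => h⟩
  refine ⟨map φ (l.curry atTop), inferInstance, ?_, fun C η hη => ?_, fun X Y => ?_⟩
  · rw [eventually_map]
    refine (hf.eventually hl1).mono fun p hp => Av.All.bind (hp.mono fun s hs => ?_)
    have h3 := (hr p.2).mul hs
    have h4 := Tr.norm_unit_le h3.1
    refine ⟨⟨add_mem h3.2 (star_mem h3.2), by simp [add_comm],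
      (norm_add_le _ _).trans (by rw [norm_star]; linarith)⟩,
      P.smul_mem (sub_mem h3.2 (star_mem h3.2)) _, by simp [smul_sub, sub_eq_neg_add, add_comm], ?_⟩
    rw [norm_smul, Complex.norm_I, one_mul]
    exact (norm_sub_le _ _).trans (by rw [norm_star]; linarith)
  · rw [eventually_map, eventually_curry_iff]
    refine Eventually.of_forall fun μ => ?_
    have h3 : ∀ C, ∀ᶠ n in atTop, ‖T.τ (r n * C)‖ ≤ η / 2 := fun C =>
      (hr' C).norm.eventually (ge_mem_nhds (by simpa))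
    refine (Av.eventually_all (fun s => (h3 (s * C)).and (h3 (s * star C))) μ).mono fun n hn =>
      Av.All.bind (hn.mono fun s hs => ?_)
    have h4 : ‖T.τ (star (r n * s) * C)‖ ≤ η / 2 := by
      rw [← star_star C, ← star_mul, T.star, Complex.norm_conj, T.tr, mul_assoc]; exact hs.2
    rw [← mul_assoc] at hs
    refine ⟨?_, ?_⟩
    · change ‖T.τ (_ * C)‖ ≤ η
      rw [add_mul, map_add]; exact (norm_add_le _ _).trans (by linarith [hs.1])
    · change ‖T.τ (_ * C)‖ ≤ η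
      rw [smul_mul_assoc, map_smul, norm_smul, Complex.norm_I, one_mul, sub_mul, map_sub]
      exact (norm_sub_le _ _).trans (by linarith [hs.1])
  · rw [tendsto_map'_iff, tendsto_iff_norm_sub_tendsto_zero]
    have h3 := ((hl2 Y).const_mul ‖X‖).add ((hl2 X).const_mul ‖Y‖)
    rw [mul_zero, mul_zero, add_zero] at h3
    refine squeeze_zero (fun _ => norm_nonneg _) (fun p => ?_) (h3.comp hf)
    have hu := Unitary.star_mem (hr p.2).1
    have e : (φ p).E (fun a => T.τ (X * a * Y * a)) =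
        T.τ (avg (.pt (star (r p.2))) X * avg p.1 Y) +
          T.τ (avg (.pt (star (r p.2))) Y * avg p.1 X) := by
      rw [τ_mul_avg, τ_mul_avg, ← Av.E_add, Av.E_bind]
      congr 1
      ext s
      have e1 : ∀ X Y, T.τ (avg (.pt (star (r p.2))) X * (s * Y * star s)) =
          T.τ (X * (r p.2 * s) * Y * star (r p.2 * s)) := fun X Y => by
        simp only [avg, Av.E, star_star, star_mul, mul_assoc]
        rw [T.tr]; simp only [mul_assoc]
      have e2 : T.τ (Y * (r p.2 * s) * X * star (r p.2 * s)) =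
          T.τ (X * star (r p.2 * s) * Y * (r p.2 * s)) := by
        rw [mul_assoc, T.tr]; simp only [mul_assoc]
      rw [e1, e1, e2]
      generalize r p.2 * s = t
      simp only [Av.E, mul_add, add_mul, mul_sub, sub_mul, smul_sub, mul_smul_comm, smul_mul_assoc,
        map_add, map_sub, map_smul, smul_eq_mul, Complex.real_smul]
      push_cast
      linear_combination (1 / 2 * (T.τ (X * t * Y * t) - T.τ (X * star t * Y * t) -
        T.τ (X * t * Y * star t) + T.τ (X * star t * Y * star t))) * Complex.I_mul_I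
    have hu' : (Av.pt (star (r p.2))).All (UP ⊤) := ⟨hu, trivial⟩
    have h4 := τ_avg_err T p.1 (avg (.pt (star (r p.2))) X) Y
    have h5 := τ_avg_err T p.1 (avg (.pt (star (r p.2))) Y) X
    rw [τ_avg hu'] at h4 h5
    rw [Function.comp_apply, e, two_mul, add_sub_add_comm]
    refine (norm_add_le _ _).trans (add_le_add (h4.trans ?_) ((mul_comm (T.τ X) _ ▸ h5).trans ?_))
    · gcongr; exact norm_avg_le hu' _
    · gcongr; exact norm_avg_le hu' _

lemma lyap {X I : Type*} (Q : X → Prop) (x₀ : X) (hx₀ : Q x₀) (s : Finset I) (rk : I → ℕ)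
    (f : X → I → ℝ) (hf : ∀ x w, 0 ≤ f x w) {D C : ℝ} (hD : 0 ≤ D) (hC : 0 ≤ C)
    (h : ∀ x, Q x → ∀ t : ℝ, 0 < t → t ≤ 1 → ∃ ν : Av X, ν.All Q ∧ ∀ w ∈ s, ν.E (f · w) ≤
      f x w * (1 - t ^ 2) + D * t ^ 2 * (∑ w' ∈ s with rk w' < rk w, f x w') + C * t ^ 3)
    {η : ℝ} (hη : 0 < η) : ∃ x, Q x ∧ ∀ w ∈ s, f x w ≤ η := by
  obtain ⟨c, hc0, hc1, hc⟩ : ∃ c : ℝ, 0 < c ∧ c ≤ 1 ∧ s.card * D * c ≤ 1 / 2 := by
    have : (0 : ℝ) ≤ s.card * D := by positivity
    refine ⟨1 / (2 * (s.card * D + 1)), by positivity, ?_, ?_⟩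
    · rw [div_le_one (by positivity)]; linarith
    · rw [mul_one_div, div_le_iff₀ (by positivity)]; linarith
  let V : X → ℝ := fun x => ∑ w ∈ s, c ^ rk w * f x w
  have hV0 : ∀ x, 0 ≤ V x := fun x => Finset.sum_nonneg fun w _ => mul_nonneg (by positivity) (hf x w)
  have step : ∀ x, Q x → ∀ t : ℝ, 0 < t → t ≤ 1 →
      ∃ y, Q y ∧ V y ≤ V x * (1 - t ^ 2 / 2) + s.card * C * t ^ 3 := by
    intro x hx t ht ht1
    obtain ⟨ν, hν, h1⟩ := h x hx t ht ht1
    obtain ⟨y, hy, h2⟩ := Av.exists_le hν V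
    refine ⟨y, hy, h2.trans ?_⟩
    have h3 : ∀ w ∈ s, ν.E (fun y => c ^ rk w * f y w) ≤
        c ^ rk w * f x w * (1 - t ^ 2) + D * c * V x * t ^ 2 + C * t ^ 3 := by
      intro w hw
      have e := Av.E_map (LinearMap.mul ℝ ℝ (c ^ rk w)) ν (f · w)
      simp only [LinearMap.mul_apply'] at e
      rw [← e]
      refine (mul_le_mul_of_nonneg_left (h1 w hw) (by positivity)).trans ?_
      have h4 : c ^ rk w * ∑ w' ∈ s with rk w' < rk w, f x w' ≤ c * V x := by
        rw [Finset.mul_sum, Finset.mul_sum]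
        refine (Finset.sum_le_sum fun w' hw' => ?_).trans (Finset.sum_le_sum_of_subset_of_nonneg
          (Finset.filter_subset _ _) fun w' _ _ => mul_nonneg hc0.le
            (mul_nonneg (by positivity) (hf x w')))
        rw [← mul_assoc, ← pow_succ']
        exact mul_le_mul_of_nonneg_right
          (pow_le_pow_of_le_one hc0.le hc1 (Finset.mem_filter.1 hw').2) (hf x w')
      have h5 : c ^ rk w * (C * t ^ 3) ≤ C * t ^ 3 :=
        mul_le_of_le_one_left (by positivity) (pow_le_one₀ hc0.le hc1)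
      nlinarith [mul_le_mul_of_nonneg_left h4 (by positivity : 0 ≤ D * t ^ 2)]
    rw [Av.E_sum]
    refine (Finset.sum_le_sum h3).trans ?_
    rw [Finset.sum_add_distrib, Finset.sum_add_distrib, ← Finset.sum_mul, Finset.sum_const,
      Finset.sum_const, nsmul_eq_mul, nsmul_eq_mul]
    nlinarith [mul_le_mul_of_nonneg_right hc (mul_nonneg (hV0 x) (sq_nonneg t))]
  have hb : BddBelow (V '' {x | Q x}) := ⟨0, by rintro _ ⟨x, -, rfl⟩; exact hV0 x⟩
  have hne : (V '' {x | Q x}).Nonempty := ⟨_, x₀, hx₀, rfl⟩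
  set m := sInf (V '' {x | Q x}) with hm
  have h1 : ∀ t : ℝ, 0 < t → t ≤ 1 → m ≤ 2 * s.card * C * t := by
    intro t ht ht1
    have h2 : 0 < 1 - t ^ 2 / 2 := by nlinarith
    have h3 : (m - s.card * C * t ^ 3) / (1 - t ^ 2 / 2) ≤ m := le_csInf hne (by
      rintro _ ⟨x, hx, rfl⟩
      obtain ⟨y, hy, h4⟩ := step x hx t ht ht1
      rw [div_le_iff₀ h2]
      linarith [csInf_le hb ⟨y, hy, rfl⟩])
    rw [div_le_iff₀ h2] at h3
    have h4 : t ^ 2 * m ≤ t ^ 2 * (2 * s.card * C * t) := by nlinarith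
    exact le_of_mul_le_mul_left h4 (by positivity)
  have h2 : m < η * c ^ s.sup rk := by
    have hp : 0 < η * c ^ s.sup rk := by positivity
    have h3 := h1 (min 1 (η * c ^ s.sup rk / (2 * s.card * C + 1))) (by positivity) (min_le_left _ _)
    have h4 := min_le_right 1 (η * c ^ s.sup rk / (2 * s.card * C + 1))
    rw [le_div_iff₀ (by positivity)] at h4
    have : 0 < min 1 (η * c ^ s.sup rk / (2 * s.card * C + 1)) := by positivity
    linarith
  obtain ⟨_, ⟨x, hx, rfl⟩, h3⟩ := exists_lt_of_csInf_lt hne h2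
  refine ⟨x, hx, fun w hw => ?_⟩
  have h4 : c ^ rk w * f x w ≤ V x := Finset.single_le_sum (f := fun w => c ^ rk w * f x w)
    (fun w _ => mul_nonneg (by positivity) (hf x w)) hw
  have h5 : c ^ s.sup rk ≤ c ^ rk w := pow_le_pow_of_le_one hc0.le hc1 (Finset.le_sup hw)
  refine le_of_mul_le_mul_left ?_ (pow_pos hc0 (rk w))
  nlinarith

end Crest.Agent.H1VN
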