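import Crest.Agent.H1VN.Key1

/-! Asymptotically free unitaries in an irreducible diffuse subalgebra. -/

set_option autoImplicit false

open Set Filter Topology NormedSpace
open scoped InnerProductSpace ComplexConjugate

noncomputable section

namespace Crest.Agent.H1VN

variable {A : Type*} [CStarAlgebra A] {T : Tr A}

def lt (q : A) (x : Bool × A) : A := (bif x.1 then q else star q) * x.2

def pat (q : A) : List (Bool × A) → A
  | [] => 1
  | x :: l => lt q x * pat q l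

lemma pat_append (q : A) (l m : List (Bool × A)) : pat q (l ++ m) = pat q l * pat q m := by
  induction l with
  | nil => simp [pat]
  | cons x l ih => simp [pat, ih, mul_assoc]

def Valid (T : Tr A) (l : List (Bool × A)) : Prop :=
  l.IsChain fun x y => x.1 ≠ y.1 → T.τ x.2 = 0

def l1 (q a : A) (x : Bool × A) : A :=
  bif x.1 then Complex.I • (q * a * x.2) else -Complex.I • (a * (star q * x.2))

def l2 (q a : A) (x : Bool × A) : A :=
  bif x.1 then (-1 / 2 : ℂ) • (q * a * a * x.2) else (-1 / 2 : ℂ) • (a * a * (star q * x.2))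

def D1 (q a : A) : List (Bool × A) → A
  | [] => 0
  | x :: l => l1 q a x * pat q l + lt q x * D1 q a l

def D2 (q a : A) : List (Bool × A) → A
  | [] => 0
  | x :: l => l2 q a x * pat q l + l1 q a x * D1 q a l + lt q x * D2 q a l

lemma jet_lt {q a : A} (hq : q ∈ unitary A) (ha : star a = a) (h2 : ‖a‖ ≤ 2) {x : Bool × A}
    (hx : ‖x.2‖ ≤ 1) : Jet 800 (fun t => lt (q * exp (t • Complex.I • a)) x) (lt q x) (l1 q a x)
      (l2 q a x) := by
  obtain ⟨b, x⟩ := x
  have h1 := (Jet.const (Tr.norm_unit_le hq)).mul (Jet.exp ha h2)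
  cases b
  · have := h1.star.mul (Jet.const hx)
    norm_num at this
    simpa [lt, l1, l2, ha, mul_assoc, neg_div] using this
  · have := h1.mul (Jet.const hx)
    norm_num at this
    simpa [lt, l1, l2, ha, mul_assoc, neg_div] using this

lemma jet_pat {q a : A} (hq : q ∈ unitary A) (ha : star a = a) (h2 : ‖a‖ ≤ 2)
    (l : List (Bool × A)) (hl : ∀ x ∈ l, ‖x.2‖ ≤ 1) :
    Jet (8000 ^ l.length) (fun t => pat (q * exp (t • Complex.I • a)) l) (pat q l) (D1 q a l)
      (D2 q a l) := by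
  induction l with
  | nil => simpa [pat, D1, D2] using Jet.const (Tr.norm_unit_le (one_mem (unitary A)))
  | cons x l ih =>
    have := (jet_lt hq ha h2 (hl x (by simp))).mul (ih fun y hy => hl y (by simp [hy]))
    rw [List.length_cons, pow_succ', show (8000 : ℝ) = 10 * 800 by norm_num]
    rw [show (8000 : ℝ) = 10 * 800 by norm_num] at this
    exact this

lemma norm_lt_le {q : A} (hq : q ∈ unitary A) {x : Bool × A} (hx : ‖x.2‖ ≤ 1) : ‖lt q x‖ ≤ 1 := by
  refine (norm_mul_le _ _).trans (mul_le_one₀ ?_ (norm_nonneg _) hx)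
  cases x.1
  · exact Tr.norm_unit_le (Unitary.star_mem hq)
  · exact Tr.norm_unit_le hq

lemma norm_pat_le {q : A} (hq : q ∈ unitary A) (l : List (Bool × A)) (hl : ∀ x ∈ l, ‖x.2‖ ≤ 1) :
    ‖pat q l‖ ≤ 1 := by
  induction l with
  | nil => exact Tr.norm_unit_le (one_mem _)
  | cons x l ih =>
    exact (norm_mul_le _ _).trans (mul_le_one₀ (norm_lt_le hq (hl x (by simp))) (norm_nonneg _)
      (ih fun y hy => hl y (by simp [hy])))

lemma D1_lin (T : Tr A) (q : A) (l : List (Bool × A)) (B : A) :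
    ∃ C, ∀ a, T.τ (B * D1 q a l) = T.τ (a * C) := by
  induction l generalizing B with
  | nil => exact ⟨0, by simp [D1]⟩
  | cons x l ih =>
    obtain ⟨C, hC⟩ := ih (B * lt q x)
    obtain ⟨b, x⟩ := x
    cases b
    · refine ⟨-Complex.I • (star q * x * pat q l * B) + C, fun a => ?_⟩
      rw [D1, mul_add, map_add, ← mul_assoc B (lt _ _), hC, mul_add, map_add, T.tr B]
      simp [l1, mul_assoc]
    · refine ⟨Complex.I • (x * pat q l * (B * q)) + C, fun a => ?_⟩
      rw [D1, mul_add, map_add, ← mul_assoc B (lt _ _), hC, mul_add, map_add]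
      simp only [l1, cond_true, smul_mul_assoc, mul_smul_comm, map_smul]
      rw [← mul_assoc a, T.tr _ (B * q)]; simp only [mul_assoc]

section
variable {l₀ : Filter (Av A)}
  (hN : ∀ X Y, Tendsto (fun ν : Av A => ν.E fun a => T.τ (X * a * Y * a)) l₀
    (𝓝 (2 * (T.τ X * T.τ Y)))) {q : A} (hq : q ∈ unitary A) {S : ℝ}
include hN

lemma noise_tendsto (c : ℂ) (L Y R : A) :
    Tendsto (fun ν : Av A => ν.E fun a => c * T.τ (L * a * Y * a * R)) l₀
      (𝓝 (c * (2 * (T.τ (R * L) * T.τ Y)))) := by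
  refine ((hN (R * L) Y).const_mul c).congr fun ν => ?_
  have := Av.E_mapC (LinearMap.mul ℂ ℂ c) ν fun a => T.τ (R * L * a * Y * a)
  simp only [LinearMap.mul_apply'] at this
  rw [this]
  congr 1; ext a; rw [T.tr _ R]; simp only [mul_assoc]

include hq

lemma cross (l : List (Bool × A)) (hl : ∀ x ∈ l, ‖x.2‖ ≤ 1) {L : A} (hL : ‖L‖ ≤ 1) (Y : A)
    (H : ∀ m y n, l = m ++ y :: n → ‖T.τ (Y * pat q m * bif y.1 then q else 1)‖ ≤ S) :
    ∃ G, Tendsto (fun ν : Av A => ν.E fun a => T.τ (L * a * Y * D1 q a l)) l₀ (𝓝 G) ∧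
      ‖G‖ ≤ 2 * l.length * S := by
  induction l generalizing Y with
  | nil => exact ⟨0, by simpa [D1, Av.E_const] using tendsto_const_nhds, by simp⟩
  | cons y l ih =>
    have hl' : ∀ x ∈ l, ‖x.2‖ ≤ 1 := fun x hx => hl x (by simp [hx])
    obtain ⟨G, h1, h2⟩ := ih hl' (Y * lt q y) fun m z n e => by
      simpa only [pat, mul_assoc] using H (y :: m) z n (by simp [e])
    have h3 := H [] y l rfl
    have h4 := norm_pat_le hq (y :: l) hl
    have h5 : ‖y.2 * pat q l‖ ≤ 1 := (norm_mul_le _ _).trans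
      (mul_le_one₀ (hl y (by simp)) (norm_nonneg _) (norm_pat_le hq l hl'))
    have key : ∀ (c : ℂ) (R Y' : A), ‖c‖ = 1 → ‖R‖ ≤ 1 → ‖T.τ Y'‖ ≤ S →
        ‖c * (2 * (T.τ (R * L) * T.τ Y')) + G‖ ≤ 2 * (y :: l).length * S := by
      intro c R Y' hc hR hY
      have := (T.norm_τ_le (R * L)).trans ((norm_mul_le _ _).trans (mul_le_one₀ hR (norm_nonneg _) hL))
      refine (norm_add_le _ _).trans ?_
      rw [norm_mul, norm_mul, norm_mul, hc, List.length_cons]
      have := mul_le_mul this hY (norm_nonneg _) zero_le_one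
      push_cast; norm_num; linarith
    obtain ⟨b, y⟩ := y
    cases b
    · refine ⟨_, ((noise_tendsto hN (-Complex.I) L Y (pat q ((false, y) :: l))).add h1).congr
        fun ν => ?_, key _ _ _ (by simp) h4 (by simpa [pat] using h3)⟩
      rw [← Av.E_add]; congr 1; ext a
      simp [D1, l1, pat, lt, mul_add, mul_assoc]
    · refine ⟨_, ((noise_tendsto hN Complex.I L (Y * q) (y * pat q l)).add h1).congr
        fun ν => ?_, key _ _ _ (by simp) h5 (by simpa [pat] using h3)⟩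
      rw [← Av.E_add]; congr 1; ext a
      simp [D1, l1, mul_add, mul_assoc]

lemma drift (hS : 0 ≤ S) (l : List (Bool × A)) (hl : ∀ x ∈ l, ‖x.2‖ ≤ 1) {B : A} (hB : ‖B‖ ≤ 1)
    (H : ∀ pre x m y n, l = pre ++ x :: (m ++ y :: n) →
      ‖T.τ ((bif x.1 then x.2 else star q * x.2) * pat q m * bif y.1 then q else 1)‖ ≤ S) :
    ∃ G, Tendsto (fun ν : Av A => ν.E fun a => T.τ (B * D2 q a l)) l₀ (𝓝 G) ∧
      ‖G + l.length * T.τ (B * pat q l)‖ ≤ 2 * l.length ^ 2 * S := by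
  induction l generalizing B with
  | nil => exact ⟨0, by simpa [D2, Av.E_const] using tendsto_const_nhds, by simp⟩
  | cons x l ih =>
    have hl' : ∀ x ∈ l, ‖x.2‖ ≤ 1 := fun x hx => hl x (by simp [hx])
    obtain ⟨G, h1, h2⟩ := ih hl' (B := B * lt q x) ((norm_mul_le _ _).trans
      (mul_le_one₀ hB (norm_nonneg _) (norm_lt_le hq (hl x (by simp)))))
      fun pre z m y n e => H (x :: pre) z m y n (by simp [e])
    have key : ∀ (c G' Φ : ℂ), ‖c‖ = 1 → ‖G'‖ ≤ 2 * l.length * S → Φ = T.τ (B * pat q (x :: l)) →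
        ‖-1 / 2 * (2 * (Φ * T.τ 1)) + c * G' + G + (x :: l).length * T.τ (B * pat q (x :: l))‖ ≤
          2 * (x :: l).length ^ 2 * S := by
      intro c G' Φ hc hG hΦ
      rw [mul_assoc, ← pat] at h2
      rw [hΦ, T.one, List.length_cons]
      push_cast
      rw [show ∀ Φ : ℂ, -1 / 2 * (2 * (Φ * 1)) + c * G' + G + (l.length + 1) * Φ =
        c * G' + (G + l.length * Φ) from fun Φ => by ring]
      refine (norm_add_le _ _).trans ?_
      rw [norm_mul, hc]
      nlinarith [mul_nonneg (l.length.cast_nonneg (α := ℝ)) hS]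
    have hE : ∀ (c : ℂ) (f : A → ℂ) (ν : Av A), c * ν.E f = ν.E fun a => c * f a := fun c f ν =>
      Av.E_mapC (LinearMap.mul ℂ ℂ c) ν f
    obtain ⟨b, x⟩ := x
    cases b
    · obtain ⟨G', h3, h4⟩ := cross hN hq l hl' hB (star q * x) fun m y n e =>
        H [] (false, x) m y n (by simp [e])
      refine ⟨_, (((noise_tendsto hN (-1 / 2) B 1 (pat q ((false, x) :: l))).add
        (h3.const_mul (-Complex.I))).add h1).congr fun ν => ?_, key _ _ _ (by simp) h4 (T.tr _ _)⟩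
      rw [hE, ← Av.E_add, ← Av.E_add]; congr 1; ext a
      simp [D2, l1, l2, pat, lt, mul_add, mul_assoc]
    · obtain ⟨G', h3, h4⟩ := cross hN hq l hl' (L := B * q) ((norm_mul_le _ _).trans
        (mul_le_one₀ hB (norm_nonneg _) (Tr.norm_unit_le hq))) x fun m y n e =>
        H [] (true, x) m y n (by simp [e])
      refine ⟨_, (((noise_tendsto hN (-1 / 2) (B * q) 1 (x * pat q l)).add
        (h3.const_mul Complex.I)).add h1).congr fun ν => ?_, key _ _ _ (by simp) h4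
          (by rw [T.tr]; simp [pat, lt, mul_assoc])⟩
      rw [hE, ← Av.E_add, ← Av.E_add]; congr 1; ext a
      simp [D2, l1, l2, mul_add, mul_assoc]

end

lemma sub_bound {q : A} (hq : q ∈ unitary A) {F : Set A} (h1 : (1 : A) ∈ F) {S : ℝ} (hS : 0 ≤ S)
    {l : List (Bool × A)} (hF : ∀ x ∈ l, x.2 ∈ F) (hv : Valid T l)
    (H : ∀ B ∈ F, ∀ m : List (Bool × A), (∀ x ∈ m, x.2 ∈ F) → Valid T m → m ≠ [] →
      m.length < l.length → ‖T.τ (B * pat q m)‖ ≤ S)
    (pre : List (Bool × A)) (x : Bool × A) (m : List (Bool × A)) (y : Bool × A)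
    (n : List (Bool × A)) (e : l = pre ++ x :: (m ++ y :: n)) :
    ‖T.τ ((bif x.1 then x.2 else star q * x.2) * pat q m * bif y.1 then q else 1)‖ ≤ S := by
  subst e
  have v1 : Valid T (x :: (m ++ y :: n)) := List.IsChain.right_of_append hv
  have v2 : Valid T (m ++ y :: n) := List.IsChain.tail v1
  have hx : x.2 ∈ F := hF x (by simp)
  have hm : ∀ z ∈ m, z.2 ∈ F := fun z hz => hF z (by simp [hz])
  have key : x.1 ≠ y.1 → ‖T.τ (x.2 * pat q m)‖ ≤ S := fun hxy => by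
    rcases eq_or_ne m [] with rfl | hm0
    · have := (List.isChain_cons_cons.1 v1).1 hxy
      simpa [pat, this] using hS
    · exact H _ hx m hm (List.IsChain.left_of_append v2) hm0 (by simp; omega)
  obtain ⟨b, x⟩ := x
  obtain ⟨c, y⟩ := y
  cases b <;> cases c
  · simpa [pat, lt] using H 1 h1 ((false, x) :: m) (List.forall_mem_cons.2 ⟨hx, hm⟩)
      (List.IsChain.left_of_append (l₂ := (false, y) :: n) v1) (by simp) (by simp; omega)
  · have := key (by simp)
    simp only [cond_true, cond_false]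
    rwa [T.tr, ← mul_assoc, ← mul_assoc, hq.2, one_mul]
  · simpa using key (by simp)
  · have v3 : Valid T (m ++ [(true, 1)]) := by
      have := List.isChain_append.1 v2
      exact List.isChain_append.2 ⟨this.1, by simp, by simpa using this.2.2⟩
    simpa [pat_append, pat, lt, mul_assoc] using H x hx (m ++ [(true, 1)])
      (by simpa [or_imp, forall_and, h1] using hm) v3 (by simp) (by simp; omega)

lemma sq_est {Φ d₁ d₂ Φ' : ℂ} {t K : ℝ} (ht : 0 < t) (ht1 : t ≤ 1) (hΦ : ‖Φ‖ ≤ 1)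
    (h1 : ‖d₁‖ ≤ t ^ 2) (h2 : ‖d₂‖ ≤ K) (h3 : ‖Φ' - (Φ + t • d₁ + t ^ 2 • d₂)‖ ≤ K * t ^ 3) :
    ‖Φ'‖ ^ 2 ≤ ‖Φ‖ ^ 2 + 2 * t ^ 2 * (conj Φ * d₂).re + (2 * (1 + K) + (2 * K + 1) ^ 2) * t ^ 3 := by
  have hK : 0 ≤ K := (norm_nonneg _).trans h2
  set δ := Φ' - (Φ + t ^ 2 • d₂) with hδ
  have h4 : ‖δ‖ ≤ (1 + K) * t ^ 3 := by
    have : δ = (Φ' - (Φ + t • d₁ + t ^ 2 • d₂)) + t • d₁ := by rw [hδ]; abel
    rw [this]
    refine (norm_add_le _ _).trans ?_
    rw [norm_smul, Real.norm_of_nonneg ht.le]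
    nlinarith [mul_le_mul_of_nonneg_left h1 ht.le]
  have h5 : ‖t ^ 2 • d₂ + δ‖ ≤ (2 * K + 1) * t ^ 2 := by
    refine (norm_add_le _ _).trans ?_
    rw [norm_smul, Real.norm_of_nonneg (sq_nonneg t)]
    have : t ^ 3 ≤ t ^ 2 := pow_le_pow_of_le_one ht.le ht1 (by norm_num)
    nlinarith [mul_le_mul_of_nonneg_left h2 (sq_nonneg t)]
  have e : Φ' = Φ + (t ^ 2 • d₂ + δ) := by rw [hδ]; abel
  have h6 : (conj Φ * δ).re ≤ (1 + K) * t ^ 3 := (Complex.re_le_norm _).trans (by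
    rw [norm_mul, Complex.norm_conj]; nlinarith [norm_nonneg δ])
  have h7 : ‖t ^ 2 • d₂ + δ‖ ^ 2 ≤ (2 * K + 1) ^ 2 * t ^ 3 := by
    have : t ^ 4 ≤ t ^ 3 := pow_le_pow_of_le_one ht.le ht1 (by norm_num)
    calc _ ≤ ((2 * K + 1) * t ^ 2) ^ 2 := by gcongr
      _ = (2 * K + 1) ^ 2 * t ^ 4 := by ring
      _ ≤ _ := by gcongr
  rw [e, norm_add_sq (𝕜 := ℂ), RCLike.inner_apply', mul_add, mul_smul_comm, map_add,
    RCLike.re_to_complex, RCLike.re_to_complex, Complex.smul_re, smul_eq_mul]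
  linarith

theorem key_fin {P : StarSubalgebra ℂ A} (hP : IsClosed (P : Set A)) (h1 : AV T P) (h2 : WN T P)
    {v : A} (hv : v ∈ unitary A) {F : Set A} (hF : F.Finite) (hF1 : (1 : A) ∈ F)
    (hFn : ∀ b ∈ F, ‖b‖ ≤ 1) (R : ℕ) {η : ℝ} (hη : 0 < η) :
    ∃ p, UP P p ∧ ∀ B ∈ F, ∀ l : List (Bool × A), (∀ x ∈ l, x.2 ∈ F) → Valid T l → l ≠ [] →
      l.length ≤ R → ‖T.τ (B * pat (v * p) l)‖ ≤ η := by
  let +nondep : NormedAlgebra ℚ A := .restrictScalars ℚ ℂ A
  obtain ⟨l₀, hl₀, n1, n2, n3⟩ := exists_noise h1 h2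
  have hI : {w : A × List (Bool × A) | w.1 ∈ F ∧ (∀ x ∈ w.2, x.2 ∈ F) ∧ Valid T w.2 ∧ w.2 ≠ [] ∧
      w.2.length ≤ R}.Finite := by
    have : Finite {x : Bool × A // x.2 ∈ F} :=
      ((Set.finite_univ (α := Bool)).prod hF).subset (t := {x : Bool × A | x.2 ∈ F})
        fun x hx => ⟨trivial, hx⟩
    refine (hF.prod ((List.finite_length_le {x : Bool × A // x.2 ∈ F} R).image
      (List.map Subtype.val))).subset fun w hw => ⟨hw.1, w.2.attachWith _ hw.2.1, ?_, ?_⟩
    · simpa using hw.2.2.2.2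
    · exact List.attachWith_map_subtype_val _
  obtain ⟨p, hp, H⟩ := lyap (UP P) 1 ⟨one_mem _, one_mem _⟩ hI.toFinset (fun w => w.2.length)
    (fun p w => ‖T.τ (w.1 * pat (v * p) w.2)‖ ^ 2) (fun _ _ => sq_nonneg _) (D := 4 * R ^ 4)
    (C := (2 * (1 + 10 * 8000 ^ R) + (2 * (10 * 8000 ^ R) + 1) ^ 2) + 2) (by positivity)
    (by positivity) (fun p hp t ht ht1 => by
      have hq := mul_mem hv hp.1
      have : ∀ w ∈ hI.toFinset, ∀ᶠ ν in l₀, ν.E (fun a => ‖T.τ (w.1 * pat (v * (p *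
          exp (t • Complex.I • a))) w.2)‖ ^ 2) ≤ ‖T.τ (w.1 * pat (v * p) w.2)‖ ^ 2 * (1 - t ^ 2) +
          4 * R ^ 4 * t ^ 2 * (∑ w' ∈ hI.toFinset with w'.2.length < w.2.length,
            ‖T.τ (w'.1 * pat (v * p) w'.2)‖ ^ 2) +
          ((2 * (1 + 10 * 8000 ^ R) + (2 * (10 * 8000 ^ R) + 1) ^ 2) + 2) * t ^ 3 := by
        rintro ⟨B, l⟩ hw
        obtain ⟨hB, hl, hlv, hl0, hlR⟩ := hI.mem_toFinset.1 hw
        simp only at hB hl hlv hl0 hlR ⊢
        simp only [← mul_assoc v]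
        generalize v * p = q at *
        set S2 := ∑ w' ∈ hI.toFinset with w'.2.length < l.length, ‖T.τ (w'.1 * pat q w'.2)‖ ^ 2
        have hS2 : 0 ≤ S2 := by positivity
        have hl1 : ∀ x ∈ l, ‖x.2‖ ≤ 1 := fun x hx => hFn _ (hl x hx)
        obtain ⟨G, g1, g2⟩ := drift n3 hq (Real.sqrt_nonneg S2) l hl1 (hFn B hB)
          (sub_bound hq hF1 (Real.sqrt_nonneg S2) hl hlv fun B' hB' m hm hmv hm0 hml =>
            Real.le_sqrt_of_sq_le (Finset.single_le_sum
              (f := fun w' : A × List (Bool × A) => ‖T.τ (w'.1 * pat q w'.2)‖ ^ 2)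
              (fun _ _ => sq_nonneg _) (a := (B', m)) (Finset.mem_filter.2
                ⟨hI.mem_toFinset.2 ⟨hB', hm, hmv, hm0, hml.le.trans hlR⟩, hml⟩)))
        obtain ⟨C, hC⟩ := D1_lin T q l B
        set Φ := T.τ (B * pat q l) with hΦ
        have hΦ1 : ‖Φ‖ ≤ 1 := (T.norm_τ_le _).trans ((norm_mul_le _ _).trans
          (mul_le_one₀ (hFn B hB) (norm_nonneg _) (norm_pat_le hq l hl1)))
        filter_upwards [n1, n2 C (t ^ 2) (by positivity),
          (tendsto_iff_norm_sub_tendsto_zero.1 g1).eventually (ge_mem_nhds ht)] with ν a1 a2 a3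
        refine (Av.E_mono (g := fun a => ‖Φ‖ ^ 2 + 2 * t ^ 2 * (conj Φ * T.τ (B * D2 q a l)).re +
          (2 * (1 + 10 * 8000 ^ R) + (2 * (10 * 8000 ^ R) + 1) ^ 2) * t ^ 3)
          ((a1.and a2).mono fun a ha => ?_)).trans ?_
        · obtain ⟨-, -, j2, j3⟩ := (Jet.const (hFn B hB)).mul (jet_pat hq ha.1.2.1 ha.1.2.2 l hl1)
          have hK : 10 * 1 * (8000 : ℝ) ^ l.length ≤ 10 * 8000 ^ R := by
            rw [mul_one]; gcongr; norm_num
          simp only [zero_mul, zero_add] at j2 j3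
          refine sq_est (d₁ := T.τ (B * D1 q a l)) ht ht1 hΦ1 (by rw [hC]; exact ha.2)
            ((T.norm_τ_le _).trans (j2.trans hK)) ?_
          have := (T.norm_τ_le _).trans ((j3 t ⟨ht.le, ht1⟩).trans
            (mul_le_mul_of_nonneg_right hK (by positivity)))
          simpa only [map_sub, map_add, LinearMap.map_smul_of_tower] using this
        · rw [Av.E_add, Av.E_add, Av.E_const, Av.E_const]
          have e := Av.E_map ((2 * t ^ 2) • Complex.reLm.comp
            ((LinearMap.mul ℂ ℂ (conj Φ)).restrictScalars ℝ)) ν fun a => T.τ (B * D2 q a l)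
          simp only [LinearMap.smul_apply, LinearMap.comp_apply, LinearMap.restrictScalars_apply,
            LinearMap.mul_apply', Complex.reLm_coe, smul_eq_mul] at e
          rw [← e]
          generalize ν.E (fun a => T.τ (B * D2 q a l)) = g at *
          have e2 : conj Φ * g = conj Φ * (g - G) + conj Φ * (G + l.length * Φ) -
              ((l.length * ‖Φ‖ ^ 2 : ℝ) : ℂ) := by
            push_cast; rw [← Complex.conj_mul']; ring
          have b1 : (conj Φ * (g - G)).re ≤ t := (Complex.re_le_norm _).trans (by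
            rw [norm_mul, Complex.norm_conj]; nlinarith [norm_nonneg (g - G)])
          have hlR' : (l.length : ℝ) ≤ R := by exact_mod_cast hlR
          have b2 : (conj Φ * (G + l.length * Φ)).re ≤ ‖Φ‖ * (2 * R ^ 2 * √S2) :=
            (Complex.re_le_norm _).trans (by
              rw [norm_mul, Complex.norm_conj]; gcongr; exact g2.trans (by gcongr))
          have b3 : (1 : ℝ) ≤ l.length := by exact_mod_cast List.length_pos_iff.2 hl0
          have b4 : ‖Φ‖ * (2 * R ^ 2 * √S2) ≤ ‖Φ‖ ^ 2 / 2 + 2 * R ^ 4 * S2 := by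
            have : (2 * R ^ 2 * √S2) ^ 2 = 4 * R ^ 4 * S2 := by
              rw [mul_pow, Real.sq_sqrt hS2]; ring
            nlinarith [sq_nonneg (‖Φ‖ - 2 * R ^ 2 * √S2)]
          have b5 : (conj Φ * g).re ≤ t - ‖Φ‖ ^ 2 / 2 + 2 * R ^ 4 * S2 := by
            rw [e2, Complex.sub_re, Complex.add_re, Complex.ofReal_re]
            nlinarith [sq_nonneg ‖Φ‖]
          nlinarith [mul_le_mul_of_nonneg_left b5 (by positivity : 0 ≤ 2 * t ^ 2)]
      obtain ⟨ν, a1, a2⟩ := (n1.and ((eventually_all_finset _).2 this)).exists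
      refine ⟨ν.bind fun a => .pt (p * exp (t • Complex.I • a)), Av.All.bind (a1.mono fun a ha =>
        hp.mul ⟨exp_I_unit ha.2.1 t, exp_mem (R := ℂ) hP ?_⟩), fun w hw => ?_⟩
      · rw [← Complex.coe_smul]; exact P.smul_mem (P.smul_mem ha.1 _) _
      · rw [Av.E_bind]; exact a2 w hw) (η := η ^ 2) (by positivity)
  exact ⟨p, hp, fun B hB l h3 h4 h5 h6 => (abs_le_of_sq_le_sq' (H (B, l)
    (hI.mem_toFinset.2 ⟨hB, h3, h4, h5, h6⟩)) hη.le).2⟩

theorem key_filter {P : StarSubalgebra ℂ A} (hP : IsClosed (P : Set A)) (h1 : AV T P)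
    (h2 : WN T P) {v : A} (hv : v ∈ unitary A) :
    ∃ l₀ : Filter A, l₀.NeBot ∧ (∀ᶠ p in l₀, UP P p) ∧ ∀ (B : A) (l : List (Bool × A)),
      Valid T l → l ≠ [] → Tendsto (fun p => T.τ (B * pat (v * p) l)) l₀ (𝓝 0) := by
  obtain ⟨l₀, h3, h4, h5⟩ := exists_filter (UP P) (γ := {w : A × List (Bool × A) // ‖w.1‖ ≤ 1 ∧
    (∀ x ∈ w.2, ‖x.2‖ ≤ 1) ∧ Valid T w.2 ∧ w.2 ≠ []})
    (fun w p => ‖T.τ (w.1.1 * pat (v * p) w.1.2)‖) (fun _ _ => norm_nonneg _) fun s η hη => by
      obtain ⟨p, hp, H⟩ := key_fin hP h1 h2 hv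
        (F := insert 1 (⋃ w ∈ s, insert w.1.1 (Prod.snd '' {x | x ∈ w.1.2})))
        ((s.finite_toSet.biUnion fun w _ => ((List.finite_toSet _).image _).insert _).insert _)
        (mem_insert _ _) (by
          simp only [mem_insert_iff, mem_iUnion]
          rintro _ (rfl | ⟨w, -, rfl | ⟨x, hx, rfl⟩⟩)
          exacts [Tr.norm_unit_le (one_mem _), w.2.1, w.2.2.1 x hx])
        (s.sup fun w => w.1.2.length) hη
      exact ⟨p, hp, fun w hw => H _ (Or.inr (mem_biUnion hw (mem_insert _ _))) _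
        (fun x hx => Or.inr (mem_biUnion hw (Or.inr ⟨x, hx, rfl⟩))) w.2.2.2.1 w.2.2.2.2
        (Finset.le_sup (f := fun w : {w : A × List (Bool × A) // _} => w.1.2.length) hw)⟩
  refine ⟨l₀, h3, h4, fun B l hl hl0 => ?_⟩
  obtain ⟨K, hK0, hKB, hK⟩ : ∃ K : ℝ, 0 < K ∧ ‖B‖ ≤ K ∧ ∀ x ∈ l, ‖x.2‖ ≤ K := by
    have : 0 ≤ (l.map fun x => ‖x.2‖).sum := List.sum_nonneg (List.forall_mem_map.2 fun _ _ => norm_nonneg _)
    refine ⟨1 + ‖B‖ + (l.map fun x => ‖x.2‖).sum, by positivity, by linarith, fun x hx => ?_⟩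
    have := List.single_le_sum (l := l.map fun x => ‖x.2‖)
      (List.forall_mem_map.2 fun _ _ => norm_nonneg _) _ (List.mem_map_of_mem hx)
    linarith [norm_nonneg B]
  have hs : ∀ b : A, ‖b‖ ≤ K → ‖((K⁻¹ : ℝ) : ℂ) • b‖ ≤ 1 := fun b hb => by
    rw [norm_smul, Complex.norm_real, Real.norm_of_nonneg (by positivity), inv_mul_le_iff₀ hK0,
      mul_one]; exact hb
  have hK' : (K : ℂ) * ((K⁻¹ : ℝ) : ℂ) = 1 := by
    rw [← Complex.ofReal_mul, mul_inv_cancel₀ hK0.ne', Complex.ofReal_one]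
  have e : ∀ (q : A) (l : List (Bool × A)), pat q l =
      (K : ℂ) ^ l.length • pat q (l.map fun x => (x.1, ((K⁻¹ : ℝ) : ℂ) • x.2)) := by
    intro q l
    induction l with
    | nil => simp [pat]
    | cons x l ih =>
      rw [List.map_cons, pat, pat, ih, List.length_cons, pow_succ, lt, lt]
      simp only [mul_smul_comm, smul_mul_assoc, smul_smul, mul_assoc, hK', mul_one]
  have := (tendsto_zero_iff_norm_tendsto_zero.2 (h5 ⟨(((K⁻¹ : ℝ) : ℂ) • B,
    l.map fun x => (x.1, ((K⁻¹ : ℝ) : ℂ) • x.2)), hs B hKB, by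
      simpa only [List.forall_mem_map] using fun x hx => hs _ (hK x hx),
      (List.isChain_map _).2 (hl.imp fun a b h h' => by simp [h h']), by simpa⟩)).const_mul
      ((K : ℂ) ^ l.length * K)
  rw [mul_zero] at this
  refine this.congr fun p => ?_
  rw [e _ l]
  simp only [mul_smul_comm, smul_mul_assoc, map_smul, smul_eq_mul]
  rw [mul_assoc, ← mul_assoc (K : ℂ), hK', one_mul]

end Crest.Agent.H1VN
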