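import Mathlib

/-! Tracial states on C⋆-algebras and the trace 2-norm. -/

set_option autoImplicit false

open Set Filter Metric Topology
open scoped InnerProductSpace ComplexConjugate

noncomputable section

namespace Crest.Agent.H1VN

/-- A tracial state. -/
structure Tr (A : Type*) [CStarAlgebra A] where
  τ : A →ₗ[ℂ] ℂ
  tr : ∀ x y, τ (x * y) = τ (y * x)
  one : τ 1 = 1
  star : ∀ x, τ (star x) = conj (τ x)
  pos : ∀ x, 0 ≤ (τ (Star.star x * x)).re

namespace Tr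

variable {A : Type*} [CStarAlgebra A] (T : Tr A)

def L2 (_T : Tr A) : Type _ := A

instance : AddCommGroup T.L2 := inferInstanceAs (AddCommGroup A)
instance : Module ℂ T.L2 := inferInstanceAs (Module ℂ A)

def toA (x : T.L2) : A := x

@[reducible] def core : PreInnerProductSpace.Core ℂ T.L2 where
  inner x y := T.τ (Star.star (T.toA x) * T.toA y)
  conj_inner_symm x y := by rw [← T.star, star_mul, star_star]
  re_inner_nonneg x := T.pos _
  add_left x y z := by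
    change T.τ (Star.star (T.toA x + T.toA y) * _) = _
    rw [star_add, add_mul, map_add]
  smul_left x y r := by
    change T.τ (Star.star (r • T.toA x) * _) = _
    rw [star_smul, smul_mul_assoc, map_smul]; rfl

instance : SeminormedAddCommGroup T.L2 :=
  InnerProductSpace.Core.toSeminormedAddCommGroup (c := T.core)
instance : InnerProductSpace ℂ T.L2 := InnerProductSpace.ofCore T.core

/-- The GNS space. -/
abbrev K : Type _ := UniformSpace.Completion T.L2

def J₀ : A →ₗ[ℂ] T.K := (UniformSpace.Completion.toComplL (𝕜 := ℂ) (E := T.L2)).toLinearMap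

lemma inner_J₀ (x y : A) : ⟪T.J₀ x, T.J₀ y⟫_ℂ = T.τ (Star.star x * y) :=
  UniformSpace.Completion.inner_coe (𝕜 := ℂ) (E := T.L2) x y

lemma norm_J₀_sq (x : A) : ‖T.J₀ x‖ ^ 2 = (T.τ (Star.star x * x)).re := by
  rw [← inner_J₀, inner_self_eq_norm_sq_to_K]; norm_cast

lemma J₀_mul_le (x y : A) : ‖T.J₀ (x * y)‖ ≤ ‖x‖ * ‖T.J₀ y‖ := by
  let := CStarAlgebra.spectralOrder A
  have := CStarAlgebra.spectralOrderedRing A
  obtain ⟨z, hz⟩ := CStarAlgebra.nonneg_iff_eq_star_mul_self.1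
    (sub_nonneg.2 (CStarAlgebra.star_mul_le_algebraMap_norm_sq (a := x)))
  refine abs_le_of_sq_le_sq' ?_ (by positivity) |>.2
  have h := T.pos (z * y)
  have e : Star.star (z * y) * (z * y) = ((‖x‖ ^ 2 : ℝ) : ℂ) • (Star.star y * y) -
      Star.star (x * y) * (x * y) := by
    rw [star_mul, mul_assoc, ← mul_assoc (Star.star z), ← hz, Algebra.algebraMap_eq_smul_one,
      star_mul, Complex.coe_smul]
    simp only [sub_mul, mul_sub, smul_mul_assoc, mul_smul_comm, one_mul, mul_assoc]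
  rw [e, map_sub, map_smul, Complex.sub_re, smul_eq_mul, Complex.re_ofReal_mul, ← norm_J₀_sq,
    ← norm_J₀_sq] at h
  rw [mul_pow]; linarith

lemma norm_J₀_one : ‖T.J₀ 1‖ = 1 := by
  have := T.norm_J₀_sq 1
  rw [star_one, one_mul, T.one, Complex.one_re] at this
  exact (pow_eq_one_iff_of_nonneg (norm_nonneg _) two_ne_zero).1 this

def J : A →L[ℂ] T.K := T.J₀.mkContinuous 1 fun x => by
  simpa [norm_J₀_one] using T.J₀_mul_le x 1

lemma inner_J (x y : A) : ⟪T.J x, T.J y⟫_ℂ = T.τ (Star.star x * y) := T.inner_J₀ x y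
lemma norm_J_sq (x : A) : ‖T.J x‖ ^ 2 = (T.τ (Star.star x * x)).re := T.norm_J₀_sq x
lemma norm_J_sq' (x : A) : ((‖T.J x‖ ^ 2 : ℝ) : ℂ) = T.τ (Star.star x * x) := by
  rw [← inner_J, inner_self_eq_norm_sq_to_K]; norm_cast
lemma J_mul_le (x y : A) : ‖T.J (x * y)‖ ≤ ‖x‖ * ‖T.J y‖ := T.J₀_mul_le x y
lemma norm_J_one : ‖T.J 1‖ = 1 := T.norm_J₀_one
lemma J_le (x : A) : ‖T.J x‖ ≤ ‖x‖ := by simpa [norm_J_one] using T.J_mul_le x 1

lemma J_star (x : A) : ‖T.J (Star.star x)‖ = ‖T.J x‖ := by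
  rw [← sq_eq_sq₀ (norm_nonneg _) (norm_nonneg _), norm_J_sq, norm_J_sq, star_star, T.tr]

lemma J_mul_le' (x y : A) : ‖T.J (x * y)‖ ≤ ‖T.J x‖ * ‖y‖ := by
  rw [← J_star, star_mul, mul_comm, ← T.J_star x, ← norm_star y]; exact T.J_mul_le _ _

lemma norm_τ_mul_le (x y : A) : ‖T.τ (x * y)‖ ≤ ‖T.J x‖ * ‖T.J y‖ := by
  rw [← T.J_star x, ← star_star x, ← inner_J, star_star]; exact norm_inner_le_norm _ _

lemma norm_τ_le_J (x : A) : ‖T.τ x‖ ≤ ‖T.J x‖ := by
  simpa [norm_J_one] using T.norm_τ_mul_le 1 x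

lemma norm_τ_le (x : A) : ‖T.τ x‖ ≤ ‖x‖ := (T.norm_τ_le_J x).trans (T.J_le x)

def τL : A →L[ℂ] ℂ := T.τ.mkContinuous 1 fun x => by simpa using T.norm_τ_le x

@[simp] lemma τL_apply (x : A) : T.τL x = T.τ x := rfl

lemma J_unit_mul {u : A} (hu : u ∈ unitary A) (x : A) : ‖T.J (u * x)‖ = ‖T.J x‖ := by
  rw [← sq_eq_sq₀ (norm_nonneg _) (norm_nonneg _), norm_J_sq, norm_J_sq, star_mul, mul_assoc,
    ← mul_assoc (Star.star u), hu.1, one_mul]

lemma J_mul_unit {u : A} (hu : u ∈ unitary A) (x : A) : ‖T.J (x * u)‖ = ‖T.J x‖ := by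
  rw [← J_star, star_mul, T.J_unit_mul (Unitary.star_mem hu), J_star]

lemma norm_unit_le {u : A} (hu : u ∈ unitary A) : ‖u‖ ≤ 1 := by
  rcases subsingleton_or_nontrivial A with h | h
  · simp [Subsingleton.elim u 0]
  · exact (CStarRing.norm_of_mem_unitary hu).le

end Tr

end Crest.Agent.H1VN
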