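import Crest.Agent.H1VN.Key2

/-! Ultraproduct traces and free extensions. -/

set_option autoImplicit false

open Set Filter Topology
open scoped InnerProductSpace ComplexConjugate BoundedContinuousFunction

noncomputable section

namespace Crest.Agent.H1VN

variable {A : Type*} [CStarAlgebra A] {T : Tr A}

lemma ul_lim (T : Tr A) (x : ℕ →ᵇ A) : Tendsto (fun n => T.τ (x n)) (hyperfilter ℕ)
    (𝓝 (limUnder (hyperfilter ℕ) fun n => T.τ (x n))) := by
  obtain ⟨z, -, hz⟩ := (isCompact_closedBall (0 : ℂ) ‖x‖).ultrafilter_le_nhds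
    ((hyperfilter ℕ).map fun n => T.τ (x n)) (by
      rw [Ultrafilter.coe_map, le_principal_iff, mem_map]
      exact univ_mem' fun n => mem_closedBall_zero_iff.2
        ((T.norm_τ_le _).trans (x.norm_coe_le_norm n)))
  exact tendsto_nhds_limUnder ⟨z, hz⟩

def Tr.ul (T : Tr A) : Tr (ℕ →ᵇ A) where
  τ :=
    { toFun := fun x => limUnder (hyperfilter ℕ) fun n => T.τ (x n)
      map_add' := fun x y => tendsto_nhds_unique (ul_lim T _)
        (by simpa using (ul_lim T x).add (ul_lim T y))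
      map_smul' := fun c x => tendsto_nhds_unique (ul_lim T _)
        (by simpa using (ul_lim T x).const_mul c) }
  tr x y := by simp [T.tr (x _)]
  one := tendsto_nhds_unique (ul_lim T _) (by simpa [T.one] using tendsto_const_nhds)
  star x := tendsto_nhds_unique (ul_lim T _) (by
    simpa [T.star, Function.comp_def] using (Complex.continuous_conj.tendsto _).comp (ul_lim T x))
  pos x := ge_of_tendsto' ((Complex.continuous_re.tendsto _).comp (ul_lim T (Star.star x * x)))
    fun n => T.pos (x n)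

lemma ul_tendsto (T : Tr A) (x : ℕ →ᵇ A) :
    Tendsto (fun n => T.τ (x n)) (hyperfilter ℕ) (𝓝 (T.ul.τ x)) := ul_lim T x

lemma ul_J (T : Tr A) (x : ℕ →ᵇ A) :
    Tendsto (fun n => ‖T.J (x n)‖) (hyperfilter ℕ) (𝓝 ‖T.ul.J x‖) := by
  have := ((Complex.continuous_re.tendsto _).comp (ul_tendsto T (star x * x))).sqrt
  rw [← Tr.norm_J_sq, Real.sqrt_sq (norm_nonneg _)] at this
  refine this.congr fun n => ?_
  rw [← Real.sqrt_sq (norm_nonneg (T.J (x n))), Tr.norm_J_sq]; rfl

lemma ul_unit {x : ℕ →ᵇ A} : x ∈ unitary (ℕ →ᵇ A) ↔ ∀ n, x n ∈ unitary A :=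
  ⟨fun h n => ⟨congrArg (· n) h.1, congrArg (· n) h.2⟩, fun h =>
    ⟨BoundedContinuousFunction.ext fun n => (h n).1, BoundedContinuousFunction.ext fun n => (h n).2⟩⟩

lemma pat_apply {G : Type*} (q : ℕ →ᵇ A) (y : G → ℕ →ᵇ A) (l : List (Bool × G)) (n : ℕ) :
    pat q (l.map fun x => (x.1, y x.2)) n = pat (q n) (l.map fun x => (x.1, y x.2 n)) := by
  induction l with
  | nil => rfl
  | cons x l ih =>
    obtain ⟨b, x⟩ := x
    cases b <;> simp [pat, lt, ih]

lemma ev_apply {ι : Type*} [DecidableEq ι] (U : ι → ℕ →ᵇ A) (w : FreeGroup ι) (n : ℕ) :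
    ev U w n = ev (fun i => U i n) w := by
  unfold ev
  induction w.toWord with
  | nil => rfl
  | cons x l ih =>
    obtain ⟨i, b⟩ := x
    simp only [evL, List.map_cons, List.prod_cons] at ih ⊢
    cases b <;> simp [ih]

lemma null_mul {a a' b b' : A} (h1 : T.J (a - a') = 0) (h2 : T.J (b - b') = 0) :
    T.J (a * b - a' * b') = 0 := by
  have e1 := T.J_mul_le' (a - a') b
  have e2 := T.J_mul_le a' (b - b')
  rw [h1, norm_zero, zero_mul, norm_le_zero_iff] at e1
  rw [h2, norm_zero, mul_zero, norm_le_zero_iff] at e2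
  rw [show a * b - a' * b' = (a - a') * b + a' * (b - b') by noncomm_ring, map_add, e1, e2, add_zero]

lemma pat_congr {G : Type*} (q : A) {y y' : G → A} (h : ∀ g, T.J (y g - y' g) = 0)
    (l : List (Bool × G)) :
    T.J (pat q (l.map fun x => (x.1, y x.2)) - pat q (l.map fun x => (x.1, y' x.2))) = 0 := by
  induction l with
  | nil => simp
  | cons x l ih => exact null_mul (null_mul (by simp) (h _)) ih

lemma normal_form {ι : Type*} (w : FreeGroup (Option ι)) :
    ∃ (g : FreeGroup ι) (l : List (Bool × FreeGroup ι)),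
      l.IsChain (fun x y => x.1 ≠ y.1 → x.2 ≠ 1) ∧ w = FreeGroup.map some g *
        (l.map fun x => (bif x.1 then .of none else (FreeGroup.of none)⁻¹) *
          FreeGroup.map some x.2).prod := by
  rcases w with ⟨L⟩
  induction L with
  | nil => exact ⟨1, [], by simp, by simp; rfl⟩
  | cons x L ih =>
    obtain ⟨g, l, h1, h2⟩ := ih
    rw [FreeGroup.quot_mk_eq_mk] at h2 ⊢
    rw [← List.singleton_append, ← FreeGroup.mul_mk, h2]
    obtain ⟨_ | i, b⟩ := x
    · have e : FreeGroup.mk [((none : Option ι), b)] = bif b then .of none else (FreeGroup.of none)⁻¹ := by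
        cases b <;> rfl
      by_cases h : g = 1 ∧ ∃ y l', l = y :: l' ∧ b ≠ y.1
      · obtain ⟨rfl, ⟨c, y⟩, l', rfl, h⟩ := h
        refine ⟨y, l', h1.tail, ?_⟩
        rw [e]
        cases b <;> cases c <;> simp [mul_assoc] at h ⊢
      · refine ⟨1, (b, g) :: l, List.isChain_cons.2 ⟨fun y hy hb hg => h ⟨hg, y, l.tail, ?_, hb⟩, h1⟩, ?_⟩
        · exact (List.cons_head?_tail hy).symm
        · rw [e]; simp [mul_assoc]
    · exact ⟨.mk [(i, b)] * g, l, h1, by rw [map_mul, mul_assoc]; rfl⟩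

theorem free_ext {P : StarSubalgebra ℂ A} (hP : IsClosed (P : Set A)) (h1 : AV T P) (h2 : WN T P)
    {ι : Type*} [DecidableEq ι] [Countable ι] {U : ι → ℕ →ᵇ A} (hU : Un U) (hF : Free T.ul U)
    {v : ℕ →ᵇ A} (hv : v ∈ unitary _) : ∃ p : ℕ →ᵇ A, (∀ n, UP P (p n)) ∧
      Free T.ul fun o : Option ι => o.elim (v * p) U := by
  classical
  obtain ⟨f, hf⟩ := exists_surjective_nat (FreeGroup ι × List (Bool × FreeGroup ι))
  let c : FreeGroup ι → ℕ →ᵇ A := fun g => if g = 1 then 0 else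
    .ofNormedAddCommGroupDiscrete (fun n => T.τ (ev U g n) • 1) ‖ev U g‖ fun n => by
      rw [norm_smul]
      exact (mul_le_of_le_one_right (norm_nonneg _) (Tr.norm_unit_le (one_mem _))).trans
        ((T.norm_τ_le _).trans ((ev U g).norm_coe_le_norm n))
  have hc : ∀ g, T.ul.J (ev U g - (ev U g - c g)) = 0 := fun g => by
    rw [sub_sub_cancel]
    by_cases hg : g = 1
    · simp [c, hg]
    · have := (ul_tendsto T (ev U g)).norm
      rw [hF g hg, norm_zero] at this
      refine norm_eq_zero.1 (tendsto_nhds_unique (ul_J T _) (this.congr fun n => ?_))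
      simp [c, hg, norm_smul, T.norm_J_one]
  have hc' : ∀ g, g ≠ 1 → ∀ n, T.τ ((ev U g - c g) n) = 0 := fun g hg n => by simp [c, hg, T.one]
  have : ∀ n, ∃ p, UP P p ∧ ∀ j ∈ Finset.range (n + 1),
      (f j).2.IsChain (fun x y => x.1 ≠ y.1 → x.2 ≠ 1) → (f j).2 ≠ [] →
        ‖T.τ ((ev U (f j).1 - c (f j).1) n * pat (v n * p)
          ((f j).2.map fun x => (x.1, (ev U x.2 - c x.2) n)))‖ ≤ 1 / (n + 1) := by
    intro n
    obtain ⟨l₀, _, h3, h4⟩ := key_filter hP h1 h2 (ul_unit.1 hv n)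
    refine (h3.and ((eventually_all_finset _).2 fun j _ => ?_)).exists
    rw [eventually_imp_distrib_left]; intro h5
    rw [eventually_imp_distrib_left]; intro h6
    exact (h4 _ _ ((List.isChain_map _).2 (h5.imp fun a b h h' => hc' _ (h h') n))
      (by simpa using h6)).norm.eventually (ge_mem_nhds (by simpa using Nat.cast_add_one_pos n))
  choose p hp hp' using this
  let p' : ℕ →ᵇ A := .ofNormedAddCommGroupDiscrete p 1 fun n => Tr.norm_unit_le (hp n).1
  refine ⟨p', hp, fun w hw => ?_⟩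
  have hV : Un fun o : Option ι => o.elim (v * p') U := by
    rintro (_ | i)
    exacts [mul_mem hv (ul_unit.2 fun n => (hp n).1), hU i]
  obtain ⟨g, l, h3, rfl⟩ := normal_form w
  have e : ∀ l : List (Bool × FreeGroup ι), ev (fun o : Option ι => o.elim (v * p') U)
      (l.map fun x => (bif x.1 then .of none else (FreeGroup.of none)⁻¹) *
          FreeGroup.map some x.2).prod = pat (v * p') (l.map fun x => (x.1, ev U x.2)) := by
    intro l
    induction l with
    | nil => simp [pat]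
    | cons x l ih =>
      rw [List.map_cons, List.prod_cons, ev_mul hV, ih, ev_mul hV, ← ev_map hV]
      obtain ⟨b, x⟩ := x
      cases b <;> simp [pat, lt, ev_inv hV, Function.comp_def]
  rw [ev_mul hV, e, ← ev_map hV]
  change T.ul.τ (ev U g * _) = 0
  rcases eq_or_ne l [] with rfl | hl
  · simpa [pat] using hF g (by rintro rfl; simp at hw)
  have h4 := T.ul.norm_τ_le_J (_ - _) |>.trans_eq
    (congrArg norm (null_mul (hc g) (pat_congr (v * p') hc l)))
  rw [norm_zero, norm_le_zero_iff, map_sub, sub_eq_zero] at h4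
  rw [h4]
  obtain ⟨j, hj⟩ := hf (g, l)
  refine tendsto_nhds_unique (ul_tendsto T _) (Tendsto.mono_left ?_ Nat.hyperfilter_le_atTop)
  refine squeeze_zero_norm' ((eventually_ge_atTop j).mono fun n hn => ?_)
    tendsto_one_div_add_atTop_nhds_zero_nat
  have := hp' n j (Finset.mem_range.2 (by omega)) (by rwa [hj]) (by rwa [hj])
  rw [hj] at this
  rw [BoundedContinuousFunction.mul_apply, pat_apply (v * p') fun g => ev U g - c g]
  exact this

/-- bounded 2-Lipschitz `P`-polynomial functions of a unitary variable -/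
def QF (T : Tr A) (P : StarSubalgebra ℂ A) (f : A → A) : Prop :=
  (∃ L : ℝ, 0 < L ∧ (∀ u ∈ unitary A, ‖f u‖ ≤ L) ∧ ∀ u ∈ unitary A, ∀ v ∈ unitary A,
    ‖T.J (f u - f v)‖ ≤ L * ‖T.J (u - v)‖) ∧
  ∀ B : StarSubalgebra ℂ A, P ≤ B → ∀ u ∈ B, f u ∈ B

theorem dense_O {P : StarSubalgebra ℂ A} (hP : IsClosed (P : Set A)) (h1 : AV T P) (h2 : WN T P)
    {u₀ x : A} (hu₀ : u₀ ∈ unitary A) (hx : x ∈ unitary A) {δ ε : ℝ} (hδ : 0 < δ) (hε : 0 < ε) :
    ∃ u ∈ unitary A, ‖T.J (u - u₀)‖ < δ ∧ ∃ f, QF T P f ∧ ‖T.J (x - f u)‖ < ε := by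
  classical
  have hc : ∀ y ∈ unitary A, BoundedContinuousFunction.const ℕ y ∈ unitary (ℕ →ᵇ A) :=
    fun y hy => ul_unit.2 fun _ => hy
  have hun : ∀ {ι : Type} {U : ι → ℕ →ᵇ A} {v p : ℕ →ᵇ A}, Un U → v ∈ unitary _ →
      (∀ n, UP P (p n)) → Un fun o : Option ι => o.elim (v * p) U := by
    rintro ι U v p hU hv hp (_ | i)
    exacts [mul_mem hv (ul_unit.2 fun n => (hp n).1), hU i]
  have u0 : Un (Empty.elim : Empty → ℕ →ᵇ A) := fun i => i.elim
  obtain ⟨p₁, a1, f1⟩ := free_ext hP h1 h2 u0 (fun w hw => (hw (Subsingleton.elim _ _)).elim)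
    (hc _ hu₀)
  have u1 := hun u0 (hc _ hu₀) a1
  obtain ⟨p₂, a2, f2⟩ := free_ext hP h1 h2 u1 f1 (one_mem _)
  have u2 := hun u1 (one_mem _) a2
  obtain ⟨p₃, a3, f3⟩ := free_ext hP h1 h2 u2 f2 (hc _ hx)
  have u3 := hun u2 (hc _ hx) a3
  obtain ⟨W, HW⟩ := core T.ul (ι := Option (Option (Option Empty))) (h := some (some none))
    (g := some none) (y := none) (by simp) (by simp) (by simp) (half_pos hδ) (half_pos hε)
  obtain ⟨V, hV, -, b1, b2, b3, -⟩ := HW _ u3 f3
  have b4 := b2 (some none) (by simp) (by simp)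
  obtain ⟨n, c1, c2⟩ := (((ul_J T _).eventually (gt_mem_nhds (b1.trans_lt (half_lt_self hδ)))).and
    ((ul_J T _).eventually (gt_mem_nhds (b3.trans_lt (half_lt_self hε))))).exists
  simp only [Option.elim, BoundedContinuousFunction.sub_apply, BoundedContinuousFunction.mul_apply,
    BoundedContinuousFunction.const_apply, ev_apply, one_mul] at c1 c2 b4
  have hVn : Un fun i => V i n := fun i => ul_unit.1 (hV i) n
  let Y : A → Option (Option (Option Empty)) → A := fun u i =>
    if i = some (some none) then u * p₁ n else p₂ n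
  have hY : ∀ u ∈ unitary A, Un (Y u) := fun u hu i => by
    simp only [Y]; split_ifs
    exacts [mul_mem hu (a1 n).1, (a2 n).1]
  have hu := mul_mem (hVn (some (some none))) (Unitary.star_mem (a1 n).1)
  refine ⟨_, hu, ?_, fun u => ev (Y u) (jj (some (some none)) (some none) W) * star (p₃ n),
    ⟨?_, fun B hB u hu => mul_mem (ev_mem_sub B (fun i => ?_) _) (star_mem (hB (a3 n).2))⟩, ?_⟩
  · rwa [← T.J_mul_unit (a1 n).1, sub_mul, mul_assoc, (a1 n).1.1, mul_one]
  · obtain ⟨L, hL, H⟩ := pi_lip T (sg (jj (some (some none)) (some none) W :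
      FreeGroup (Option (Option (Option Empty)))))
    refine ⟨L + 1, by positivity, fun u hu => (Tr.norm_unit_le (mul_mem (ev_mem (hY u hu) _)
      (Unitary.star_mem (a3 n).1))).trans (by linarith), fun u hu v hv => ?_⟩
    have := H _ _ (hY u hu) (hY v hv) _ (norm_nonneg (T.J (u - v))) fun i => by
      simp only [Y]; split_ifs
      · rw [← sub_mul, T.J_mul_unit (a1 n).1]
      · simp
    rw [pi_sg, pi_sg] at this
    rw [← sub_mul, T.J_mul_unit (Unitary.star_mem (a3 n).1)]
    linarith [norm_nonneg (T.J (u - v))]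
  · simp only [Y]; split_ifs
    exacts [mul_mem hu (hB (a1 n).2), hB (a2 n).2]
  · rw [← T.J_mul_unit (a3 n).1, sub_mul, mul_assoc, (a3 n).1.1, mul_one, ← neg_sub, map_neg,
      norm_neg, ev_jj (hY _ hu) hVn (by simp [Y, mul_assoc, (a1 n).1.1]) (by simp [Y, b4])]
    exact c2

end Crest.Agent.H1VN
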