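import Crest.Agent.H1VN.Iter
import Crest.Prelude.Def_VNFactor

/-! Finite von Neumann algebras as tracial C⋆-algebras. -/

set_option autoImplicit false

open Set Filter Topology Crest.OpAlg
open scoped InnerProductSpace ComplexConjugate

noncomputable section

namespace Crest.Agent.H1VN

lemma proj_comm {E : Type*} [NormedAddCommGroup E] [InnerProductSpace ℂ E] (V : Submodule ℂ E)
    [V.HasOrthogonalProjection] (a a' : E →L[ℂ] E) (h : ∀ x y, ⟪a' x, y⟫_ℂ = ⟪x, a y⟫_ℂ)
    (h1 : ∀ v ∈ V, a v ∈ V) (h2 : ∀ v ∈ V, a' v ∈ V) (x : E) :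
    V.starProjection (a x) = a (V.starProjection x) := by
  refine Submodule.eq_starProjection_of_mem_of_inner_eq_zero
    (h1 _ (V.starProjection_apply_mem x)) fun w hw => ?_
  rw [← map_sub, ← inner_conj_symm, ← h, inner_conj_symm]
  exact V.starProjection_inner_eq_zero x _ (h2 w hw)

variable {H : Type*} [NormedAddCommGroup H] [InnerProductSpace ℂ H] [CompleteSpace H]

abbrev LH (H : Type*) [NormedAddCommGroup H] := lp (fun _ : ℕ => H) 2

def dg (x : H →L[ℂ] H) : LH H →L[ℂ] LH H :=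
  lp.mapCLM 2 (fun _ => x) (norm_nonneg x) fun _ => le_rfl

omit [CompleteSpace H] in
@[simp] lemma dg_apply (x : H →L[ℂ] H) (η : LH H) (n : ℕ) : dg x η n = x (η n) := rfl

omit [CompleteSpace H] in
lemma dg_mul (x y : H →L[ℂ] H) (η : LH H) : dg (x * y) η = dg x (dg y η) := rfl

omit [CompleteSpace H] in
lemma dg_sub (x y : H →L[ℂ] H) (η : LH H) : dg (x - y) η = dg x η - dg y η := rfl

omit [CompleteSpace H] in
lemma dg_add (x y : H →L[ℂ] H) (η : LH H) : dg (x + y) η = dg x η + dg y η := rfl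

omit [CompleteSpace H] in
lemma dg_smul (c : ℂ) (x : H →L[ℂ] H) (η : LH H) : dg (c • x) η = c • dg x η := rfl

omit [CompleteSpace H] in
lemma dg_one (η : LH H) : dg 1 η = η := rfl

lemma inner_star (x : H →L[ℂ] H) (η ζ : H) : ⟪star x η, ζ⟫_ℂ = ⟪η, x ζ⟫_ℂ :=
  ContinuousLinearMap.adjoint_inner_left _ _ _

lemma inner_dg (x : H →L[ℂ] H) (η ζ : LH H) : ⟪dg (star x) η, ζ⟫_ℂ = ⟪η, dg x ζ⟫_ℂ := by
  simp only [lp.inner_eq_tsum, dg_apply, inner_star]

instance (M : VonNeumannAlgebra H) : IsClosed (M.toStarSubalgebra : Set (H →L[ℂ] H)) := by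
  rw [VonNeumannAlgebra.coe_toStarSubalgebra, ← M.centralizer_centralizer]
  exact Set.isClosed_centralizer _

abbrev MA (M : VonNeumannAlgebra H) := M.toStarSubalgebra

variable {M : VonNeumannAlgebra H} {ξ : ℕ → H} (hξ : IsFaithfulTracialVectorState M ξ)

def Xi : LH H := ⟨ξ, memℓp_gen (by simpa using hξ.1.summable)⟩

@[simp] lemma Xi_apply (n : ℕ) : Xi hξ n = ξ n := rfl

omit [CompleteSpace H] in
lemma lp_norm_sq (η : LH H) : ‖η‖ ^ 2 = ∑' n, ‖η n‖ ^ 2 := by
  simpa using lp.norm_rpow_eq_tsum (p := 2) (by simp) η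

lemma tns_eq (x : H →L[ℂ] H) : traceNormSq ξ x = ‖dg x (Xi hξ)‖ ^ 2 := by
  rw [lp_norm_sq]; rfl

lemma vs_eq (x : H →L[ℂ] H) : vectorState ξ x = ⟪Xi hξ, dg x (Xi hξ)⟫_ℂ := by
  rw [lp.inner_eq_tsum]; rfl

def trM : Tr (MA M) where
  τ :=
    { toFun := fun x => vectorState ξ x
      map_add' := fun x y => by
        simp only [vs_eq hξ, AddMemClass.coe_add, dg_add, inner_add_right]
      map_smul' := fun c x => by
        simp only [vs_eq hξ, SetLike.val_smul, dg_smul, inner_smul_right]; rfl }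
  tr x y := hξ.2.1 _ x.2 _ y.2
  one := by
    change vectorState ξ 1 = 1
    rw [vs_eq hξ, dg_one, inner_self_eq_norm_sq_to_K]
    have := lp_norm_sq (Xi hξ)
    simp only [Xi_apply, hξ.1.tsum_eq] at this
    rw [← RCLike.ofReal_pow, this, RCLike.ofReal_one]
  star x := by
    change vectorState ξ (star (x : H →L[ℂ] H)) = conj (vectorState ξ x)
    rw [vs_eq hξ, vs_eq hξ, inner_conj_symm, ← inner_dg, star_star]
  pos x := by
    change 0 ≤ (vectorState ξ (star (x : H →L[ℂ] H) * x)).re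
    rw [vs_eq hξ, dg_mul, ← inner_dg, star_star]
    exact inner_self_nonneg (𝕜 := ℂ)

lemma trM_τ (x : MA M) : (trM hξ).τ x = vectorState ξ x := rfl

lemma norm_J_eq (x : MA M) : ‖(trM hξ).J x‖ = ‖dg x (Xi hξ)‖ := by
  rw [← sq_eq_sq₀ (norm_nonneg _) (norm_nonneg _), Tr.norm_J_sq]
  change (vectorState ξ (star (x : H →L[ℂ] H) * x)).re = _
  rw [vs_eq hξ, dg_mul, ← inner_dg, star_star, inner_self_eq_norm_sq_to_K]
  norm_cast

lemma tns_eq' (x : MA M) : traceNormSq ξ x = ‖(trM hξ).J x‖ ^ 2 := by rw [tns_eq hξ, norm_J_eq]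

lemma apply_le_J (x : MA M) (n : ℕ) : ‖(x : H →L[ℂ] H) (ξ n)‖ ≤ ‖(trM hξ).J x‖ := by
  rw [norm_J_eq]; exact lp.norm_apply_le_norm two_ne_zero (dg x (Xi hξ)) n

include hξ in
lemma dense_ind {p : H → Prop} (hc : IsClosed {η | p η}) (h0 : p 0)
    (ha : ∀ a b, p a → p b → p (a + b)) (hb : ∀ y ∈ M.commutant, ∀ n, p (y (ξ n))) (η : H) :
    p η := by
  let D : Submodule ℂ H := Submodule.span ℂ {η | ∃ y ∈ M.commutant, ∃ n, η = y (ξ n)}
  let V := D.topologicalClosure
  have hinv : ∀ y ∈ M.commutant, ∀ v ∈ V, y v ∈ V := by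
    intro y hy v hv
    refine map_mem_closure y.continuous (show v ∈ closure (D : Set H) from hv) fun w hw => ?_
    refine (Submodule.span_le (p := D.comap y.toLinearMap)).2 ?_ hw
    rintro _ ⟨z, hz, n, rfl⟩
    exact Submodule.subset_span ⟨y * z, mul_mem hy hz, n, rfl⟩
  have hP : V.starProjection ∈ M := by
    rw [← M.commutant_commutant, VonNeumannAlgebra.mem_commutant_iff]
    intro y hy
    ext x
    exact (proj_comm V y (star y) (inner_star y) (hinv y hy) (hinv _ (star_mem hy)) x).symm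
  have h1 := hξ.2.2 (1 - V.starProjection) (sub_mem (one_mem M) hP) fun n => by
    rw [ContinuousLinearMap.sub_apply, Submodule.starProjection_eq_self_iff.2, sub_eq_zero]
    · rfl
    · exact D.le_topologicalClosure (Submodule.subset_span ⟨1, one_mem _, n, rfl⟩)
  have h2 : η ∈ V := by
    have := V.starProjection_apply_mem η
    rwa [← sub_eq_zero.1 h1] at this
  refine closure_minimal (t := {η | p η}) (fun w hw => ?_) hc h2
  have : ∀ c : ℂ, p (c • w) := by
    induction hw using Submodule.span_induction with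
    | zero => simpa
    | add a b _ _ h3 h4 => intro c; rw [smul_add]; exact ha _ _ (h3 c) (h4 c)
    | smul c a _ h3 => intro d; rw [smul_smul]; exact h3 _
    | mem a h3 =>
      obtain ⟨y, hy, n, rfl⟩ := h3
      exact fun c => hb (c • y) (M.commutant.toStarSubalgebra.smul_mem hy c) n
  simpa using this 1

lemma comm_apply {y : H →L[ℂ] H} (hy : y ∈ M.commutant) (x : MA M) (η : H) :
    (x : H →L[ℂ] H) (y η) = y ((x : H →L[ℂ] H) η) :=
  congrArg (fun T : H →L[ℂ] H => T η) (VonNeumannAlgebra.mem_commutant_iff.1 hy x x.2)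

theorem trM_good : (trM hξ).Good where
  faith x hx := Subtype.ext <| hξ.2.2 _ x.2 fun n => by
    simpa [hx] using apply_le_J hξ x n
  comp x C hC hx := by
    have hC0 : 0 ≤ C := (norm_nonneg _).trans (hC 0)
    have hC' : ∀ n η, ‖(x n : H →L[ℂ] H) η‖ ≤ C * ‖η‖ := fun n η =>
      ContinuousLinearMap.le_of_opNorm_le _ (hC n) η
    have h1 : ∀ η, CauchySeq fun n => (x n : H →L[ℂ] H) η := by
      refine dense_ind hξ ?_ (by simpa using cauchySeq_const _)
        (fun a b ha hb => by simp only [map_add]; exact ha.add hb) fun y hy m => ?_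
      · refine isClosed_of_closure_subset fun η hη => Metric.cauchySeq_iff'.2 fun ε hε => ?_
        obtain ⟨ζ, hζ, h2⟩ := Metric.mem_closure_iff.1 hη (ε / 3 / (C + 1)) (by positivity)
        obtain ⟨N, hN⟩ := Metric.cauchySeq_iff'.1 hζ (ε / 3) (by positivity)
        refine ⟨N, fun n hn => ?_⟩
        have h3 : ∀ n, dist ((x n : H →L[ℂ] H) η) ((x n : H →L[ℂ] H) ζ) ≤ ε / 3 := fun n => by
          rw [dist_eq_norm, ← map_sub]
          rw [dist_eq_norm, lt_div_iff₀ (by positivity)] at h2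
          nlinarith [hC' n (η - ζ), norm_nonneg (η - ζ)]
        have := dist_triangle4 ((x n : H →L[ℂ] H) η) ((x n : H →L[ℂ] H) ζ) ((x N : H →L[ℂ] H) ζ)
          ((x N : H →L[ℂ] H) η)
        linarith [h3 n, h3 N, hN n hn, dist_comm ((x N : H →L[ℂ] H) ζ) ((x N : H →L[ℂ] H) η)]
      · simp_rw [comm_apply hy]
        refine y.uniformContinuous.comp_cauchySeq (Metric.cauchySeq_iff'.2 fun ε hε => ?_)
        obtain ⟨N, hN⟩ := Metric.cauchySeq_iff'.1 hx ε hε
        refine ⟨N, fun n hn => lt_of_le_of_lt ?_ (hN n hn)⟩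
        rw [dist_eq_norm, dist_eq_norm, ← map_sub]
        exact apply_le_J hξ (x n - x N) m
    choose f hf using fun η => cauchySeq_tendsto_of_complete (h1 η)
    let z : H →L[ℂ] H := ContinuousLinearMap.ofTendstoOfBoundedRange f
      (fun n => (x n : H →L[ℂ] H)) (tendsto_pi_nhds.2 hf)
      (isBounded_iff_forall_norm_le.2 ⟨C, by rintro _ ⟨n, rfl⟩; exact hC n⟩)
    have hz : ∀ η, Tendsto (fun n => (x n : H →L[ℂ] H) η) atTop (𝓝 (z η)) := hf
    have hzM : z ∈ M := by
      rw [← M.commutant_commutant, VonNeumannAlgebra.mem_commutant_iff]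
      intro y hy
      ext η
      refine tendsto_nhds_unique ((y.continuous.tendsto _).comp (hz η)) ?_
      have := hz (y η)
      simp only [comm_apply hy] at this
      exact this
    refine ⟨⟨z, hzM⟩, z.opNorm_le_bound hC0 fun η => le_of_tendsto' (hz η).norm fun n => hC' n η, ?_⟩
    have h2 : CauchySeq fun n => dg (x n) (Xi hξ) := Metric.cauchySeq_iff'.2 fun ε hε => by
      obtain ⟨N, hN⟩ := Metric.cauchySeq_iff'.1 hx ε hε
      refine ⟨N, fun n hn => lt_of_eq_of_lt ?_ (hN n hn)⟩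
      rw [dist_eq_norm, dist_eq_norm, ← map_sub, norm_J_eq]; rfl
    obtain ⟨ζ, hζ⟩ := cauchySeq_tendsto_of_complete h2
    have e : ζ = dg z (Xi hξ) := lp.ext <| funext fun m =>
      tendsto_nhds_unique (((lp.evalCLM ℂ (fun _ : ℕ => H) 2 m).continuous.tendsto _).comp hζ)
        (hz (ξ m))
    rw [Tr.tendsto_iff]
    simp_rw [norm_J_eq]
    exact tendsto_iff_norm_sub_tendsto_zero.1 (e ▸ hζ)

theorem mem_of_approx (N : VonNeumannAlgebra H) (x : MA M)
    (h : ∀ ε > 0, ∃ a : MA M, (a : H →L[ℂ] H) ∈ N ∧ ‖(trM hξ).J (x - a)‖ ≤ ε) :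
    (x : H →L[ℂ] H) ∈ N := by
  rw [← N.commutant_commutant, VonNeumannAlgebra.mem_commutant_iff]
  intro t ht
  ext η
  refine ext_inner_left ℂ fun ζ => ?_
  revert ζ η
  refine dense_ind hξ ?_ (by simp) (fun a b ha hb ζ => by simp only [map_add, inner_add_right, ha, hb])
    fun y hy n => ?_
  · simp only [setOf_forall]
    exact isClosed_iInter fun ζ => isClosed_eq (by fun_prop) (by fun_prop)
  refine dense_ind hξ (isClosed_eq (by fun_prop) (by fun_prop)) (by simp)
    (fun a b ha hb => by simp only [inner_add_left, ha, hb]) fun y' hy' m => ?_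
  refine eq_of_forall_dist_le fun ε hε => ?_
  set C := ‖y' (ξ m)‖ * (‖t‖ * ‖y‖) + ‖y'‖ * ‖t (y (ξ n))‖ + 1 with hC
  obtain ⟨a, ha, h1⟩ := h (ε / C) (by positivity)
  have e : ⟪y' (ξ m), (t * x) (y (ξ n))⟫_ℂ - ⟪y' (ξ m), (x * t) (y (ξ n))⟫_ℂ =
      ⟪y' (ξ m), t (y ((x - a : MA M).1 (ξ n)))⟫_ℂ -
        ⟪y' ((star (x - a) : MA M).1 (ξ m)), t (y (ξ n))⟫_ℂ := by
    have h2 := congrArg (fun T : H →L[ℂ] H => T (y (ξ n)))
      (VonNeumannAlgebra.mem_commutant_iff.1 ht a ha)
    rw [← comm_apply hy, ← comm_apply hy']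
    change _ = _ - ⟪star (x - a : H →L[ℂ] H) _, _⟫_ℂ
    rw [inner_star]
    simp only [ContinuousLinearMap.mul_apply] at h2
    simp only [ContinuousLinearMap.mul_apply, AddSubgroupClass.coe_sub,
      ContinuousLinearMap.sub_apply, map_sub, inner_sub_right, h2]
    ring
  rw [dist_eq_norm, e]
  have h3 : ‖(x - a : MA M).1 (ξ n)‖ ≤ ε / C := (apply_le_J hξ _ n).trans h1
  have h4 : ‖(star (x - a) : MA M).1 (ξ m)‖ ≤ ε / C :=
    (apply_le_J hξ _ m).trans (by rwa [Tr.J_star])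
  have h5 := (norm_inner_le_norm (𝕜 := ℂ) (y' (ξ m)) _).trans (mul_le_mul_of_nonneg_left
    ((t.le_opNorm _).trans (mul_le_mul_of_nonneg_left (y.le_of_opNorm_le_of_le le_rfl h3)
      (norm_nonneg _))) (norm_nonneg _))
  have h6 := (norm_inner_le_norm (𝕜 := ℂ) _ (t (y (ξ n)))).trans (mul_le_mul_of_nonneg_right
    (y'.le_of_opNorm_le_of_le le_rfl h4) (norm_nonneg _))
  refine (norm_sub_le _ _).trans ((add_le_add h5 h6).trans ?_)
  have h7 : C * (ε / C) = ε := mul_div_cancel₀ _ (by positivity)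
  have h8 : 0 < ε / C := by positivity
  nlinarith

theorem approx_of_mem (B : StarSubalgebra ℂ (MA M)) (x : MA M)
    (hx : (x : H →L[ℂ] H) ∈ Set.centralizer (Set.centralizer (Subtype.val '' (B : Set (MA M)))))
    {ε : ℝ} (hε : 0 < ε) : ∃ a ∈ B, ‖(trM hξ).J (x - a)‖ ≤ ε := by
  let D : Submodule ℂ (LH H) :=
    { carrier := {η | ∃ a ∈ B, η = dg a (Xi hξ)}
      add_mem' := by rintro _ _ ⟨a, ha, rfl⟩ ⟨b, hb, rfl⟩; exact ⟨a + b, add_mem ha hb, rfl⟩
      zero_mem' := ⟨0, zero_mem _, rfl⟩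
      smul_mem' := by rintro c _ ⟨a, ha, rfl⟩; exact ⟨c • a, B.smul_mem ha c, rfl⟩ }
  let V := D.topologicalClosure
  have hinv : ∀ a ∈ B, ∀ v ∈ V, dg a v ∈ V := by
    intro a ha v hv
    refine map_mem_closure (dg a.1).continuous (show v ∈ closure (D : Set (LH H)) from hv) ?_
    rintro _ ⟨b, hb, rfl⟩
    exact ⟨a * b, mul_mem ha hb, rfl⟩
  have hs : ∀ (y : H →L[ℂ] H) (l : ℕ) (η : H), dg y (lp.single 2 l η) = lp.single 2 l (y η) := by
    intro y l η
    refine lp.ext (funext fun k => ?_)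
    rw [dg_apply, lp.single_apply, lp.single_apply, Pi.apply_single (fun _ => y) (by simp)]
  have h1 : ∀ (l : ℕ) (η : H), V.starProjection (dg x (lp.single 2 l η)) =
      dg x (V.starProjection (lp.single 2 l η)) := by
    intro l η
    refine lp.ext (funext fun k => ?_)
    have := hx ((lp.evalCLM ℂ (fun _ : ℕ => H) 2 k) ∘L V.starProjection ∘L
      lp.singleContinuousLinearMap ℂ (fun _ : ℕ => H) 2 l) (by
        rintro _ ⟨a, ha, rfl⟩
        ext ζ
        have := proj_comm V (dg a) (dg (star a)) (inner_dg _) (hinv a ha) (hinv _ (star_mem ha))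
          (lp.single 2 l ζ)
        rw [hs] at this
        exact (congrArg (fun η : LH H => η k) this).symm)
    rw [hs]
    exact congrArg (fun T : H →L[ℂ] H => T η) this
  have h2 : V.starProjection (dg x (Xi hξ)) = dg x (V.starProjection (Xi hξ)) := by
    have h3 := lp.hasSum_single (p := 2) (by simp) (Xi hξ)
    refine ((V.starProjection ∘L dg x).hasSum h3).unique ?_
    simpa only [ContinuousLinearMap.comp_apply, h1] using (dg x ∘L V.starProjection).hasSum h3
  rw [Submodule.starProjection_eq_self_iff.2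
    (D.le_topologicalClosure ⟨1, one_mem _, rfl⟩ : Xi hξ ∈ V)] at h2
  obtain ⟨_, ⟨a, ha, rfl⟩, h4⟩ := Metric.mem_closure_iff.1
    (show dg x (Xi hξ) ∈ closure (D : Set (LH H)) from Submodule.starProjection_eq_self_iff.1 h2)
    ε hε
  exact ⟨a, ha, by rw [norm_J_eq]; rw [dist_eq_norm] at h4; exact h4.le⟩

end Crest.Agent.H1VN
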